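import Crest.Agent.R187.Defs

/-!
# Task D2: characters, Newton identity, symmetry, Pieri rule
-/

set_option autoImplicit false

namespace Crest.Agent.R187

open MvPolynomial

namespace Chars

theorem mem_monos {n d : ℕ} {α : Fin n →₀ ℕ} : α ∈ monos n d ↔ α.degree = d := by
  unfold monos
  rw [Finset.mem_finsuppAntidiag, Finsupp.degree_eq_sum]
  simp

theorem coeff_hd (n d : ℕ) (α : Fin n →₀ ℕ) :
    coeff α (hd n d) = if α.degree = d then 1 else 0 := by
  unfold hd
  rw [coeff_sum]
  simp only [coeff_monomial, Finset.sum_ite_eq', mem_monos]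

/-- the weight of a multiset of exponent vectors -/
noncomputable def wgt {n : ℕ} (m : (Fin n →₀ ℕ) →₀ ℕ) : Fin n →₀ ℕ := m.sum fun α k => k • α

theorem wgt_add {n : ℕ} (m m' : (Fin n →₀ ℕ) →₀ ℕ) : wgt (m + m') = wgt m + wgt m' :=
  Finsupp.sum_add_index' (fun _ => zero_smul _ _) (fun _ _ _ => add_smul _ _ _)

theorem wgt_single {n : ℕ} (α : Fin n →₀ ℕ) (k : ℕ) : wgt (Finsupp.single α k) = k • α :=
  Finsupp.sum_single_index (zero_smul _ _)

theorem pleth_eq (n a d : ℕ) :
    pleth n a d = ∑ m ∈ Finset.finsuppAntidiag (monos n d) a, monomial (wgt m) 1 := rfl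

theorem sum_filter_ge' {β M : Type} [DecidableEq β] [AddCommMonoid M] (S : Finset β) (a k : ℕ)
    (hk : k ≤ a) (α : β) (hα : α ∈ S) (F : (β →₀ ℕ) → M) :
    ∑ m ∈ (Finset.finsuppAntidiag S a).filter (fun m => k ≤ m α), F m =
      ∑ m ∈ Finset.finsuppAntidiag S (a - k), F (Finsupp.single α k + m) := by
  symm
  refine Finset.sum_bij' (fun m _ => Finsupp.single α k + m) (fun m _ => m - Finsupp.single α k)
    ?_ ?_ ?_ ?_ ?_
  · intro m hm
    rw [Finset.mem_finsuppAntidiag] at hm
    rw [Finset.mem_filter, Finset.mem_finsuppAntidiag]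
    refine ⟨⟨?_, ?_⟩, by simp⟩
    · simp only [Finsupp.coe_add, Pi.add_apply, Finset.sum_add_distrib, hm.1]
      rw [Finset.sum_eq_single α (fun b _ hb => Finsupp.single_eq_of_ne hb)
        (fun h => absurd hα h), Finsupp.single_eq_same]
      omega
    · exact Finsupp.support_add.trans (Finset.union_subset
        (Finsupp.support_single_subset.trans (Finset.singleton_subset_iff.2 hα)) hm.2)
  · intro m hm
    rw [Finset.mem_filter, Finset.mem_finsuppAntidiag] at hm
    rw [Finset.mem_finsuppAntidiag]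
    refine ⟨?_, Finsupp.support_tsub.trans hm.1.2⟩
    have h1 : Finsupp.single α k + (m - Finsupp.single α k) = m :=
      add_tsub_cancel_of_le (Finsupp.single_le_iff.2 hm.2)
    have h2 : ∑ x ∈ S, (Finsupp.single α k x + (m - Finsupp.single α k : _ →₀ ℕ) x) = a := by
      rw [← hm.1.1]
      exact Finset.sum_congr rfl fun x _ => DFunLike.congr_fun h1 x
    rw [Finset.sum_add_distrib, Finset.sum_eq_single α (fun b _ hb => Finsupp.single_eq_of_ne hb)
        (fun h => absurd hα h), Finsupp.single_eq_same] at h2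
    exact Nat.eq_sub_of_add_eq' h2
  · intro m _
    simp
  · intro m hm
    exact add_tsub_cancel_of_le (Finsupp.single_le_iff.2 (Finset.mem_filter.1 hm).2)
  · intro m _
    rfl

theorem sum_filter_ge (n a d k : ℕ) (hk : k ≤ a) (α : Fin n →₀ ℕ) (hα : α ∈ monos n d) :
    ∑ m ∈ (Finset.finsuppAntidiag (monos n d) a).filter (fun m => k ≤ m α),
      (monomial (wgt m) 1 : MvPolynomial (Fin n) ℤ) =
      monomial (k • α) 1 * pleth n (a - k) d := by
  rw [pleth_eq, Finset.mul_sum, sum_filter_ge' _ a k hk α hα]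
  refine Finset.sum_congr rfl fun m _ => ?_
  rw [wgt_add, wgt_single, monomial_mul, one_mul]

/-- the weight of a monomial of `Pol L n` -/
noncomputable def wL {L : Type} {n : ℕ} (m : (L × (Fin n →₀ ℕ)) →₀ ℕ) : Fin n →₀ ℕ :=
  m.sum fun v k => k • v.2

theorem polE_diag_monomial {L : Type} {n : ℕ} (i : Fin n) (m : (L × (Fin n →₀ ℕ)) →₀ ℕ) (c : ℂ) :
    polE L n i i (monomial m c) = (wL m i : ℂ) • monomial m c := by
  classical
  have h1 : ∀ v ∈ m.support,
      (monomial (m - Finsupp.single v 1) (m v : ℂ) : Pol L n) •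
        ((v.2 i : ℂ) • X (v.1, v.2 - Finsupp.single i 1 + Finsupp.single i 1) : Pol L n) =
      ((m v * v.2 i : ℕ) : ℂ) • monomial m 1 := by
    intro v hv
    by_cases h0 : v.2 i = 0
    · simp [h0]
    · have h2 : v.2 - Finsupp.single i 1 + Finsupp.single i 1 = v.2 :=
        tsub_add_cancel_of_le (Finsupp.single_le_iff.2 (Nat.one_le_iff_ne_zero.2 h0))
      have h3 : m - Finsupp.single v 1 + Finsupp.single v 1 = m :=
        tsub_add_cancel_of_le (Finsupp.single_le_iff.2
          (Nat.one_le_iff_ne_zero.2 (Finsupp.mem_support_iff.1 hv)))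
      rw [h2, smul_eq_mul, mul_smul_comm, X, monomial_mul, h3, smul_monomial, smul_monomial]
      congr 1
      simp [mul_comm]
  unfold polE
  rw [Derivation.coeFn_coe, mkDerivation_monomial, Finsupp.sum, Finset.sum_congr rfl h1,
    ← Finset.sum_smul, ← Nat.cast_sum, smul_comm, smul_monomial, smul_eq_mul, mul_one]
  congr 2
  unfold wL
  rw [Finsupp.sum, Finsupp.finsetSum_apply]
  rfl

theorem coeff_polE_diag {L : Type} {n : ℕ} (i : Fin n) (p : Pol L n)
    (m : (L × (Fin n →₀ ℕ)) →₀ ℕ) :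
    coeff m (polE L n i i p) = (wL m i : ℂ) * coeff m p := by
  classical
  induction p using MvPolynomial.induction_on' with
  | monomial u a =>
    rw [polE_diag_monomial, coeff_smul, coeff_monomial]
    split_ifs with h
    · rw [h, smul_eq_mul]
    · simp
  | add p q hp hq => rw [map_add, coeff_add, coeff_add, hp, hq, mul_add]

theorem inf_wt_eq {L : Type} {n : ℕ} (S : Set ((L × (Fin n →₀ ℕ)) →₀ ℕ)) (γ : Fin n →₀ ℕ) :
    restrictSupport ℂ S ⊓ wt (polE L n) γ = restrictSupport ℂ {m | m ∈ S ∧ wL m = γ} := by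
  ext p
  rw [Submodule.mem_inf, mem_wt, mem_restrictSupport_iff, mem_restrictSupport_iff]
  constructor
  · rintro ⟨h1, h2⟩ m hm
    refine ⟨h1 hm, ?_⟩
    ext i
    have h3 := congrArg (coeff m) (h2 i)
    rw [coeff_polE_diag, coeff_smul, smul_eq_mul] at h3
    exact_mod_cast mul_right_cancel₀ (mem_support_iff.1 hm) h3
  · intro h
    refine ⟨fun m hm => (h hm).1, fun i => ?_⟩
    ext m
    rw [coeff_polE_diag, coeff_smul, smul_eq_mul]
    by_cases hm : coeff m p = 0
    · rw [hm, mul_zero, mul_zero]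
    · rw [(h (mem_support_iff.2 hm)).2]

/-- glue a family of multisets -/
noncomputable def glue {L A : Type} [Fintype L] (P : L → (A →₀ ℕ)) : (L × A) →₀ ℕ :=
  (Finsupp.equivFunOnFinite.symm P).uncurry

theorem glue_apply {L A : Type} [Fintype L] (P : L → (A →₀ ℕ)) (l : L) (α : A) :
    glue P (l, α) = P l α := by
  simp [glue]

theorem glue_sum {L A M : Type} [Fintype L] [DecidableEq L] [DecidableEq A] [AddCommMonoid M]
    (P : L → (A →₀ ℕ)) (F : L × A → ℕ → M) (hF : ∀ v, F v 0 = 0) :
    (glue P).sum F = ∑ l, (P l).sum (fun α k => F (l, α) k) := by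
  have hsub : (glue P).support ⊆ Finset.univ ×ˢ (Finset.univ.biUnion fun l => (P l).support) := by
    rintro ⟨l, α⟩ h
    rw [Finsupp.mem_support_iff, glue_apply] at h
    exact Finset.mem_product.2 ⟨Finset.mem_univ _, Finset.mem_biUnion.2
      ⟨l, Finset.mem_univ _, Finsupp.mem_support_iff.2 h⟩⟩
  rw [Finsupp.sum_of_support_subset _ hsub _ (fun v _ => hF v), Finset.sum_product]
  refine Finset.sum_congr rfl fun l _ => ?_
  rw [Finsupp.sum_of_support_subset (P l)
    (Finset.subset_biUnion_of_mem (fun l => (P l).support) (Finset.mem_univ l)) _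
    (fun α _ => hF (l, α))]
  exact Finset.sum_congr rfl fun α _ => by rw [glue_apply]

theorem glue_bijective {L A : Type} [Fintype L] :
    Function.Bijective (glue : (L → (A →₀ ℕ)) → ((L × A) →₀ ℕ)) := by
  classical
  refine ⟨fun P Q h => ?_, fun m => ⟨m.curry, ?_⟩⟩
  · funext l
    ext α
    rw [← glue_apply, h, glue_apply]
  · ext ⟨l, α⟩
    rw [glue_apply, Finsupp.curry_apply]

theorem glue_mem {L : Type} [Fintype L] [DecidableEq L] (n d : ℕ) (deg : L → ℕ)
    (P : L → ((Fin n →₀ ℕ) →₀ ℕ)) :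
    glue P ∈ pieceSet n d deg ↔ ∀ l, P l ∈ Finset.finsuppAntidiag (monos n d) (deg l) := by
  have h1 : ∀ l, ((glue P).sum fun v k => if v.1 = l then k else 0) =
      (P l).sum (fun _ k => k) := by
    intro l
    rw [glue_sum _ _ (fun v => by simp), Finset.sum_eq_single l]
    · simp
    · intro b _ hb
      simp [hb]
    · simp
  unfold pieceSet
  simp only [Set.mem_ofPred_eq, h1, Finset.mem_finsuppAntidiag']
  constructor
  · rintro ⟨h2, h3⟩ l
    refine ⟨h3 l, fun α hα => mem_monos.2 (h2 (l, α) ?_)⟩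
    rwa [Finsupp.mem_support_iff, glue_apply, ← Finsupp.mem_support_iff]
  · intro h
    refine ⟨fun v hv => mem_monos.1 ((h v.1).2 ?_), fun l => (h l).1⟩
    rcases v with ⟨l, α⟩
    rwa [Finsupp.mem_support_iff, glue_apply, ← Finsupp.mem_support_iff] at hv

theorem wL_glue {L : Type} [Fintype L] [DecidableEq L] {n : ℕ}
    (P : L → ((Fin n →₀ ℕ) →₀ ℕ)) : wL (glue P) = ∑ l, wgt (P l) :=
  glue_sum P _ (fun _ => zero_smul _ _)

end Chars

open Chars

/-- The character of `piece n d deg`: the weight space is `restrictSupport` of the monomials of weight `γ`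
(a monomial `m` has weight `m.sum fun v k => k • v.2`), so its dimension is their number. -/
theorem coeff_prod_pleth {L : Type} [Fintype L] [DecidableEq L] (n d : ℕ) (deg : L → ℕ)
    (γ : Fin n →₀ ℕ) :
    coeff γ (∏ l, pleth n (deg l) d) = (wdim (polE L n) (piece n d deg) γ : ℤ) := by
  classical
  unfold wdim piece
  rw [inf_wt_eq, Module.finrank_eq_nat_card_basis (basisRestrictSupport ℂ _)]
  simp only [pleth_eq]
  rw [Finset.prod_univ_sum, coeff_sum]
  simp only [← monomial_sum_one, coeff_monomial]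
  rw [← Finset.sum_filter, Finset.sum_const, nsmul_eq_mul, mul_one]
  congr 1
  rw [← Nat.card_eq_finsetCard]
  refine Nat.card_congr ((Equiv.ofBijective _ glue_bijective).subtypeEquiv fun P => ?_)
  rw [Finset.mem_filter, Fintype.mem_piFinset, Equiv.ofBijective_apply, Set.mem_ofPred_eq,
    glue_mem, wL_glue]

theorem pleth_zero (n d : ℕ) : pleth n 0 d = 1 := by
  rw [pleth_eq, Finset.finsuppAntidiag_zero, Finset.sum_singleton]
  rfl

/-- Newton: `a h_a[f] = ∑_{k=1}^a p_k[f] h_{a-k}[f]` (count pairs (multiset, marked element with `1 ≤ k ≤` its multiplicity)). -/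
theorem pleth_newton (n a d : ℕ) :
    (a : MvPolynomial (Fin n) ℤ) * pleth n a d =
      ∑ k ∈ Finset.range a, expand (k + 1) (hd n d) * pleth n (a - (k + 1)) d := by
  classical
  have h1 : ∀ k ∈ Finset.range a, expand (k + 1) (hd n d) * pleth n (a - (k + 1)) d =
      ∑ α ∈ monos n d, ∑ m ∈ Finset.finsuppAntidiag (monos n d) a,
        if k + 1 ≤ m α then (monomial (wgt m) 1 : MvPolynomial (Fin n) ℤ) else 0 := by
    intro k hk
    unfold hd
    rw [map_sum, Finset.sum_mul]
    refine Finset.sum_congr rfl fun α hα => ?_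
    rw [← Finset.sum_filter, sum_filter_ge n a d (k + 1) (Finset.mem_range.1 hk) α hα,
      expand_monomial]
  rw [Finset.sum_congr rfl h1, Finset.sum_comm, pleth_eq, Finset.mul_sum]
  simp only [Finset.sum_comm (s := Finset.range a)]
  rw [Finset.sum_comm]
  refine Finset.sum_congr rfl fun m hm => ?_
  rw [Finset.mem_finsuppAntidiag] at hm
  have h2 : ∀ α ∈ monos n d, ∑ k ∈ Finset.range a,
      (if k + 1 ≤ m α then (monomial (wgt m) 1 : MvPolynomial (Fin n) ℤ) else 0) =
      (m α : MvPolynomial (Fin n) ℤ) * monomial (wgt m) 1 := by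
    intro α hα
    have h3 : m α ≤ a := hm.1 ▸ Finset.single_le_sum (f := m) (fun _ _ => Nat.zero_le _) hα
    rw [← Finset.sum_filter, Finset.sum_const, nsmul_eq_mul]
    congr 2
    have : (Finset.range a).filter (fun k => k + 1 ≤ m α) = Finset.range (m α) := by
      ext k; simp only [Finset.mem_filter, Finset.mem_range]; omega
    rw [this, Finset.card_range]
  rw [Finset.sum_congr rfl h2, ← Finset.sum_mul, ← Nat.cast_sum, hm.1]

theorem pleth_one (n d : ℕ) : pleth n 1 d = hd n d := by
  have := pleth_newton n 1 d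
  simpa [pleth_zero] using this

theorem hd_isHomogeneous (n d : ℕ) : (hd n d).IsHomogeneous d :=
  IsHomogeneous.sum _ _ _ fun _ hα => isHomogeneous_monomial _ (mem_monos.1 hα)

theorem pleth_isHomogeneous (n a d : ℕ) : (pleth n a d).IsHomogeneous (a * d) := by
  rw [pleth_eq]
  refine IsHomogeneous.sum _ _ _ fun m hm => isHomogeneous_monomial _ ?_
  rw [Finset.mem_finsuppAntidiag'] at hm
  unfold wgt
  rw [Finsupp.sum, map_sum, ← hm.1, Finsupp.sum, Finset.sum_mul]
  refine Finset.sum_congr rfl fun α hα => ?_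
  rw [map_nsmul, mem_monos.1 (hm.2 hα), smul_eq_mul]

theorem vand_isHomogeneous (n : ℕ) : (vand n).IsHomogeneous (n.choose 2) := by
  have h := IsHomogeneous.prod
    ((Finset.univ : Finset (Fin n × Fin n)).filter (fun p => p.1 < p.2))
    (fun p => (X p.1 - X p.2 : MvPolynomial (Fin n) ℤ)) (fun _ => 1)
    (fun p _ => (isHomogeneous_X _ _).sub (isHomogeneous_X _ _))
  rw [Finset.sum_const, smul_eq_mul, mul_one, Fintype.card_product_filter_lt,
    Fintype.card_fin] at h
  exact h

theorem hd_isSymmetric (n d : ℕ) : (hd n d).IsSymmetric := by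
  intro e
  ext β
  obtain ⟨α, rfl⟩ : ∃ α : Fin n →₀ ℕ, β = α.mapDomain e :=
    ⟨β.mapDomain e.symm, by rw [← Finsupp.mapDomain_comp]; simp⟩
  rw [coeff_rename_mapDomain _ e.injective, coeff_hd, coeff_hd, Finsupp.degree_mapDomain]

theorem pleth_isSymmetric (n a d : ℕ) : (pleth n a d).IsSymmetric := by
  induction a using Nat.strong_induction_on with
  | _ a ih =>
    rcases Nat.eq_zero_or_pos a with rfl | ha
    · rw [pleth_zero]; exact IsSymmetric.one
    · intro e
      have h1 := pleth_newton n a d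
      have h2 := congrArg (rename e) h1
      rw [map_mul, map_natCast, map_sum] at h2
      have h3 : ∀ k ∈ Finset.range a,
          rename e (expand (k + 1) (hd n d) * pleth n (a - (k + 1)) d) =
            expand (k + 1) (hd n d) * pleth n (a - (k + 1)) d := by
        intro k _
        rw [map_mul, rename_expand, hd_isSymmetric n d e, ih _ (by omega) e]
      rw [Finset.sum_congr rfl h3, ← h1] at h2
      exact mul_left_cancel₀ (Nat.cast_ne_zero.2 ha.ne') h2

theorem Chars.vand_eq (n : ℕ) :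
    vand n = ∏ i : Fin n, ∏ j ∈ Finset.Ioi i, (X i - X j : MvPolynomial (Fin n) ℤ) := by
  unfold vand
  rw [Finset.prod_filter, Fintype.prod_prod_type]
  refine Finset.prod_congr rfl fun i _ => ?_
  rw [← Finset.prod_filter]
  congr 1
  ext j; simp

/-- Antisymmetry of the Vandermonde product under a transposition. -/
theorem rename_swap_vand {n : ℕ} (i j : Fin n) (hij : i ≠ j) :
    rename (Equiv.swap i j) (vand n) = -vand n := by
  rw [vand_eq]
  simp only [map_prod, map_sub, rename_X]
  rw [Equiv.Perm.prod_Ioi_comp_eq_sign_mul_prod (Equiv.swap i j)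
    (f := fun i j => (X i - X j : MvPolynomial (Fin n) ℤ)) (fun i j => by ring),
    Equiv.Perm.sign_swap hij]
  simp

/-- Coefficients of `vand * f` are antisymmetric when `f` is symmetric. -/
theorem coeff_vand_mul_swap {n : ℕ} (f : MvPolynomial (Fin n) ℤ) (hf : f.IsSymmetric)
    (i j : Fin n) (hij : i ≠ j) (γ : Fin n →₀ ℕ) :
    coeff (γ.mapDomain (Equiv.swap i j)) (vand n * f) = -coeff γ (vand n * f) := by
  have h1 : vand n * f = -rename (Equiv.swap i j) (vand n * f) := by
    rw [map_mul, rename_swap_vand i j hij, hf]; ring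
  conv_lhs => rw [h1]
  rw [coeff_neg, coeff_rename_mapDomain _ (Equiv.swap i j).injective]

theorem Chars.sum_rho (n : ℕ) : ∑ i : Fin n, (n - 1 - (i : ℕ)) = n.choose 2 := by
  rw [Fin.sum_univ_eq_sum_range (fun i => n - 1 - i) n, Finset.sum_range_reflect (fun i => i) n,
    Finset.sum_range_id, Nat.choose_two_right]

/-- `mult` vanishes off the right degree. -/
theorem mult_eq_zero_of_degree {n N : ℕ} (f : MvPolynomial (Fin n) ℤ) (hf : f.IsHomogeneous N)
    (lam : Fin n → ℕ) (h : ∑ i, lam i ≠ N) : mult f lam = 0 := by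
  refine ((vand_isHomogeneous n).mul hf).coeff_eq_zero ?_
  rw [Finsupp.degree_eq_sum]
  simp only [plusRho, Finsupp.coe_equivFunOnFinite_symm, Finset.sum_add_distrib, sum_rho]
  omega

/-- The `mu` with `lam / mu` a horizontal strip of size `d`:
`lam (i+1) ≤ mu i ≤ lam i` and `|mu| + d = |lam|`. -/
noncomputable def strips {n : ℕ} (lam : Fin n → ℕ) (d : ℕ) : Finset (Fin n → ℕ) :=
  (Fintype.piFinset fun i => Finset.range (lam i + 1)).filter fun mu =>
    (∀ i j : Fin n, (j : ℕ) = i + 1 → lam j ≤ mu i) ∧ (∑ i, mu i) + d = ∑ i, lam i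

namespace Chars

theorem sum_cancel {n : ℕ} (F : (Fin n → ℕ) → ℤ)
    (hF : ∀ i j : Fin n, i ≠ j → ∀ β, F (β ∘ Equiv.swap i j) = -F β)
    (γ : Fin n → ℕ) (hγ : Antitone γ) (N : ℕ → Prop) [DecidablePred N] :
    ∑ β ∈ ((Fintype.piFinset fun i => Finset.range (γ i + 1)).filter
      (fun β => N (∑ i, β i))).filter
        (fun β => ¬ ∀ i j : Fin n, (j : ℕ) = i + 1 → γ j < β i), F β = 0 := by
  classical
  have hex : ∀ β ∈ ((Fintype.piFinset fun i => Finset.range (γ i + 1)).filter
      (fun β => N (∑ i, β i))).filter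
        (fun β => ¬ ∀ i j : Fin n, (j : ℕ) = i + 1 → γ j < β i),
      ∃ p : Fin n × Fin n, (p.2 : ℕ) = p.1 + 1 ∧ β p.1 ≤ γ p.2 ∧
        ∀ i j : Fin n, (j : ℕ) = i + 1 → i < p.1 → γ j < β i := by
    intro β hβ
    have h1 := (Finset.mem_filter.1 hβ).2
    push Not at h1
    obtain ⟨i0, j0, h2, h3⟩ := h1
    obtain ⟨i, hi, hmin⟩ := Finset.exists_min_image
      (Finset.univ.filter (fun i : Fin n => ∃ j : Fin n, (j : ℕ) = i + 1 ∧ β i ≤ γ j)) id
      ⟨i0, Finset.mem_filter.2 ⟨Finset.mem_univ _, j0, h2, h3⟩⟩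
    obtain ⟨j, hj1, hj2⟩ := (Finset.mem_filter.1 hi).2
    refine ⟨(i, j), hj1, hj2, fun i' j' h4 h5 => ?_⟩
    by_contra hcon
    exact absurd (hmin i' (Finset.mem_filter.2 ⟨Finset.mem_univ _, j', h4, not_lt.1 hcon⟩))
      (not_le.2 h5)
  have huniq : ∀ (β : Fin n → ℕ) (p q : Fin n × Fin n),
      ((p.2 : ℕ) = p.1 + 1 ∧ β p.1 ≤ γ p.2 ∧
        ∀ i j : Fin n, (j : ℕ) = i + 1 → i < p.1 → γ j < β i) →
      ((q.2 : ℕ) = q.1 + 1 ∧ β q.1 ≤ γ q.2 ∧
        ∀ i j : Fin n, (j : ℕ) = i + 1 → i < q.1 → γ j < β i) → p = q := by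
    rintro β ⟨i, j⟩ ⟨i', j'⟩ ⟨h1, h2, h3⟩ ⟨h4, h5, h6⟩
    simp only at h1 h2 h3 h4 h5 h6
    have : i = i' := by
      rcases lt_trichotomy i i' with h | h | h
      · exact absurd (h6 i j h1 h) (not_lt.2 h2)
      · exact h
      · exact absurd (h3 i' j' h4 h) (not_lt.2 h5)
    subst this
    have : j = j' := Fin.ext (by omega)
    rw [this]
  choose P hP using hex
  have hne : ∀ β hβ, (P β hβ).1 ≠ (P β hβ).2 := fun β hβ h => by
    have := (hP β hβ).1
    rw [h] at this
    omega
  have hle : ∀ β ∈ ((Fintype.piFinset fun i => Finset.range (γ i + 1)).filter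
      (fun β => N (∑ i, β i))).filter
        (fun β => ¬ ∀ i j : Fin n, (j : ℕ) = i + 1 → γ j < β i), ∀ i, β i ≤ γ i := by
    intro β hβ i
    have := Fintype.mem_piFinset.1 (Finset.mem_filter.1 (Finset.mem_filter.1 hβ).1).1 i
    rw [Finset.mem_range] at this
    omega
  have hswap : ∀ β hβ, ((P β hβ).2 : ℕ) = (P β hβ).1 + 1 ∧
      (β ∘ Equiv.swap (P β hβ).1 (P β hβ).2) (P β hβ).1 ≤ γ (P β hβ).2 ∧
        ∀ i j : Fin n, (j : ℕ) = i + 1 → i < (P β hβ).1 →
          γ j < (β ∘ Equiv.swap (P β hβ).1 (P β hβ).2) i := by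
    intro β hβ
    obtain ⟨h1, h2, h3⟩ := hP β hβ
    refine ⟨h1, ?_, fun i j h4 h5 => ?_⟩
    · rw [Function.comp_apply, Equiv.swap_apply_left]
      exact hle β hβ _
    · rw [Function.comp_apply, Equiv.swap_apply_of_ne_of_ne h5.ne]
      · exact h3 i j h4 h5
      · intro h
        rw [h, Fin.lt_def] at h5
        omega
  have hmem : ∀ β hβ, β ∘ Equiv.swap (P β hβ).1 (P β hβ).2 ∈
      ((Fintype.piFinset fun i => Finset.range (γ i + 1)).filter
      (fun β => N (∑ i, β i))).filter
        (fun β => ¬ ∀ i j : Fin n, (j : ℕ) = i + 1 → γ j < β i) := by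
    intro β hβ
    obtain ⟨h1, h2, h3⟩ := hP β hβ
    refine Finset.mem_filter.2 ⟨Finset.mem_filter.2 ⟨Fintype.mem_piFinset.2 fun i => ?_, ?_⟩, ?_⟩
    · rw [Finset.mem_range, Nat.lt_succ_iff, Function.comp_apply]
      by_cases e1 : i = (P β hβ).1
      · rw [e1, Equiv.swap_apply_left]
        exact (hle β hβ _).trans (hγ (by rw [Fin.le_def]; omega))
      · by_cases e2 : i = (P β hβ).2
        · rw [e2, Equiv.swap_apply_right]
          exact h2
        · rw [Equiv.swap_apply_of_ne_of_ne e1 e2]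
          exact hle β hβ _
    · have := (Finset.mem_filter.1 (Finset.mem_filter.1 hβ).1).2
      rwa [← Equiv.sum_comp (Equiv.swap (P β hβ).1 (P β hβ).2) β] at this
    · intro h
      exact absurd (h _ _ h1) (not_lt.2 (hswap β hβ).2.1)
  refine Finset.sum_involution (fun β hβ => β ∘ Equiv.swap (P β hβ).1 (P β hβ).2)
    (fun β hβ => by rw [hF _ _ (hne β hβ)]; ring) (fun β hβ h0 h => h0 ?_) hmem (fun β hβ => ?_)
  · have := hF _ _ (hne β hβ) β
    rw [h] at this
    omega
  · have := huniq _ _ _ (hP _ (hmem β hβ)) (hswap β hβ)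
    simp only [this]
    funext i
    simp

theorem coeff_mul_hd {n : ℕ} (g : MvPolynomial (Fin n) ℤ) (d : ℕ) (γ : Fin n → ℕ) :
    coeff (Finsupp.equivFunOnFinite.symm γ) (g * hd n d) =
      ∑ β ∈ (Fintype.piFinset fun i => Finset.range (γ i + 1)).filter
        (fun β => ∑ i, β i + d = ∑ i, γ i), coeff (Finsupp.equivFunOnFinite.symm β) g := by
  classical
  rw [coeff_mul]
  simp only [coeff_hd, mul_ite, mul_one, mul_zero]
  rw [← Finset.sum_filter]
  refine Finset.sum_bij' (fun x _ => ⇑x.1)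
    (fun β _ => (Finsupp.equivFunOnFinite.symm β, Finsupp.equivFunOnFinite.symm (γ - β)))
    ?_ ?_ ?_ ?_ ?_
  · rintro ⟨x, y⟩ h
    rw [Finset.mem_filter, Finset.HasAntidiagonal.mem_antidiagonal] at h
    have h1 : ∀ i, x i + y i = γ i := fun i => by simpa using DFunLike.congr_fun h.1 i
    rw [Finset.mem_filter, Fintype.mem_piFinset]
    refine ⟨fun i => ?_, ?_⟩
    · have := h1 i
      rw [Finset.mem_range]
      simp only
      omega
    · have h2 := h.2
      rw [Finsupp.degree_eq_sum] at h2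
      simp only at h2 ⊢
      rw [← h2, ← Finset.sum_add_distrib]
      exact Finset.sum_congr rfl fun i _ => h1 i
  · intro β h
    rw [Finset.mem_filter, Fintype.mem_piFinset] at h
    have h1 : ∀ i, β i + (γ i - β i) = γ i := fun i => by
      have := h.1 i
      rw [Finset.mem_range] at this
      omega
    rw [Finset.mem_filter, Finset.HasAntidiagonal.mem_antidiagonal]
    refine ⟨?_, ?_⟩
    · ext i
      simpa using h1 i
    · rw [Finsupp.degree_eq_sum]
      have h2 : ∑ i, β i + ∑ i, (γ i - β i) = ∑ i, γ i := by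
        rw [← Finset.sum_add_distrib]
        exact Finset.sum_congr rfl fun i _ => h1 i
      have h3 := h.2
      simp only [Finsupp.coe_equivFunOnFinite_symm, Pi.sub_apply]
      omega
  · rintro ⟨x, y⟩ h
    rw [Finset.mem_filter, Finset.HasAntidiagonal.mem_antidiagonal] at h
    have h1 : ∀ i, x i + y i = γ i := fun i => by simpa using DFunLike.congr_fun h.1 i
    refine Prod.ext (by simp) ?_
    ext i
    have := h1 i
    simp only [Finsupp.coe_equivFunOnFinite_symm, Pi.sub_apply]
    omega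
  · intro β _
    simp
  · rintro ⟨x, y⟩ _
    simp

end Chars

/-- Pieri rule, pull form.  With `γ = lam + ρ`, `F β = coeff β (vand * f)`: the coefficient of `x^γ` in `vand * f * h_d` is the sum of
`F β` over `β ≤ γ` with `|β| + d = |γ|`.  The `β` having `β i ≤ γ (i+1)` for some `i` cancel in pairs: take the least such `i` and swap
`β i`, `β (i+1)` (`Finset.sum_involution`, `coeff_vand_mul_swap`; if `β i = β (i+1)` the term is zero).  The remaining `β` are the
`mu + ρ`, `mu ∈ strips lam d`. -/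
theorem mult_mul_hd {n : ℕ} (f : MvPolynomial (Fin n) ℤ) (hf : f.IsSymmetric) (d : ℕ)
    (lam : Fin n → ℕ) (hlam : Antitone lam) :
    mult (f * hd n d) lam = ∑ mu ∈ strips lam d, mult f mu := by
  classical
  unfold mult plusRho
  rw [← mul_assoc, coeff_mul_hd]
  rw [← Finset.sum_filter_add_sum_filter_not _
    (fun β : Fin n → ℕ => ∀ i j : Fin n, (j : ℕ) = i + 1 → lam j + (n - 1 - (j : ℕ)) < β i)]
  rw [sum_cancel (fun β => coeff (Finsupp.equivFunOnFinite.symm β) (vand n * f))
    (fun i j hij β => by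
      rw [← coeff_vand_mul_swap f hf i j hij]
      congr 1
      ext k
      rw [Finsupp.mapDomain_equiv_apply]
      simp)
    (fun i => lam i + (n - 1 - (i : ℕ)))
    (fun i j hij => Nat.add_le_add (hlam hij) (Nat.sub_le_sub_left hij _))
    (fun s => s + d = ∑ i : Fin n, (lam i + (n - 1 - (i : ℕ)))), add_zero]
  have hge : ∀ β : Fin n → ℕ,
      (∀ i j : Fin n, (j : ℕ) = i + 1 → lam j + (n - 1 - (j : ℕ)) < β i) →
      ∀ i : Fin n, n - 1 - (i : ℕ) ≤ β i := by
    intro β h i
    by_cases hi : (i : ℕ) + 1 < n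
    · have := h i ⟨i + 1, hi⟩ rfl
      simp only at this
      omega
    · omega
  symm
  refine Finset.sum_bij' (fun mu _ => fun i => mu i + (n - 1 - (i : ℕ)))
    (fun β _ => fun i => β i - (n - 1 - (i : ℕ))) ?_ ?_ ?_ ?_ ?_
  · intro mu h
    unfold strips at h
    rw [Finset.mem_filter, Fintype.mem_piFinset] at h
    rw [Finset.mem_filter, Finset.mem_filter, Fintype.mem_piFinset]
    refine ⟨⟨fun i => ?_, ?_⟩, fun i j hij => ?_⟩
    · have := h.1 i
      rw [Finset.mem_range] at this ⊢
      omega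
    · have := h.2.2
      simp only [Finset.sum_add_distrib]
      omega
    · have := h.2.1 i j hij
      have := j.2
      beta_reduce
      omega
  · intro β h
    rw [Finset.mem_filter, Finset.mem_filter, Fintype.mem_piFinset] at h
    unfold strips
    rw [Finset.mem_filter, Fintype.mem_piFinset]
    refine ⟨fun i => ?_, fun i j hij => ?_, ?_⟩
    · have := h.1.1 i
      rw [Finset.mem_range] at this ⊢
      omega
    · have := h.2 i j hij
      have := j.2
      beta_reduce
      omega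
    · have h1 := h.1.2
      have h2 : ∑ i : Fin n, (β i - (n - 1 - (i : ℕ))) + ∑ i : Fin n, (n - 1 - (i : ℕ)) =
          ∑ i, β i := by
        rw [← Finset.sum_add_distrib]
        exact Finset.sum_congr rfl fun i _ => Nat.sub_add_cancel (hge β h.2 i)
      rw [Finset.sum_add_distrib] at h1
      beta_reduce
      omega
  · intro mu _
    funext i
    simp
  · intro β h
    funext i
    exact Nat.sub_add_cancel (hge β (Finset.mem_filter.1 h).2 i)
  · intro mu _
    rfl

end Crest.Agent.R187
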