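import Crest.Agent.R187.Models
import Crest.Agent.R187.Kappa.Basic

/-!
# Task D3: comparison of the two models

`κ : MvPolynomial (Var a n) ℂ →ₗ Pol Unit n` is defined on the monomial basis: the monomial with exponent `e` goes to
`∏ r : Fin a, X ((), row r of e)`.  It commutes with the operators (Leibniz rule on monomials; `matE i j` of a monomial is
`∑_r e (r,j) • monomial (e - (r,j) + (r,i))`), is invariant under block permutations, maps `blockSym a n d` into `symSym n a d`, injectively
(the coefficient of `κ f` at `∏ y_(e_r)` is the sum of the coefficients of `f` over the block-permutation orbit of `e`, all equal) and onto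
(symmetrise a monomial).  Use `hdim_le_of_inj` and `hdim_le_of_surj`.

`μ = aeval (fun v => β v.2) : Pol Unit n →ₐ MvPolynomial (Var a n) ℂ` with
`β α = (∏ i, (α i)!) • ∑_{f : Fin a → Fin n with content α} ∏ r, X (r, f r)` (content: `∑ r, single (f r) 1 = α`).
Then `matE i j (β α) = α j • β (α - e_j + e_i)`, so `μ` commutes with the operators; the `β α`, `α` of degree `a`, span
`blockSym a n 1`; hence `(blockSym a n 1)^b ≤ (symSym n b a).map μ`.  (Alternatively: let `β α` be the `κ`-preimage in
`blockSym a n 1` of the monomial `∏ k, y_(e_k)^(α k)` of `symSym n a 1`.)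
-/

set_option autoImplicit false

namespace Crest.Agent.R187

open MvPolynomial Crest.AlgebraR.FoulkesHowe

namespace Kappa

variable {a n : ℕ}

theorem mem_pieceSet {d : ℕ} {m : (Unit × (Fin n →₀ ℕ)) →₀ ℕ} :
    m ∈ pieceSet n d (fun _ : Unit => a) ↔ (∀ v ∈ m.support, v.2.degree = d) ∧ m.degree = a := by
  simp [pieceSet, Finsupp.degree_apply, Finsupp.sum]

/-- the exponent of the image of a monomial -/
noncomputable def expo (e : Var a n →₀ ℕ) : (Unit × (Fin n →₀ ℕ)) →₀ ℕ :=
  cont (fun r => ((), row e r))

/-- the comparison map -/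
noncomputable def kap (a n : ℕ) : MvPolynomial (Var a n) ℂ →ₗ[ℂ] Pol Unit n :=
  (basisMonomials (Var a n) ℂ).constr ℂ (fun e => monomial (expo e) 1)

theorem kap_monomial (e : Var a n →₀ ℕ) : kap a n (monomial e 1) = monomial (expo e) 1 :=
  (basisMonomials (Var a n) ℂ).constr_basis ℂ _ e

theorem kap_monomial' (e : Var a n →₀ ℕ) :
    kap a n (monomial e 1) = ∏ r, X ((), row e r) := by
  rw [kap_monomial, expo, monomial_cont]

theorem kap_matD (i j : Fin n) (f : MvPolynomial (Var a n) ℂ) :
    kap a n (matD a n i j f) = polD n i j (kap a n f) := by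
  have : kap a n ∘ₗ (matD a n i j).toLinearMap = (polD n i j).toLinearMap ∘ₗ kap a n := by
    refine (basisMonomials (Var a n) ℂ).ext fun e => ?_
    change kap a n (matD a n i j (monomial e 1)) = polD n i j (kap a n (monomial e 1))
    rw [matD_monomial, kap_monomial', deriv_prod_update (polD n i j) (fun _ α => X ((), α))
      (fun α => (α j : ℂ)) (fun α => α - Finsupp.single j 1 + Finsupp.single i 1)
      (fun _ α => polD_X i j α) (row e), map_sum]
    refine Finset.sum_congr rfl fun r _ => ?_
    rw [map_smul, kap_monomial', row_shift, row_apply]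
  exact LinearMap.congr_fun this f

theorem kap_rename (π : Equiv.Perm (Fin a)) (e : Var a n →₀ ℕ) :
    kap a n (rename (blockPerm π) (monomial e 1)) = kap a n (monomial e 1) := by
  rw [rename_monomial, kap_monomial, kap_monomial, expo, expo, row_mapDomain]
  congr 2
  exact cont_perm (fun r => ((), row e r)) π.symm

theorem kap_symm (e : Var a n →₀ ℕ) :
    kap a n (symm a n (monomial e 1)) = (a.factorial : ℂ) • monomial (expo e) 1 := by
  simp only [symm_apply, map_sum, kap_rename, Finset.sum_const, Finset.card_univ,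
    Fintype.card_perm, Fintype.card_fin, Nat.cast_smul_eq_nsmul, kap_monomial]

open Classical in
/-- a left inverse of the comparison map up to symmetrisation -/
noncomputable def lam (a n : ℕ) : Pol Unit n →ₗ[ℂ] MvPolynomial (Var a n) ℂ :=
  (basisMonomials _ ℂ).constr ℂ (fun m =>
    if h : ∃ e : Var a n →₀ ℕ, expo e = m then symm a n (monomial h.choose 1) else 0)

theorem lam_kap (f : MvPolynomial (Var a n) ℂ) : lam a n (kap a n f) = symm a n f := by
  have : lam a n ∘ₗ kap a n = symm a n := by
    refine (basisMonomials (Var a n) ℂ).ext fun e => ?_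
    change lam a n (kap a n (monomial e 1)) = symm a n (monomial e 1)
    have h : ∃ e' : Var a n →₀ ℕ, expo e' = expo e := ⟨e, rfl⟩
    have h1 := (basisMonomials (Unit × (Fin n →₀ ℕ)) ℂ).constr_basis ℂ (fun m => by
      classical exact
      if h : ∃ e : Var a n →₀ ℕ, expo e = m then symm a n (monomial h.choose 1) else 0) (expo e)
    rw [dif_pos h] at h1
    rw [kap_monomial]
    refine h1.trans ?_
    obtain ⟨π, hπ⟩ := exists_perm_of_cont_eq h.choose_spec.symm
    refine symm_monomial_of_row (π := π) ?_
    funext r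
    exact congrArg Prod.snd (congrFun hπ r)
  exact LinearMap.congr_fun this f

theorem factorial_ne (a : ℕ) : (a.factorial : ℂ) ≠ 0 := Nat.cast_ne_zero.mpr a.factorial_ne_zero

theorem kap_injOn (d : ℕ) : Set.InjOn (kap a n) (blockSym a n d) := by
  intro f hf g hg h
  have := congrArg (lam a n) h
  rw [lam_kap, lam_kap, symm_of_mem hf, symm_of_mem hg] at this
  exact smul_right_injective _ (factorial_ne a) this

theorem monomial_eq_smul {σ : Type} (e : σ →₀ ℕ) (c : ℂ) :
    (monomial e c : MvPolynomial σ ℂ) = c • monomial e 1 := by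
  rw [smul_monomial, smul_eq_mul, mul_one]

theorem kap_mem {d : ℕ} {f : MvPolynomial (Var a n) ℂ} (hf : f ∈ blockSym a n d) :
    kap a n f ∈ symSym n a d := by
  rw [f.as_sum, map_sum]
  refine Submodule.sum_mem _ fun e he => ?_
  rw [monomial_eq_smul, map_smul, kap_monomial]
  refine Submodule.smul_mem _ _ ((monomial_mem_restrictSupport ℂ).mpr (Or.inl ?_))
  refine mem_pieceSet.mpr ⟨fun v hv => ?_, degree_cont _⟩
  obtain ⟨r, rfl⟩ := exists_of_mem_support_cont hv
  exact (mem_blockSym.mp hf).1 e he r

theorem kap_surj (d : ℕ) : symSym n a d ≤ (blockSym a n d).map (kap a n) := by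
  unfold symSym piece
  rw [restrictSupport_eq_span, Submodule.span_le]
  rintro _ ⟨m, hm, rfl⟩
  obtain ⟨h1, h2⟩ := mem_pieceSet.mp hm
  obtain ⟨f, rfl⟩ := exists_cont a m h2
  obtain ⟨e, he⟩ := exists_row (fun r => (f r).2)
  have hexp : expo e = cont f := by rw [expo, he]
  refine ⟨(a.factorial : ℂ)⁻¹ • symm a n (monomial e 1),
    Submodule.smul_mem _ _ (symm_monomial_mem fun r => ?_), ?_⟩
  · rw [he]
    exact h1 _ (mem_support_cont f r)
  · rw [map_smul, kap_symm, smul_smul, inv_mul_cancel₀ (factorial_ne a), one_smul, hexp]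

/-! ### The multiplication map -/

/-- a product of one variable from each block -/
noncomputable def xf (f : Fin a → Fin n) : MvPolynomial (Var a n) ℂ := ∏ r, X (r, f r)

theorem rename_xf (π : Equiv.Perm (Fin a)) (f : Fin a → Fin n) :
    rename (blockPerm π) (xf (f ∘ π)) = xf f := by
  simp only [xf, map_prod, rename_X, blockPerm, Function.comp]
  exact Equiv.prod_comp π (fun r => (X (r, f r) : MvPolynomial (Var a n) ℂ))

open Classical in
/-- the generators of `blockSym a n 1` -/
noncomputable def beta (a : ℕ) (α : Fin n →₀ ℕ) : MvPolynomial (Var a n) ℂ :=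
  if h : ∃ f : Fin a → Fin n, cont f = α then symm a n (xf h.choose) else 0

theorem beta_cont (f : Fin a → Fin n) : beta a (cont f) = symm a n (xf f) := by
  have h : ∃ g : Fin a → Fin n, cont g = cont f := ⟨f, rfl⟩
  rw [beta, dif_pos h]
  obtain ⟨π, hπ⟩ := exists_perm_of_cont_eq h.choose_spec
  rw [← symm_rename π (xf f)]
  conv_rhs => rw [hπ]
  rw [rename_xf]

theorem beta_of_degree_ne {α : Fin n →₀ ℕ} (h : α.degree ≠ a) : beta a α = 0 := by
  rw [beta, dif_neg]
  rintro ⟨f, rfl⟩
  exact h (degree_cont f)

theorem matD_beta (i j : Fin n) (α : Fin n →₀ ℕ) :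
    matD a n i j (beta a α) =
      (α j : ℂ) • beta a (α - Finsupp.single j 1 + Finsupp.single i 1) := by
  by_cases h : α.degree = a
  · obtain ⟨f, rfl⟩ := exists_cont a α h
    rw [beta_cont, ← symm_matD, xf, deriv_prod_update (matD a n i j) (fun r k => X (r, k))
      (fun k => if k = j then 1 else 0) (fun _ => i)
      (fun r k => by rw [matD_X]; by_cases hk : k = j <;> simp [hk]) f, map_sum, cont_apply,
      Finset.card_filter, Nat.cast_sum, Finset.sum_smul]
    refine Finset.sum_congr rfl fun r _ => ?_
    by_cases hr : f r = j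
    · have := beta_cont (Function.update f r i)
      rw [cont_update, hr] at this
      simp only [hr, if_true, one_smul, Nat.cast_one]
      rw [this, xf]
    · simp [hr]
  · rw [beta_of_degree_ne h, map_zero]
    by_cases hj : α j = 0
    · simp [hj]
    · rw [beta_of_degree_ne, smul_zero]
      have hle : Finsupp.single j 1 ≤ α :=
        Finsupp.single_le_iff.mpr (Nat.one_le_iff_ne_zero.mpr hj)
      have := congrArg Finsupp.degree (tsub_add_cancel_of_le hle)
      rw [map_add, Finsupp.degree_single] at this ⊢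
      rw [this]
      exact h

/-- the multiplication map -/
noncomputable def mu (a n : ℕ) : Pol Unit n →ₐ[ℂ] MvPolynomial (Var a n) ℂ :=
  aeval (fun v => beta a v.2)

theorem mu_polD (i j : Fin n) (p : Pol Unit n) :
    mu a n (polD n i j p) = matD a n i j (mu a n p) := by
  refine algHom_deriv _ _ _ (fun v => ?_) p
  obtain ⟨⟨⟩, α⟩ := v
  rw [polD_X, map_smul]
  simp only [mu, aeval_X]
  rw [matD_beta]

theorem exists_xf {e : Var a n →₀ ℕ} (he : ∀ r, (row e r).degree = 1) :
    ∃ f : Fin a → Fin n, monomial e 1 = xf f := by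
  have h : ∀ r, ∃ k, row e r = Finsupp.single k 1 := by
    intro r
    obtain ⟨g, hg⟩ := exists_cont 1 _ (he r)
    exact ⟨g 0, by rw [← hg]; simp [cont]⟩
  choose f hf using h
  refine ⟨f, ?_⟩
  have : e = cont (fun r => (r, f r)) := by
    ext ⟨r, k⟩
    rw [← row_apply, hf, cont, Finsupp.finsetSum_apply, Finset.sum_eq_single r]
    · simp [Finsupp.single_apply]
    · intro r' _ hr'
      simp [hr']
    · simp
  rw [this, monomial_cont, xf]

theorem blockSym_one_le :
    blockSym a n 1 ≤ (symSym n 1 a).map (mu a n).toLinearMap := by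
  intro f hf
  have h1 : f = (a.factorial : ℂ)⁻¹ • symm a n f := by
    rw [symm_of_mem hf, smul_smul, inv_mul_cancel₀ (factorial_ne a), one_smul]
  rw [h1]
  refine Submodule.smul_mem _ _ ?_
  rw [f.as_sum, map_sum]
  refine Submodule.sum_mem _ fun e he => ?_
  rw [monomial_eq_smul, map_smul]
  refine Submodule.smul_mem _ _ ?_
  obtain ⟨g, hg⟩ := exists_xf ((mem_blockSym.mp hf).1 e he)
  refine ⟨X ((), cont g), (monomial_mem_restrictSupport ℂ).mpr (Or.inl ?_), ?_⟩
  · refine mem_pieceSet.mpr ⟨fun v hv => ?_, Finsupp.degree_single _ _⟩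
    rw [Finsupp.support_single _ one_ne_zero, Finset.mem_singleton] at hv
    rw [hv]
    exact degree_cont g
  · rw [hg, ← beta_cont]
    simp [mu]

theorem symSym_mul_le (b c d : ℕ) : symSym n b d * symSym n c d ≤ symSym n (b + c) d := by
  unfold symSym piece
  rw [← restrictSupport_add]
  refine restrictSupport_mono ℂ ?_
  rintro _ ⟨m, hm, m', hm', rfl⟩
  classical
  obtain ⟨h1, h2⟩ := mem_pieceSet.mp hm
  obtain ⟨h1', h2'⟩ := mem_pieceSet.mp hm'
  refine mem_pieceSet.mpr ⟨fun v hv => ?_, by simp only [map_add, h2, h2']⟩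
  rcases Finset.mem_union.mp (Finsupp.support_add hv) with h | h
  · exact h1 v h
  · exact h1' v h

theorem pow_le_map (b : ℕ) :
    (blockSym a n 1) ^ b ≤ (symSym n b a).map (mu a n).toLinearMap := by
  induction b with
  | zero =>
    rw [pow_zero, Submodule.one_le]
    refine ⟨1, (monomial_mem_restrictSupport ℂ).mpr (Or.inl (mem_pieceSet.mpr ?_)), map_one (mu a n)⟩
    simp
  | succ b ih =>
    rw [pow_succ]
    refine (mul_le_mul' ih blockSym_one_le).trans ?_
    rw [← Submodule.map_mul]
    exact Submodule.map_mono (symSym_mul_le b 1 a)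

end Kappa

theorem hdim_blockSym_eq (a n d : ℕ) (lam : Fin n → ℕ) :
    hdim (matE a n) (blockSym a n d) lam = hdim (polE Unit n) (symSym n a d) lam := by
  refine le_antisymm ?_ ?_
  · exact hdim_le_of_inj (stable_blockSym a n d) (Kappa.kap a n) (fun v hv => Kappa.kap_mem hv)
      (Kappa.kap_injOn d) (fun i j v _ => Kappa.kap_matD i j v) lam
  · exact hdim_le_of_surj (good_matE a n).uni (stable_blockSym a n d) (Kappa.kap a n)
      (Kappa.kap_surj d) (fun i j v _ => Kappa.kap_matD i j v) lam

theorem hdim_blockSym_le_of_pow (a n b : ℕ) (h : blockSym a n b ≤ (blockSym a n 1) ^ b)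
    (lam : Fin n → ℕ) :
    hdim (matE a n) (blockSym a n b) lam ≤ hdim (polE Unit n) (symSym n b a) lam := by
  exact hdim_le_of_surj (good_polE Unit n).uni (stable_piece n a _) (Kappa.mu a n).toLinearMap
    (h.trans (Kappa.pow_le_map b)) (fun i j v _ => Kappa.mu_polD i j v) lam

end Crest.Agent.R187
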