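import Crest.Agent.R187.Models
import Crest.Agent.R187.Reduce.Group

/-!
# Task D4: independence of `n`, row bound, from Lie algebra to group

`hdim_castLE`: `rename (fun v => (v.1, Fin.castLE h v.2))` is injective, maps `blockSym a n d ⊓ hw lam` onto `blockSym a N d ⊓ hw lam'`:
a vector of weight `lam'` only involves monomials of that weight, so only variables `(r, k)` with `k < n`; operators `E i j` with `j ≥ n` kill
such polynomials.

`hdim_rows`: let `f ∈ hw lam`, `a ≤ j`.  For `i < a` (so `i < j`): `∑_r X (r,i) * pderiv (r,j) f = 0`.  The `a × a` matrix `X (r,i)` has non-zero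
determinant in the domain (evaluate at the identity matrix), so all `pderiv (r,j) f = 0`, so `lam j • f = E j j f = 0`.

`linSubst_comm`: induct with `Matrix.diagonal_transvection_induction_of_det_ne_zero`; `linSubst` is (anti)multiplicative in `g`;
a transvection acts as `∑_k c^k / k! • D^k` with `D = matE j i` (prove by `MvPolynomial.induction_on`: `D` is a locally nilpotent derivation with
`D (D (X v)) = 0`); a diagonal matrix acts on weight `γ` by `∏ d i ^ γ i` and stable subspaces are spanned by their weight vectors.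
Carry along the fact that `linSubst a g` preserves `U` (it is a polynomial in the operators on `U`).
-/

set_option autoImplicit false

namespace Crest.Agent.R187

open MvPolynomial Crest.AlgebraR.FoulkesHowe

/-- Extension of a weight by zeros. -/
def extZero {n : ℕ} (N : ℕ) (lam : Fin n → ℕ) : Fin N → ℕ :=
  fun k => if h : (k : ℕ) < n then lam ⟨k, h⟩ else 0

theorem hdim_castLE (a d : ℕ) {n N : ℕ} (h : n ≤ N) (lam : Fin n → ℕ) :
    hdim (matE a n) (blockSym a n d) lam = hdim (matE a N) (blockSym a N d) (extZero N lam) := by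
  apply Reduce.hdim_eq_of_incl d h
  · intro i
    simp [extZero]
  · intro k hk
    simp [extZero, not_lt.mpr hk]

theorem hdim_rows (a n : ℕ) (U : Submodule ℂ (MvPolynomial (Var a n) ℂ)) (lam : Fin n → ℕ)
    (j : Fin n) (hj : a ≤ (j : ℕ)) (hl : lam j ≠ 0) : hdim (matE a n) U lam = 0 := by
  have : U ⊓ hw (matE a n) lam = ⊥ :=
    (Submodule.eq_bot_iff _).mpr (fun f hf => Reduce.eq_zero_of_rows hj hl hf.2)
  rw [hdim, this, finrank_bot]

theorem linSubst_comm {a a' n : ℕ} {U : Submodule ℂ (MvPolynomial (Var a n) ℂ)}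
    (hU : Stable (matE a n) U)
    (φ : MvPolynomial (Var a n) ℂ →ₗ[ℂ] MvPolynomial (Var a' n) ℂ)
    (hφ : ∀ i j, ∀ v ∈ U, φ (matE a n i j v) = matE a' n i j (φ v))
    (g : Matrix (Fin n) (Fin n) ℂ) (hg : IsUnit g) :
    ∀ f ∈ U, φ (linSubst a g f) = linSubst a' g (φ f) := by
  intro f hf
  have hdet : g.det ≠ 0 := ((Matrix.isUnit_iff_isUnit_det g).mp hg).ne_zero
  exact (Reduce.group_case hU φ hφ g hdet f hf).2

end Crest.Agent.R187
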