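import Crest.Agent.R187.WeylPoly

/-!
# Task C: the Weyl multiplicity formula (Casimir + trace trick; no Weyl group needed)

Both sides are additive for an orthogonal decomposition `U = U₁ ⊕ U₂` into stable subspaces (the character polynomial exists for every
stable finite-dimensional `U`), so by strong induction on `dim U` one may assume that the Casimir `C = ∑_{i,j} E i j * E j i`
(which commutes with all `E k l`) acts on `U` by a scalar `c`: if `U ≠ 0` it has a non-zero highest weight vector `v` of some weight `mu`, and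
`C v = cas(mu) v` with `cas(mu) = ∑ (mu i)^2 + ∑_{i<j} (mu i - mu j) = ‖mu+ρ‖² - ‖ρ‖² - (n-1)|mu|`;
take `U₁ = U ⊓ eigenspace C c ≠ 0`, `U₂ = U ⊓ U₁^⊥`.

Scalar case.  Let `c(γ) = wdim γ`, `t_ij(γ) = tr (E i j E j i | U ⊓ wt γ)`, `T_ij = ∑ t_ij(γ) x^γ`, `θ_i = X i * pderiv i`.
Trace cyclicity gives `x_j T_ij = x_i T_ji` (`E j i` maps weight `γ` to `γ - e_i + e_j`, and is zero on it if `γ i = 0`), the commutator gives
`T_ij - T_ji = (θ_i - θ_j) χ`, so `(x_i - x_j)(T_ij + T_ji) = (x_i + x_j)(θ_i - θ_j) χ`.  Also `c χ = ∑ θ_i² χ + ∑_{i<j} (T_ij + T_ji)`.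
With `D = vand n` (`θ_i D = ∑_{j ≠ i} x_i D / (x_i - x_j)`, and `D = ∑ sgn(w) x^(wρ)` so `∑ θ_i² D = ‖ρ‖² D`, `∑ θ_i D = |ρ| D`) one gets
`c Dχ = Δ(Dχ) - ‖ρ‖² Dχ - (n-1) D θχ` (`Δ = ∑ θ_i²`, `θ = ∑ θ_i`), i.e. the coefficient of `x^γ` in `Dχ` vanishes unless
`‖γ‖² - ‖ρ‖² - (n-1)(|γ| - |ρ|) = c`.  So if `cas(lam) ≠ c` both sides vanish.  If `cas(lam) = c`: no weight `ν` of `U` is strictly above `lam`
in the root order (`ν - lam` a non-zero sum of positive roots): otherwise raise to a highest weight `mu ≥ ν` of `U`, dominant,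
with `cas(mu) = c`, `|mu| = |lam|`, but `‖mu+ρ‖² - ‖lam+ρ‖² = (mu - lam, mu + lam + 2ρ) > 0` (Abel summation).  Since
`lam + ρ - wρ` is strictly above `lam` for `w ≠ 1`, the coefficient is `c(lam)`, and `U ⊓ wt lam = U ⊓ hw lam`.
(You may import `Crest.Agent.R187.Shapo` for `antitone_of_hdim_ne_zero`, or reprove what you need in a sub-namespace `Crest.Agent.R187.Weyl`.)
-/

set_option autoImplicit false

namespace Crest.Agent.R187

open MvPolynomial

variable {n : ℕ} {V : Type*} [AddCommGroup V] [Module ℂ V]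

namespace Weyl

open Finset

variable {E : Fin n → Fin n → Module.End ℂ V} {U : Submodule ℂ V}

/-- The twisted character. -/
noncomputable def ch (E : Fin n → Fin n → Module.End ℂ V) (U : Submodule ℂ V)
    (s : Finset (Fin n →₀ ℕ)) : Module.End ℂ V →ₗ[ℂ] MvPolynomial (Fin n) ℂ :=
  ∑ γ ∈ s, (monomial γ) ∘ₗ tr (U ⊓ wt E γ)

theorem coeff_ch {s : Finset (Fin n →₀ ℕ)} (hs : ∀ γ : Fin n →₀ ℕ, γ ∉ s → U ⊓ wt E γ = ⊥)
    (A : Module.End ℂ V) (γ : Fin n →₀ ℕ) : coeff γ (ch E U s A) = tr (U ⊓ wt E γ) A := by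
  simp only [ch, LinearMap.sum_apply, LinearMap.comp_apply, coeff_sum, coeff_monomial, sum_ite_eq']
  split_ifs with h
  · rfl
  · symm
    apply tr_eq_zero
    intro v hv
    rw [hs γ h, Submodule.mem_bot] at hv
    simp [hv]

theorem ch_mul_diag {s : Finset (Fin n →₀ ℕ)} (hs : ∀ γ : Fin n →₀ ℕ, γ ∉ s → U ⊓ wt E γ = ⊥)
    (A : Module.End ℂ V) (i : Fin n) : ch E U s (A * E i i) = th i (ch E U s A) := by
  ext γ
  rw [coeff_th, coeff_ch hs, coeff_ch hs, ← smul_eq_mul (γ i : ℂ), ← map_smul]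
  apply tr_congr
  intro v hv
  simp [mem_wt.1 hv.2 i]

theorem mem_wt_of_commute {Z : Module.End ℂ V} (hZ : ∀ i j, Commute Z (E i j)) {γ : Fin n → ℕ}
    {v : V} (hv : v ∈ wt E γ) : Z v ∈ wt E γ := by
  rw [mem_wt] at hv ⊢
  intro i
  rw [← Module.End.mul_apply, ← (hZ i i).eq, Module.End.mul_apply, hv, map_smul]

theorem shift_aux {δ : Fin n →₀ ℕ} {i j : Fin n} (hi : δ i ≠ 0) (hj : δ j ≠ 0) (k : Fin n) :
    (δ - Finsupp.single j 1 : Fin n →₀ ℕ) k + (if k = j then 1 else 0) =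
      (δ - Finsupp.single i 1 : Fin n →₀ ℕ) k + (if k = i then 1 else 0) := by
  simp only [Finsupp.coe_tsub, Pi.sub_apply, Finsupp.single_apply]
  by_cases h1 : k = j <;> by_cases h2 : k = i
  · subst h1; subst h2; rfl
  · subst h1
    simp [h2, Ne.symm h2]; omega
  · subst h2
    simp [h1, Ne.symm h1]; omega
  · simp [h1, h2, Ne.symm h1, Ne.symm h2]

theorem X_mul_ch (hE : Good E) [FiniteDimensional ℂ U] (hU : Stable E U)
    {s : Finset (Fin n →₀ ℕ)} (hs : ∀ γ : Fin n →₀ ℕ, γ ∉ s → U ⊓ wt E γ = ⊥)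
    {Z : Module.End ℂ V} (hZ : ∀ i j, Commute Z (E i j)) (hZU : ∀ v ∈ U, Z v ∈ U)
    {i j : Fin n} (hij : i ≠ j) :
    X j * ch E U s (Z * E i j * E j i) = X i * ch E U s (Z * E j i * E i j) := by
  have zero : ∀ {i j : Fin n}, i ≠ j → ∀ δ : Fin n →₀ ℕ, δ i = 0 →
      tr (U ⊓ wt E (δ - Finsupp.single j 1 : Fin n →₀ ℕ)) (Z * E i j * E j i) = 0 := by
    intro i j hij δ hδ
    apply tr_eq_zero
    intro v hv
    rw [Module.End.mul_apply, map_eq_zero_of_wt hE hv.2 hij.symm (by simp [hδ]), map_zero]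
  ext δ
  rw [coeff_X_mul', coeff_X_mul', coeff_ch hs, coeff_ch hs]
  simp only [Finsupp.mem_support_iff]
  by_cases hi : δ i = 0 <;> by_cases hj : δ j = 0
  · simp [hi, hj]
  · rw [zero hij δ hi]; simp [hi]
  · rw [zero hij.symm δ hj]; simp [hj]
  · rw [if_pos hi, if_pos hj,
      tr_comm (S' := U ⊓ wt E (δ - Finsupp.single i 1 : Fin n →₀ ℕ)), ← mul_assoc, (hZ j i).eq]
    · intro v hv
      exact ⟨hU _ _ _ hv.1, map_mem_wt hE.gl hv.2 (shift_aux hi hj)⟩
    · intro v hv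
      exact ⟨hZU _ (hU _ _ _ hv.1),
        mem_wt_of_commute hZ (map_mem_wt hE.gl hv.2 (shift_aux hj hi))⟩

theorem coeff_casimir (hE : Good E) [FiniteDimensional ℂ U] (hU : Stable E U)
    {s : Finset (Fin n →₀ ℕ)} (hs : ∀ γ : Fin n →₀ ℕ, γ ∉ s → U ⊓ wt E γ = ⊥)
    {Z : Module.End ℂ V} (hZ : ∀ i j, Commute Z (E i j)) (hZU : ∀ v ∈ U, Z v ∈ U)
    (lam : Fin n → ℕ) :
    coeff (plusRho lam) (Dp (pairs n) * ch E U s (Z * casimir E)) =
      (cas lam : ℂ) * coeff (plusRho lam) (Dp (pairs n) * ch E U s Z) := by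
  refine coeff_identity _ _ (fun p => ch E U s (Z * E p.1 p.2 * E p.2 p.1) +
    ch E U s (Z * E p.2 p.1 * E p.1 p.2)) ?_ ?_ lam
  · intro p hp
    have hp' : p.1 < p.2 := by simpa using hp
    have h1 := X_mul_ch hE hU hs hZ hZU hp'.ne
    have h2 : ch E U s (Z * E p.1 p.2 * E p.2 p.1) - ch E U s (Z * E p.2 p.1 * E p.1 p.2) =
        th p.1 (ch E U s Z) - th p.2 (ch E U s Z) := by
      rw [← ch_mul_diag hs, ← ch_mul_diag hs, ← map_sub, ← map_sub, mul_assoc, mul_assoc,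
        ← mul_sub, ← mul_sub, hE.gl]
      simp
    rw [← h2]
    linear_combination (-2) * h1
  · rw [casimir, sum_sum_eq (fun i j => E i j * E j i), mul_add, map_add, mul_sum, mul_sum,
      map_sum, map_sum]
    congr 1
    · refine sum_congr rfl fun i _ => ?_
      rw [← mul_assoc, ch_mul_diag hs, ch_mul_diag hs]
    · refine sum_congr rfl fun p _ => ?_
      rw [mul_add, map_add, mul_assoc, mul_assoc]

theorem exists_annihilating [FiniteDimensional ℂ U] {N : Module.End ℂ V}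
    (hN : ∀ v ∈ U, N v ∈ U) :
    ∃ (k : ℕ) (q : Polynomial ℂ), q.eval 0 ≠ 0 ∧
      ∀ v ∈ U, (N ^ k) (Polynomial.aeval N q v) = 0 := by
  let N' : Module.End ℂ U := N.restrict hN
  have h1 : ∀ (p : Polynomial ℂ) (v : U),
      ((Polynomial.aeval N' p v : U) : V) = Polynomial.aeval N p v := by
    intro p
    induction p using Polynomial.induction_on with
    | C a => intro v; simp
    | add p q hp hq => intro v; simp [hp, hq]
    | monomial m a ih =>
      intro v
      rw [pow_succ, ← mul_assoc, map_mul, map_mul _ _ Polynomial.X, Module.End.mul_apply,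
        Module.End.mul_apply, ih, Polynomial.aeval_X, Polynomial.aeval_X]
      rfl
  obtain ⟨q, hq, hq'⟩ := Polynomial.exists_eq_pow_rootMultiplicity_mul_and_not_dvd
    N'.charpoly N'.charpoly_monic.ne_zero 0
  refine ⟨N'.charpoly.rootMultiplicity 0, q, ?_, ?_⟩
  · rwa [Polynomial.dvd_iff_isRoot] at hq'
  · intro v hv
    have h2 := h1 N'.charpoly ⟨v, hv⟩
    rw [LinearMap.aeval_self_charpoly] at h2
    conv_rhs at h2 => rw [hq]
    simpa using h2.symm

end Weyl

open Weyl Finset in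
theorem mult_eq_hdim {E : Fin n → Fin n → Module.End ℂ V} (hE : Good E) {U : Submodule ℂ V}
    [FiniteDimensional ℂ U] (hU : Stable E U) (χ : MvPolynomial (Fin n) ℤ)
    (hχ : ∀ γ : Fin n →₀ ℕ, coeff γ χ = (wdim E U γ : ℤ)) (lam : Fin n → ℕ) (hlam : Antitone lam) :
    mult χ lam = (hdim E U lam : ℤ) := by
  classical
  set s := χ.support with hsdef
  have hs : ∀ γ : Fin n →₀ ℕ, γ ∉ s → U ⊓ wt E γ = ⊥ := by
    intro γ hγ
    have h1 : coeff γ χ = 0 := by simpa [hsdef] using hγ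
    rw [hχ, wdim] at h1
    exact Submodule.finrank_eq_zero.1 (by exact_mod_cast h1)
  let φ : Module.End ℂ V →ₗ[ℂ] ℂ :=
    lcoeff ℂ (plusRho lam) ∘ₗ LinearMap.mulLeft ℂ (Dp (pairs n)) ∘ₗ ch E U s
  have hφ : ∀ A, φ A = coeff (plusRho lam) (Dp (pairs n) * ch E U s A) := fun A => rfl
  have h1 : ((mult χ lam : ℤ) : ℂ) = φ 1 := by
    have : MvPolynomial.map (Int.castRingHom ℂ) χ = ch E U s 1 := by
      ext γ
      rw [coeff_map, coeff_ch hs, tr_one, hχ, wdim]; simp
    rw [hφ, ← this, ← map_vand, ← map_mul, coeff_map]; rfl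
  set N : Module.End ℂ V := casimir E - (cas lam : ℂ) • 1 with hN
  have hNc : ∀ i j, Commute N (E i j) := fun i j =>
    (casimir_comm hE.gl i j).sub_left ((Commute.one_left _).smul_left _)
  have hNU : ∀ v ∈ U, N v ∈ U := fun v hv => by
    simpa [hN] using U.sub_mem (casimir_mem hU hv) (U.smul_mem _ hv)
  have hpowU : ∀ (m : ℕ), ∀ v ∈ U, (N ^ m) v ∈ U := by
    intro m
    induction m with
    | zero => intro v hv; simpa using hv
    | succ m ih => intro v hv; rw [pow_succ, Module.End.mul_apply]; exact ih _ (hNU v hv)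
  have h2 : ∀ m : ℕ, φ (N ^ (m + 1)) = 0 := by
    intro m
    have := coeff_casimir hE hU hs (Z := N ^ m) (fun i j => (hNc i j).pow_left m) (hpowU m) lam
    rw [← hφ, ← hφ] at this
    rw [pow_succ]
    conv_lhs => enter [2, 2]; rw [hN]
    rw [mul_sub, map_sub, this, mul_smul_comm, map_smul, mul_one, smul_eq_mul, sub_self]
  have h3 : ∀ p : Polynomial ℂ, φ (Polynomial.aeval N p) = p.eval 0 * φ 1 := by
    intro p
    induction p using Polynomial.induction_on with
    | C a => simp [Algebra.algebraMap_eq_smul_one]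
    | add p q hp hq => simp [hp, hq, add_mul]
    | monomial m a _ => simp [Algebra.algebraMap_eq_smul_one, h2]
  obtain ⟨k, q, hq0, hq⟩ := exists_annihilating hNU
  set Z := Polynomial.aeval N q with hZ
  let K : Submodule ℂ V := U ⊓ LinearMap.ker (N ^ k)
  have hK : Stable E K := by
    intro i j v hv
    refine ⟨hU i j v hv.1, ?_⟩
    have h := hv.2
    simp only [SetLike.mem_coe, LinearMap.mem_ker] at h ⊢
    rw [← Module.End.mul_apply, ((hNc i j).pow_left k).eq, Module.End.mul_apply, h, map_zero]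
  have hNhw : ∀ (mu : Fin n → ℕ), ∀ v ∈ hw E mu, N v = ((cas mu : ℂ) - cas lam) • v := by
    intro mu v hv
    simp [hN, casimir_hw hE.gl hv, sub_smul]
  have hKzero : ∀ nu : Fin n → ℕ, Dom lam nu → ht nu < ht lam → ∀ v ∈ K, v ∈ wt E nu → v = 0 := by
    intro nu hd hlt v hvK hv
    by_contra h0
    obtain ⟨mu, hd', hle, u, huK, hu, hu0⟩ := exists_hw hE hK _ nu rfl v hvK hv h0
    have hc := cas_lt hlam (antitone_of_hw hE hu hu0) (hd.trans hd') (hle.trans_lt hlt)
    have h4 : (N ^ k) u = ((cas mu : ℂ) - cas lam) ^ k • u := by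
      have := Module.End.aeval_apply_of_mem_apply_eq_smul (p := Polynomial.X ^ k) (hNhw mu u hu)
      simpa using this
    have h5 : (N ^ k) u = 0 := huK.2
    rw [h4, smul_eq_zero] at h5
    rcases h5 with h5 | h5
    · have h6 : (cas mu : ℂ) - cas lam = 0 := eq_zero_of_pow_eq_zero h5
      have h7 : cas mu = cas lam := by exact_mod_cast sub_eq_zero.1 h6
      omega
    · exact hu0 h5
  have hZmem : ∀ nu : Fin n → ℕ, ∀ v ∈ U ⊓ wt E nu, Z v ∈ K ∧ Z v ∈ wt E nu := by
    intro nu v hv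
    have h4 : Z v ∈ U ⊓ wt E nu := Polynomial.aeval_apply_smul_mem_of_le_comap hv q N
      (fun w hw => ⟨hNU w hw.1, mem_wt_of_commute hNc hw.2⟩)
    exact ⟨⟨h4.1, hq v hv.1⟩, h4.2⟩
  have h4 : φ Z = tr (U ⊓ wt E lam) Z := by
    rw [hφ, Dp_pairs, sum_mul, coeff_sum, sum_eq_single 1]
    · rw [coeff_monomial_mul', if_pos (rhoPerm_one_le lam), coeff_ch hs, plusRho_sub_rhoPerm_one]
      simp
    · intro σ _ hσ
      rw [coeff_monomial_mul']
      split_ifs with hle
      · obtain ⟨hd, hlt⟩ := rhoPerm_dom hσ hle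
        rw [coeff_ch hs, tr_eq_zero, mul_zero]
        intro v hv
        exact hKzero _ hd hlt _ (hZmem _ v hv).1 (hZmem _ v hv).2
      · rfl
    · simp
  have h5 : tr (U ⊓ wt E lam) Z = q.eval 0 * hdim E U lam := by
    rw [← one_mul Z, tr_comm (S' := U ⊓ hw E lam), hdim, ← tr_one, ← smul_eq_mul (q.eval 0),
      ← map_smul]
    · apply tr_congr
      intro v hv
      have h6 : N v = (0 : ℂ) • v := by simpa using hNhw lam v hv.2
      simpa using Module.End.aeval_apply_of_mem_apply_eq_smul (p := q) h6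
    · intro v hv
      obtain ⟨h6, h7⟩ := hZmem lam v hv
      refine ⟨h6.1, mem_hw.2 ⟨mem_wt.1 h7, fun i j hij => ?_⟩⟩
      by_cases hj : lam j = 0
      · exact map_eq_zero_of_wt hE h7 hij.ne hj
      · obtain ⟨nu, hnu⟩ := exists_shift lam i hj
        obtain ⟨hd, hlt⟩ := dom_of_shift hij hnu
        exact hKzero nu hd hlt _ (hK i j _ h6) (map_mem_wt hE.gl h7 hnu)
    · intro v hv
      exact ⟨hv.1, hv.2.1⟩
  have h6 := h3 q
  rw [← hZ, h4, h5, ← h1] at h6
  exact_mod_cast (mul_left_cancel₀ hq0 h6).symm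

end Crest.Agent.R187
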