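import Crest.Agent.R187.Surj
import Crest.Agent.R187.Weyl
import Crest.Agent.R187.Chars
import Crest.Agent.R187.Kappa
import Crest.Agent.R187.Reduce

/-!
Assembly: the numerical interface and the reduction of the theorem to numbers.
-/

set_option autoImplicit false

namespace Crest.Agent.R187

open MvPolynomial Crest.AlgebraR.FoulkesHowe

theorem mult_pleth_eq (n a d : ℕ) (lam : Fin n → ℕ) (hlam : Antitone lam) :
    mult (pleth n a d) lam = (hdim (polE Unit n) (symSym n a d) lam : ℤ) := by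
  apply mult_eq_hdim (good_polE Unit n) (stable_piece n d _) _ _ lam hlam
  intro γ
  have := coeff_prod_pleth (L := Unit) n d (fun _ => a) γ
  simpa using this

theorem mult_pleth_nonneg (n a d : ℕ) (lam : Fin n → ℕ) (hlam : Antitone lam) :
    0 ≤ mult (pleth n a d) lam := by
  rw [mult_pleth_eq n a d lam hlam]; positivity

theorem mS_mono (b c : ℕ) (lam mu : Fin 6 → ℕ) (hlam : Antitone lam) (hmu : Antitone mu)
    (h : 0 < mS c mu) : mS b lam ≤ mS (b + c) (lam + mu) := by
  have hs : Antitone (lam + mu) := fun i j hij => by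
    simp only [Pi.add_apply]; exact Nat.add_le_add (hlam hij) (hmu hij)
  unfold mS at *
  rw [mult_pleth_eq _ _ _ _ hmu] at h
  rw [mult_pleth_eq _ _ _ _ hlam, mult_pleth_eq _ _ _ _ hs]
  exact_mod_cast hdim_symSym_mono 6 6 b c lam mu (by omega)

theorem mA_le_mU (b : ℕ) (lam : Fin 6 → ℕ) (hlam : Antitone lam) : mA b lam ≤ mU b lam := by
  unfold mA mU
  rw [mult_pleth_eq _ _ _ _ hlam]
  have h1 : mult (pleth 6 4 b * hd 6 b * hd 6 b) lam =
      (hdim (polE (Fin 3) 6) (piece 6 b ![4, 1, 1]) lam : ℤ) := by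
    apply mult_eq_hdim (good_polE (Fin 3) 6) (stable_piece 6 b _) _ _ lam hlam
    intro γ
    have := coeff_prod_pleth (L := Fin 3) 6 b ![4, 1, 1] γ
    simpa [Fin.prod_univ_three, pleth_one] using this
  rw [h1]
  have := hdim_symSym_le_piece (L := Fin 3) 6 b ![4, 1, 1] lam
  simp only [Fin.sum_univ_three, Matrix.cons_val_zero, Matrix.cons_val_one, Matrix.cons_val] at this
  exact_mod_cast this

theorem antitone_extZero {n : ℕ} (N : ℕ) (lam : Fin n → ℕ) (hlam : Antitone lam) :
    Antitone (extZero N lam) := by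
  intro i j hij
  unfold extZero
  have hij' : (i : ℕ) ≤ j := hij
  by_cases hj : (j : ℕ) < n
  · have hi : (i : ℕ) < n := lt_of_le_of_lt hij' hj
    rw [dif_pos hj, dif_pos hi]
    exact hlam (by exact hij')
  · rw [dif_neg hj]; exact Nat.zero_le _

theorem hdim_le_six (b : ℕ) (hnum : ∀ lam : Fin 6 → ℕ, Antitone lam → mA b lam ≤ mS b lam)
    (lam : Fin 6 → ℕ) (hlam : Antitone lam) :
    hdim (matE 6 6) (blockSym 6 6 b) lam ≤ hdim (matE b 6) (blockSym b 6 6) lam := by
  rw [hdim_blockSym_eq, hdim_blockSym_eq]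
  have := hnum lam hlam
  unfold mA mS at this
  rw [mult_pleth_eq _ _ _ _ hlam, mult_pleth_eq _ _ _ _ hlam] at this
  exact_mod_cast this

theorem hdim_le_of_numeric (n b : ℕ)
    (hnum : ∀ lam : Fin 6 → ℕ, Antitone lam → mA b lam ≤ mS b lam)
    (lam : Fin n → ℕ) (hlam : Antitone lam) :
    hdim (matE 6 n) (blockSym 6 n b) lam ≤ hdim (matE b n) (blockSym b n 6) lam := by
  rcases le_total n 6 with h | h
  · rw [hdim_castLE 6 b h, hdim_castLE b 6 h]
    exact hdim_le_six b hnum _ (antitone_extZero 6 lam hlam)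
  · by_cases hz : ∃ j : Fin n, 6 ≤ (j : ℕ) ∧ lam j ≠ 0
    · obtain ⟨j, hj, hl⟩ := hz
      rw [hdim_rows 6 n _ lam j hj hl]; exact Nat.zero_le _
    · push Not at hz
      have hext : lam = extZero n (fun i : Fin 6 => lam (Fin.castLE h i)) := by
        funext k
        unfold extZero
        by_cases hk : (k : ℕ) < 6
        · rw [dif_pos hk]; rfl
        · rw [dif_neg hk]; exact hz k (by omega)
      rw [hext, ← hdim_castLE 6 b h, ← hdim_castLE b 6 h]
      apply hdim_le_six b hnum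
      intro i j hij
      exact hlam (by exact hij)

theorem foulkes_of_numeric (n b : ℕ) (hb : 6 ≤ b)
    (hnum : ∀ b, 7 ≤ b → b ≤ 24 → ∀ lam : Fin 6 → ℕ, Antitone lam → mA b lam ≤ mS b lam) :
    ∃ φ : MvPolynomial (Var 6 n) ℂ →ₗ[ℂ] MvPolynomial (Var b n) ℂ,
      (∀ f ∈ blockSym 6 n b, φ f ∈ blockSym b n 6) ∧
      Set.InjOn φ (blockSym 6 n b) ∧
      ∀ g : Matrix (Fin n) (Fin n) ℂ, IsUnit g →
        ∀ f ∈ blockSym 6 n b, φ (linSubst 6 g f) = linSubst b g (φ f) := by
  have key : ∀ lam : Fin n → ℕ, Antitone lam →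
      hdim (matE 6 n) (blockSym 6 n b) lam ≤ hdim (matE b n) (blockSym b n 6) lam := by
    intro lam hlam
    by_cases h6 : b = 6
    · subst h6; exact le_rfl
    by_cases h24 : b ≤ 24
    · exact hdim_le_of_numeric n b (hnum b (by omega) h24) lam hlam
    · rw [hdim_blockSym_eq b n 6]
      exact hdim_blockSym_le_of_pow 6 n b (blockSym_le_pow 6 b n (by norm_num) (by norm_num; omega)) lam
  obtain ⟨φ, h1, h2, h3⟩ := exists_inj (good_matE 6 n) (good_matE b n) (stable_blockSym 6 n b)
    (stable_blockSym b n 6) key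
  exact ⟨φ, h1, h2, fun g hg => linSubst_comm (stable_blockSym 6 n b) φ h3 g hg⟩

end Crest.Agent.R187
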