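import Mathlib
import Crest.Prelude.Def_FoulkesHowe

/-!
Definitions for result 187 (Foulkes, a = 6).  No proofs of substance here.
-/

set_option autoImplicit false

namespace Crest.Agent.R187

open MvPolynomial Crest.AlgebraR.FoulkesHowe

/-! ### Abstract `gl_n`-modules -/

section Abstract

variable {n : ℕ} {V : Type*} [AddCommGroup V] [Module ℂ V]

/-- The operators `E i j` satisfy the commutation relations of `gl_n`. -/
def IsGl (E : Fin n → Fin n → Module.End ℂ V) : Prop :=
  ∀ i j k l : Fin n, E i j * E k l - E k l * E i j =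
    (if j = k then E i l else 0) - (if l = i then E k j else 0)

/-- There is a positive definite Hermitian form for which `E j i` is adjoint to `E i j`. -/
def Unitarizable (E : Fin n → Fin n → Module.End ℂ V) : Prop :=
  ∃ B : V →ₗ⋆[ℂ] V →ₗ[ℂ] ℂ,
    (∀ v w, B v w = starRingEnd ℂ (B w v)) ∧ (∀ v, v ≠ 0 → 0 < (B v v).re) ∧
    ∀ i j v w, B (E i j v) w = B v (E j i w)

/-- The weight space of weight `γ`. -/
def wt (E : Fin n → Fin n → Module.End ℂ V) (γ : Fin n → ℕ) : Submodule ℂ V :=
  ⨅ i : Fin n, LinearMap.eqLocus (E i i) ((γ i : ℂ) • LinearMap.id)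

/-- Highest weight vectors of weight `γ`. -/
def hw (E : Fin n → Fin n → Module.End ℂ V) (γ : Fin n → ℕ) : Submodule ℂ V :=
  wt E γ ⊓ ⨅ (i : Fin n) (j : Fin n) (_ : i < j), LinearMap.ker (E i j)

/-- The space is spanned by weight vectors with natural weights. -/
def PolyWt (E : Fin n → Fin n → Module.End ℂ V) : Prop :=
  ⨆ γ : Fin n → ℕ, wt E γ = ⊤

/-- `U` is stable under all operators. -/
def Stable (E : Fin n → Fin n → Module.End ℂ V) (U : Submodule ℂ V) : Prop :=
  ∀ i j, ∀ v ∈ U, E i j v ∈ U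

/-- All standing assumptions on an ambient module. -/
structure Good (E : Fin n → Fin n → Module.End ℂ V) : Prop where
  gl : IsGl E
  uni : Unitarizable E
  poly : PolyWt E

/-- Dimension of the weight space of `U`. -/
noncomputable def wdim (E : Fin n → Fin n → Module.End ℂ V) (U : Submodule ℂ V)
    (γ : Fin n → ℕ) : ℕ :=
  Module.finrank ℂ ↥(U ⊓ wt E γ)

/-- Dimension of the space of highest weight vectors of weight `γ` in `U`. -/
noncomputable def hdim (E : Fin n → Fin n → Module.End ℂ V) (U : Submodule ℂ V)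
    (γ : Fin n → ℕ) : ℕ :=
  Module.finrank ℂ ↥(U ⊓ hw E γ)

theorem mem_wt {E : Fin n → Fin n → Module.End ℂ V} {γ : Fin n → ℕ} {v : V} :
    v ∈ wt E γ ↔ ∀ i, E i i v = (γ i : ℂ) • v := by
  simp [wt, Submodule.mem_iInf, LinearMap.mem_eqLocus]

theorem mem_hw {E : Fin n → Fin n → Module.End ℂ V} {γ : Fin n → ℕ} {v : V} :
    v ∈ hw E γ ↔ (∀ i, E i i v = (γ i : ℂ) • v) ∧ ∀ i j, i < j → E i j v = 0 := by
  simp [hw, mem_wt, Submodule.mem_iInf]

end Abstract

/-! ### Vandermonde, multiplicities, plethysm characters -/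

/-- The Vandermonde product `∏_{i<j} (X i - X j)`. -/
noncomputable def vand (n : ℕ) : MvPolynomial (Fin n) ℤ :=
  ∏ p ∈ (Finset.univ : Finset (Fin n × Fin n)).filter (fun p => p.1 < p.2), (X p.1 - X p.2)

/-- The exponent `lam + ρ`, `ρ = (n-1, …, 1, 0)`. -/
noncomputable def plusRho {n : ℕ} (lam : Fin n → ℕ) : Fin n →₀ ℕ :=
  Finsupp.equivFunOnFinite.symm (fun i => lam i + (n - 1 - (i : ℕ)))

/-- Schur multiplicity: the coefficient of `x^(lam+ρ)` in `vand * f`. -/
noncomputable def mult {n : ℕ} (f : MvPolynomial (Fin n) ℤ) (lam : Fin n → ℕ) : ℤ :=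
  coeff (plusRho lam) (vand n * f)

/-- Exponent vectors of degree `d` in `n` variables. -/
noncomputable def monos (n d : ℕ) : Finset (Fin n →₀ ℕ) :=
  Finset.finsuppAntidiag (Finset.univ : Finset (Fin n)) d

/-- The complete homogeneous symmetric polynomial `h_d`. -/
noncomputable def hd (n d : ℕ) : MvPolynomial (Fin n) ℤ :=
  ∑ α ∈ monos n d, monomial α 1

/-- The plethysm `h_a[h_d]` in `n` variables: the character of `Sym^a (Sym^d ℂ^n)`. -/
noncomputable def pleth (n a d : ℕ) : MvPolynomial (Fin n) ℤ :=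
  ∑ m ∈ Finset.finsuppAntidiag (monos n d) a, monomial (m.sum fun α k => k • α) 1

/-! ### The two models -/

/-- Polarisation operators on the `a × n` matrix of variables: `x (r, j) ↦ x (r, i)`. -/
noncomputable def matE (a n : ℕ) (i j : Fin n) : Module.End ℂ (MvPolynomial (Var a n) ℂ) :=
  (mkDerivation ℂ (fun v : Var a n =>
    if v.2 = j then (X (v.1, i) : MvPolynomial (Var a n) ℂ) else 0)).toLinearMap

/-- Polynomials in variables `y (l, α)`, `l` a label and `α` an exponent vector. -/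
abbrev Pol (L : Type) (n : ℕ) : Type := MvPolynomial (L × (Fin n →₀ ℕ)) ℂ

/-- Polarisation operators on `Pol L n`: `y (l, α) ↦ α j • y (l, α - e_j + e_i)`. -/
noncomputable def polE (L : Type) (n : ℕ) (i j : Fin n) : Module.End ℂ (Pol L n) :=
  (mkDerivation ℂ (fun v : L × (Fin n →₀ ℕ) =>
    ((v.2 j : ℂ) • X (v.1, v.2 - Finsupp.single j 1 + Finsupp.single i 1) : Pol L n))).toLinearMap

/-- Monomials that only use variables `y (l, α)` with `α` of degree `d` and have degree `deg l`
in the variables with label `l`. -/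
def pieceSet {L : Type} [DecidableEq L] (n d : ℕ) (deg : L → ℕ) :
    Set ((L × (Fin n →₀ ℕ)) →₀ ℕ) :=
  {m | (∀ v ∈ m.support, v.2.degree = d) ∧
    ∀ l, (m.sum fun v k => if v.1 = l then k else 0) = deg l}

/-- The model of `⨂ l, Sym^(deg l) (Sym^d ℂ^n)`. -/
noncomputable def piece {L : Type} [DecidableEq L] (n d : ℕ) (deg : L → ℕ) :
    Submodule ℂ (Pol L n) :=
  restrictSupport ℂ (pieceSet n d deg)

/-- The model of `Sym^a (Sym^d ℂ^n)`. -/
noncomputable abbrev symSym (n a d : ℕ) : Submodule ℂ (Pol Unit n) :=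
  piece n d (fun _ : Unit => a)

/-! ### The numbers to compare (six variables) -/

/-- Multiplicity in `Sym^b (Sym^6)`. -/
noncomputable def mS (b : ℕ) (lam : Fin 6 → ℕ) : ℤ := mult (pleth 6 b 6) lam

/-- Multiplicity in `Sym^6 (Sym^b)`. -/
noncomputable def mA (b : ℕ) (lam : Fin 6 → ℕ) : ℤ := mult (pleth 6 6 b) lam

/-- Multiplicity in `Sym^4 (Sym^b) ⊗ Sym^b ⊗ Sym^b`. -/
noncomputable def mU (b : ℕ) (lam : Fin 6 → ℕ) : ℤ :=
  mult (pleth 6 4 b * hd 6 b * hd 6 b) lam

end Crest.Agent.R187
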