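import Crest.Agent.R187.KLane
import Crest.Agent.R187.Bridge

/-!
# Task K6: the cover check

`n = M / 3 + 1` rows; `grd n` has `2^39` in each of the first `73 n` lanes; `GU = grd n - U % 2^(2920 n)` has lanes `2^39 - U_i` there (`lane_sub`).
For a witness `x`, `shf lo b p q r x` has lanes `< 2^39`, so adding `GU` produces no carry and the guard bit of lane `i` survives iff
`U_i ≤ shf_i` (`land_guard`).  Induct on the tree `ws`: if lane `i = u + 73 v` of `cov1` is non-zero then `U_i ≤ mS b (lam …)`.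
For the base case `U_i = 0` use `mult_pleth_nonneg`.  For a witness with `shf_i ≠ 0`: write `c, p', q', r', δu, δv` for the digits; `okS` and `Lo`
give that `μ = lam (6 c) p' q' r' δu δv` is a partition with `0 < mS c μ`; lane `i` of the shifted table is lane `i - (δu + 73 δv)` of
`lo (b - c) (p - p') (q - q') (r - r')`.  Write this index as `u'' + 73 v''` with `u'' < 73`; `Lo` gives `2 u'' ≤ 6 (b - c)`; together with `2 δu ≤ 6 c`,
`b ≤ 24` this forces `u'' + δu < 73`, so `u = u'' + δu`, `v = v'' + δv`; then `lam (6 b) … = lam (6 (b-c)) … + μ` and `mS_mono` applies.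
-/

set_option autoImplicit false

namespace Crest.Agent.R187.K

open MvPolynomial

namespace Cov

theorem one_shl (n : ℕ) : Nat.shiftLeft 1 n = 2 ^ n := by
  rw [nshl, Nat.shiftLeft_eq, one_mul]

theorem ones40_eq (n : ℕ) : ones40 n = (2 ^ (40 * (73 * n)) - 1) / (2 ^ 40 - 1) := by
  have e : Nat.mul 2920 n = 40 * (73 * n) := by rw [nmul]; ring
  have e2 : (1099511627775 : ℕ) = 2 ^ 40 - 1 := by norm_num
  unfold ones40
  rw [one_shl, e, e2]
  rfl

theorem lane_grd (n i : ℕ) : lane 40 (grd n) i = if i < 73 * n then 2 ^ 39 else 0 := by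
  unfold grd
  rw [nshl, Nat.shiftLeft_eq, ones40_eq]
  exact lane_ones_mul (by norm_num) (by norm_num) i

theorem lane_GU {z n : ℕ} (hz : ∀ i, lane 40 z i ≤ 2 ^ 39) (i : ℕ) :
    lane 40 (Nat.sub (grd n) (Nat.mod z (Nat.shiftLeft 1 (Nat.mul 2920 n)))) i =
      if i < 73 * n then 2 ^ 39 - lane 40 z i else 0 := by
  have e : Nat.mul 2920 n = 40 * (73 * n) := by rw [nmul]; ring
  rw [one_shl, e, nsub, nmod, lane_sub (by norm_num), lane_grd, lane_mod]
  · split_ifs <;> rfl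
  · intro j
    rw [lane_grd, lane_mod]
    split_ifs
    · exact hz j
    · exact le_rfl

theorem okS_iff (lo : ℕ → ℕ → ℕ → ℕ → ℕ) (x : ℕ) (h : okS lo x = true) :
    dig x 4 < 73 ∧
      lane 40 (lo (dig x 0) (dig x 1) (dig x 2) (dig x 3)) (dig x 4 + 73 * dig x 5) ≠ 0 := by
  unfold okS at h
  simp only [frc_eq, cnd_eq] at h
  split_ifs at h with h1
  refine ⟨Nat.blt_eq.mp h1, ?_⟩
  have h2 := Nat.blt_eq.mp h
  rw [lane_eq_shift]
  have e2 : (2 : ℕ) ^ 40 = 1099511627776 := by norm_num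
  rw [e2]
  exact h2.ne'

theorem shf_cases (lo : ℕ → ℕ → ℕ → ℕ → ℕ) (b p q r x : ℕ) :
    shf lo b p q r x = 0 ∨ (okS lo x = true ∧ dig x 0 ≤ b ∧ dig x 1 ≤ p ∧ dig x 2 ≤ q ∧
      dig x 3 ≤ r ∧ shf lo b p q r x = lo (b - dig x 0) (p - dig x 1) (q - dig x 2) (r - dig x 3)
        <<< (40 * (dig x 4 + 73 * dig x 5))) := by
  unfold shf
  rw [cnd_eq]
  split_ifs with h
  · simp only [Bool.and_eq_true, Nat.ble_eq] at h
    exact Or.inr ⟨h.1.1.1.1, h.1.1.1.2, h.1.1.2, h.1.2, h.2, rfl⟩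
  · exact Or.inl rfl

theorem lane_shf_lt {lo : ℕ → ℕ → ℕ → ℕ → ℕ} (hlo : Lo lo) (b p q r x i : ℕ) :
    lane 40 (shf lo b p q r x) i < 2 ^ 39 := by
  rcases shf_cases lo b p q r x with h | ⟨-, -, -, -, -, h⟩
  · rw [h, lane_zero]; positivity
  · rw [h, lane_shiftLeft]
    split_ifs
    · positivity
    · exact (hlo _ _ _ _).1 _

theorem lam_add {b c p q r p' q' r' u2 v2 du dv : ℕ}
    (a3 : 4 * p' + q' + r' + 3 * dv + 2 * du ≤ 6 * c)
    (b3 : 4 * p + q + r + 3 * v2 + 2 * u2 ≤ 6 * b) :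
    lam (6 * b) p q r u2 v2 + lam (6 * c) p' q' r' du dv =
      lam (6 * (b + c)) (p + p') (q + q') (r + r') (u2 + du) (v2 + dv) := by
  funext i
  fin_cases i <;> simp [lam] <;> omega

theorem shift_le {lo : ℕ → ℕ → ℕ → ℕ → ℕ} (hlo : Lo lo) {b p q r c p' q' r' du dv u v : ℕ}
    (hb : b + c ≤ 24) (hu : u < 73) (hdu : du < 73)
    (hpos : lane 40 (lo c p' q' r') (du + 73 * dv) ≠ 0) (hi : du + 73 * dv ≤ u + 73 * v)
    (hne : lane 40 (lo b p q r) (u + 73 * v - (du + 73 * dv)) ≠ 0) :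
    (lane 40 (lo b p q r) (u + 73 * v - (du + 73 * dv)) : ℤ) ≤
      mS (b + c) (lam (6 * (b + c)) (p + p') (q + q') (r + r') u v) := by
  obtain ⟨a1, a2, a3, a4⟩ := (hlo c p' q' r').2 du dv hdu hpos
  obtain ⟨u2, v2, hlt, hj⟩ : ∃ u2 v2, u2 < 73 ∧ u + 73 * v - (du + 73 * dv) = u2 + 73 * v2 :=
    ⟨_, _, Nat.mod_lt _ (by norm_num), (Nat.mod_add_div _ _).symm⟩
  rw [hj] at hne ⊢
  obtain ⟨b1, b2, b3, b4⟩ := (hlo _ _ _ _).2 u2 v2 hlt hne
  have hs : u2 + du < 73 := by clear hj hi a1 a2 b1 b2; omega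
  have hsum : u + 73 * v = u2 + du + 73 * (v2 + dv) := by clear a1 a2 a3 b1 b2 b3; omega
  have hv' : v = v2 + dv := by clear a1 a2 a3 b1 b2 b3 hj hi; omega
  have hu' : u = u2 + du := by clear a1 a2 a3 b1 b2 b3 hj hi; omega
  have hmu : 0 < mS c (lam (6 * c) p' q' r' du dv) :=
    lt_of_lt_of_le (by exact_mod_cast Nat.pos_of_ne_zero hpos) a4
  have key := mS_mono b c _ _ (antitone_lam b1 b2 b3) (antitone_lam a1 a2 a3) hmu
  rw [lam_add a3 b3, ← hu', ← hv'] at key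
  exact b4.trans key

theorem lane_shf_le {lo : ℕ → ℕ → ℕ → ℕ → ℕ} (hlo : Lo lo) {b p q r u v : ℕ} (hb : b ≤ 24)
    (huv : 4 * p + q + r + 3 * v + 2 * u ≤ 6 * b) (x : ℕ)
    (hne : lane 40 (shf lo b p q r x) (u + 73 * v) ≠ 0) :
    (lane 40 (shf lo b p q r x) (u + 73 * v) : ℤ) ≤ mS b (lam (6 * b) p q r u v) := by
  rcases shf_cases lo b p q r x with h | ⟨hok, h0, h1, h2, h3, h⟩
  · rw [h, lane_zero] at hne; exact (hne rfl).elim
  obtain ⟨hu, hpos⟩ := okS_iff lo x hok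
  rw [h, lane_shiftLeft] at hne ⊢
  by_cases hi : u + 73 * v < dig x 4 + 73 * dig x 5
  · rw [if_pos hi] at hne; exact (hne rfl).elim
  rw [if_neg hi] at hne ⊢
  have hu' : u < 73 := by clear hi hu h0 h1 h2 h3; omega
  have key := shift_le hlo ((Nat.sub_add_cancel h0).le.trans hb) hu' hu hpos (not_lt.1 hi) hne
  rwa [Nat.sub_add_cancel h0, Nat.sub_add_cancel h1, Nat.sub_add_cancel h2,
    Nat.sub_add_cancel h3] at key

theorem cov1_lf (lo : ℕ → ℕ → ℕ → ℕ → ℕ) (b p q r G GU m : ℕ) :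
    cov1 lo b p q r G GU (Tr.lf m) = GU &&& G := rfl

theorem cov1_nd (lo : ℕ → ℕ → ℕ → ℕ → ℕ) (b p q r G GU : ℕ) (x t : Tr) :
    cov1 lo b p q r G GU (Tr.nd x t) =
      cov1 lo b p q r G GU t ||| ((shf lo b p q r x.val + GU) &&& G) := rfl

theorem guard {z : ℕ} (hz : z < 2 ^ 40) (h : z &&& 2 ^ 39 ≠ 0) : 2 ^ 39 ≤ z := by
  rw [land_guard (w := 39) hz] at h
  by_contra h'
  exact h (if_neg h')

theorem hi_test {z m β : ℕ} (hβ : β ≤ 40) (hz : z < Nat.shiftLeft 1 (2920 * m))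
    (h : z &&& (ones40 m * (1099511627776 - Nat.shiftLeft 1 β)) = 0) (i : ℕ) :
    lane 40 z i < 2 ^ β := by
  have e : 2920 * m = 40 * (73 * m) := by ring
  have e2 : (1099511627776 : ℕ) = 2 ^ 40 := by norm_num
  rw [one_shl, e] at hz
  rw [one_shl, e2, ones40_eq] at h
  by_cases hi : i < 73 * m
  · have h1 := congrArg (fun y => lane 40 y i) h
    have h2 : 0 < 2 ^ β := by positivity
    have h3 : 0 < 2 ^ 40 := by positivity
    simp only [lane_land, lane_zero] at h1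
    rw [lane_ones_mul (by norm_num) (Nat.sub_lt h3 h2), if_pos hi] at h1
    exact lt_of_land_hi (lane_lt _ _ _) hβ h1
  · rw [lane_eq_zero_of_lt hz (not_lt.1 hi)]
    positivity

end Cov

open Cov

theorem cov_sound {lo : ℕ → ℕ → ℕ → ℕ → ℕ} {U : ℕ → ℕ → ℕ → ℕ} {b p q r : ℕ} {ws : Tr}
    (hlo : Lo lo) (hb : b ≤ 24) (hrq : r ≤ q) (hqp : q ≤ p)
    (hU : ∀ i, lane 40 (U p q r) i ≤ 2 ^ 39) (h : cov lo U b p q r ws = true)
    {u v : ℕ} (huv : 4 * p + q + r + 3 * v + 2 * u ≤ 6 * b) :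
    (lane 40 (U p q r) (u + 73 * v) : ℤ) ≤ mS b (lam (6 * b) p q r u v) := by
  unfold cov at h
  rw [frc_eq] at h
  have hi : u + 73 * v <
      73 * Nat.succ (Nat.div (Nat.sub (Nat.mul 6 b) (Nat.add (Nat.add (Nat.mul 4 p) q) r)) 3) := by
    simp only [nmul, nsub, nadd, ndiv, Nat.succ_eq_add_one]
    omega
  generalize Nat.succ (Nat.div (Nat.sub (Nat.mul 6 b) (Nat.add (Nat.add (Nat.mul 4 p) q) r)) 3) = n
    at h hi
  have hGU := lane_GU (n := n) hU
  generalize Nat.sub (grd n) (Nat.mod (U p q r) (Nat.shiftLeft 1 (Nat.mul 2920 n))) = GU at h hGU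
  have h0 : 0 ≤ mS b (lam (6 * b) p q r u v) :=
    mult_pleth_nonneg _ _ _ _ (antitone_lam hrq hqp huv)
  have hG : lane 40 (grd n) (u + 73 * v) = 2 ^ 39 := by rw [lane_grd, if_pos hi]
  have hGUi : lane 40 GU (u + 73 * v) = 2 ^ 39 - lane 40 (U p q r) (u + 73 * v) := by
    rw [hGU, if_pos hi]
  have hUi := hU (u + 73 * v)
  have key : ∀ t : Tr, lane 40 (cov1 lo b p q r (grd n) GU t) (u + 73 * v) ≠ 0 →
      (lane 40 (U p q r) (u + 73 * v) : ℤ) ≤ mS b (lam (6 * b) p q r u v) := by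
    intro t
    induction t with
    | lf m =>
      intro ht
      rw [cov1_lf, lane_land, hG] at ht
      have h1 := guard (lane_lt _ _ _) ht
      have h2 : lane 40 (U p q r) (u + 73 * v) = 0 := by omega
      rw [h2]; exact h0
    | nd x t _ ih =>
      intro ht
      rw [cov1_nd, lane_lor] at ht
      by_cases h1 : lane 40 (cov1 lo b p q r (grd n) GU t) (u + 73 * v) = 0
      · rw [h1, Nat.zero_or, lane_land, hG] at ht
        have h2 := guard (lane_lt _ _ _) ht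
        rw [lane_add] at h2
        · by_cases h3 : lane 40 (shf lo b p q r x.val) (u + 73 * v) = 0
          · have h4 : lane 40 (U p q r) (u + 73 * v) = 0 := by omega
            rw [h4]; exact h0
          · refine le_trans ?_ (lane_shf_le hlo hb huv _ h3)
            have h4 : lane 40 (U p q r) (u + 73 * v) ≤
                lane 40 (shf lo b p q r x.val) (u + 73 * v) := by omega
            exact_mod_cast h4
        · intro j
          have h3 := lane_shf_lt hlo b p q r x.val j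
          have h4 : lane 40 GU j ≤ 2 ^ 39 := by
            rw [hGU]; split_ifs <;> omega
          omega
      · exact ih h1
  apply key ws
  rw [Nat.beq_eq.mp h, hG]
  positivity

theorem lof_sound {L1 L2 : ℕ → ℕ → ℕ → ℕ → ℕ}
    (h1 : ∀ b p q r, b ≤ 14 → r ≤ q → q ≤ p → 4 * p + q + r ≤ 6 * b →
      Exact (6 * b) (pleth 6 b 6) (L1 b p q r) p q r ∧ ∀ i, lane 40 (L1 b p q r) i < 2 ^ 39)
    (h2 : ∀ b p q r, 14 < b → b ≤ 24 → r ≤ q → q ≤ p → p + 2 ≤ pthinS (q + 1) r →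
      Exact (6 * b) (pleth 6 b 6) (L2 b p q r) p q r ∧ ∀ i, lane 40 (L2 b p q r) i < 2 ^ 39) :
    Lo (lof L1 L2) := by
  have aux : ∀ {b p q r x : ℕ}, r ≤ q → q ≤ p → (Exact (6 * b) (pleth 6 b 6) x p q r ∧
      ∀ i, lane 40 x i < 2 ^ 39) → (∀ i, lane 40 x i < 2 ^ 39) ∧
      ∀ u v, u < 73 → lane 40 x (u + 73 * v) ≠ 0 →
        r ≤ q ∧ q ≤ p ∧ 4 * p + q + r + 3 * v + 2 * u ≤ 6 * b ∧
          (lane 40 x (u + 73 * v) : ℤ) ≤ mS b (lam (6 * b) p q r u v) := by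
    intro b p q r x hrq hqp ⟨hE, hlt⟩
    refine ⟨hlt, fun u v hu hne => ?_⟩
    have h := hE u v hu
    by_cases hc : 4 * p + q + r + 3 * v + 2 * u ≤ 6 * b
    · rw [if_pos hc] at h
      exact ⟨hrq, hqp, hc, h.le⟩
    · rw [if_neg hc] at h
      exact (hne (by exact_mod_cast h)).elim
  have aux0 : ∀ {b p q r : ℕ}, (∀ i, lane 40 0 i < 2 ^ 39) ∧
      ∀ u v, u < 73 → lane 40 0 (u + 73 * v) ≠ 0 →
        r ≤ q ∧ q ≤ p ∧ 4 * p + q + r + 3 * v + 2 * u ≤ 6 * b ∧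
          (lane 40 0 (u + 73 * v) : ℤ) ≤ mS b (lam (6 * b) p q r u v) :=
    ⟨fun i => by rw [lane_zero]; positivity, fun u v _ hne => (hne (lane_zero _ _)).elim⟩
  intro b p q r
  unfold lof
  simp only [cnd_eq, Bool.and_eq_true, Nat.ble_eq, nadd, nmul, Nat.succ_eq_add_one]
  split_ifs with c1 c2 c3
  · exact aux c1.1.2 c1.1.1 (h1 b p q r c2 c1.1.2 c1.1.1 c1.2)
  · exact aux c1.1.2 c1.1.1 (h2 b p q r (not_le.1 c2) c3.1 c1.1.2 c1.1.1 c3.2)
  · exact aux0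
  · exact aux0

theorem chkP_sound {t t1 : ℕ → ℕ → ℕ} {N0 d β n : ℕ} (hβ : β ≤ 40) (hn : (N0 + d) / 4 < n)
    (h : chkP t N0 d β t1 n = true) {p q : ℕ} (hqp : q ≤ p) (hN : 4 * p + q ≤ N0 + d) :
    t1 p q = pieri t N0 d p q 0 ∧ ∀ i, lane 40 (t1 p q) i < 2 ^ β := by
  unfold chkP at h
  have h1 := (allLt_iff _ _).1 ((allLt_iff _ _).1 h p (by omega)) q (Nat.lt_succ_of_le hqp)
  have e : (146000 : ℕ) = 2920 * 50 := by norm_num
  rw [e] at h1
  generalize hS : Nat.shiftLeft 1 (2920 * 50) = S at h1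
  generalize hH : hi40 β = H at h1
  simp only [cnd_eq] at h1
  have c0 : Nat.ble (Nat.add (Nat.mul 4 p) q) (Nat.add N0 d) = true := Nat.ble_eq.mpr hN
  rw [if_pos c0] at h1
  split_ifs at h1 with c1 c2
  refine ⟨Nat.beq_eq.mp c1, hi_test (m := 50) hβ ?_ ?_⟩
  · rw [hS]; exact Nat.blt_eq.mp c2
  · have h2 : ones40 50 * (1099511627776 - Nat.shiftLeft 1 β) = H := by
      rw [← hH, hi40, nmul, nsub]
    rw [h2]
    exact Nat.beq_eq.mp h1

end Crest.Agent.R187.K
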