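import Crest.Agent.R187.KLane
import Crest.Agent.R187.Chars

/-!
# Task K2: the Newton step modulo `2^K` (algebraic part)

Write `M s = 2 ^ (w * S * ((C - s) / 3))` (`md_eq`); `M s ∣ M s'` for `s' ≤ s`.  All statements are congruences modulo `M (p+q+r)`.

* `ev_swap₁₂`, `ev_swap₂₃`: `Phi` commutes with renaming the last three variables (`MvPolynomial.algHom_ext`), `rename_swap_vand`,
  `pleth_isSymmetric`, `coeff_rename_mapDomain`.  In particular `ev` vanishes when two of `p q r` agree.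
* `dn_cong`: case analysis on the order of `p q r`; `ng M x = M - x` (or `0`), using `Ent.le`.
* Generating function: `hd 6 d = coeff d (∏ i, PowerSeries.mk fun n => X i ^ n)` (`PowerSeries.coeff_prod`), hence
  `Phi (expand k (hd 6 d)) = ∑_{j ≤ d} C (H (d - j)) * c₃ j` where `H m = h_m(1, X^k, Y^k)` (`hc3%`; note `hc2%` is written in Horner form
  `1 + X^k * h`), `c₁ j = X 0 ^ (k j)`, `c₂ (j+1) = c₁ (j+1) + X 1 ^ k * c₂ j`, `c₃ (j+1) = c₂ (j+1) + X 2 ^ k * c₃ j`
  (from `geom x = 1 + x • X * geom x`).  Any other route is fine (e.g. a list-recursive complete homogeneous polynomial).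
* `g5%` computes `coeff (ex3 p q r) (c₂ j * G)`, `g6%` computes `coeff (ex3 p q r) (c₃ j * G)` modulo `M (p+q+r)` (induction on `j`,
  `coeff_X_pow_mul'`-style lemmas: `X i ^ k = monomial (single i k) 1`, `coeff_monomial_mul'`); carry the hypothesis that `D p' q' r'` is
  correct for all `p' ≤ p`, `q' ≤ q`, `r' ≤ r`.  The terms with `j > (p+q+r)/k` vanish.
* `pleth_newton` gives `a * FF d a = ∑_{k<a} expand (k+1) (hd 6 d) * FF d (a - (k+1))`.
-/

set_option autoImplicit false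

namespace Crest.Agent.R187.K

open MvPolynomial

namespace Newt

theorem ex3_0 (p q r : ℕ) : ex3 p q r 0 = p := rfl
theorem ex3_1 (p q r : ℕ) : ex3 p q r 1 = q := rfl
theorem ex3_2 (p q r : ℕ) : ex3 p q r 2 = r := rfl

theorem ex3_ext {a b : Fin 3 →₀ ℕ} (h0 : a 0 = b 0) (h1 : a 1 = b 1) (h2 : a 2 = b 2) : a = b := by
  ext i
  fin_cases i
  · exact h0
  · exact h1
  · exact h2

theorem Phi_rename₁₂ (w S : ℕ) (F : MvPolynomial (Fin 6) ℤ) :
    Phi w S (rename (Equiv.swap (3 : Fin 6) 4) F) =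
      rename (Equiv.swap (0 : Fin 3) 1) (Phi w S F) := by
  have : (Phi w S).comp (rename (Equiv.swap (3 : Fin 6) 4)) =
      (rename (Equiv.swap (0 : Fin 3) 1)).comp (Phi w S) := by
    refine MvPolynomial.algHom_ext fun i => ?_
    fin_cases i <;> simp [Phi, Equiv.swap_apply_def, map_ofNat]
  exact DFunLike.congr_fun this F

theorem Phi_rename₂₃ (w S : ℕ) (F : MvPolynomial (Fin 6) ℤ) :
    Phi w S (rename (Equiv.swap (4 : Fin 6) 5) F) =
      rename (Equiv.swap (1 : Fin 3) 2) (Phi w S F) := by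
  have : (Phi w S).comp (rename (Equiv.swap (4 : Fin 6) 5)) =
      (rename (Equiv.swap (1 : Fin 3) 2)).comp (Phi w S) := by
    refine MvPolynomial.algHom_ext fun i => ?_
    fin_cases i <;> simp [Phi, Equiv.swap_apply_def, map_ofNat]
  exact DFunLike.congr_fun this F

theorem ex3_swap₁₂ (p q r : ℕ) :
    (ex3 p q r).mapDomain (Equiv.swap (0 : Fin 3) 1) = ex3 q p r := by
  refine ex3_ext ?_ ?_ ?_ <;> rw [Finsupp.mapDomain_equiv_apply] <;> rfl

theorem ex3_swap₂₃ (p q r : ℕ) :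
    (ex3 p q r).mapDomain (Equiv.swap (1 : Fin 3) 2) = ex3 p r q := by
  refine ex3_ext ?_ ?_ ?_ <;> rw [Finsupp.mapDomain_equiv_apply] <;> rfl

end Newt

theorem ev_swap₁₂ (w S : ℕ) {f : MvPolynomial (Fin 6) ℤ} (hf : f.IsSymmetric) (p q r : ℕ) :
    ev w S (vand 6 * f) q p r = -ev w S (vand 6 * f) p q r := by
  have h1 : vand 6 * f = -rename (Equiv.swap (3 : Fin 6) 4) (vand 6 * f) := by
    rw [map_mul, rename_swap_vand 3 4 (by decide), hf]; ring
  unfold ev
  conv_lhs => rw [h1, map_neg, Newt.Phi_rename₁₂, ← Newt.ex3_swap₁₂, coeff_neg,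
    coeff_rename_mapDomain _ (Equiv.injective _)]

theorem ev_swap₂₃ (w S : ℕ) {f : MvPolynomial (Fin 6) ℤ} (hf : f.IsSymmetric) (p q r : ℕ) :
    ev w S (vand 6 * f) p r q = -ev w S (vand 6 * f) p q r := by
  have h1 : vand 6 * f = -rename (Equiv.swap (4 : Fin 6) 5) (vand 6 * f) := by
    rw [map_mul, rename_swap_vand 4 5 (by decide), hf]; ring
  unfold ev
  conv_lhs => rw [h1, map_neg, Newt.Phi_rename₂₃, ← Newt.ex3_swap₂₃, coeff_neg,
    coeff_rename_mapDomain _ (Equiv.injective _)]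

namespace Newt

/-! ### Geometric series -/

section Geom

variable {R : Type*} [CommRing R]

/-- The geometric series `∑ xⁿ Tⁿ`. -/
noncomputable def geom (x : R) : PowerSeries R := PowerSeries.mk fun n => x ^ n

theorem coeff_geom (x : R) (n : ℕ) : PowerSeries.coeff n (geom x) = x ^ n := by
  simp [geom]

theorem geom_eq (x : R) : geom x = 1 + PowerSeries.C x * (PowerSeries.X * geom x) := by
  ext n
  cases n with
  | zero => simp [geom]
  | succ n =>
    rw [map_add, PowerSeries.coeff_C_mul, PowerSeries.coeff_succ_X_mul, coeff_geom, coeff_geom,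
      PowerSeries.coeff_one, if_neg (Nat.succ_ne_zero n)]
    ring

theorem coeff_zero_mul_geom (F : PowerSeries R) (x : R) :
    PowerSeries.coeff 0 (F * geom x) = PowerSeries.coeff 0 F := by
  simp [geom]

theorem coeff_succ_mul_geom (F : PowerSeries R) (x : R) (n : ℕ) :
    PowerSeries.coeff (n + 1) (F * geom x) =
      PowerSeries.coeff (n + 1) F + x * PowerSeries.coeff n (F * geom x) := by
  have h : F * geom x = F + PowerSeries.C x * (PowerSeries.X * (F * geom x)) := by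
    conv_lhs => rw [geom_eq x]
    ring
  conv_lhs => rw [h]
  rw [map_add, PowerSeries.coeff_C_mul, PowerSeries.coeff_succ_X_mul]

theorem map_hd {n : ℕ} (φ : MvPolynomial (Fin n) ℤ →ₐ[ℤ] R) (d : ℕ) :
    φ (hd n d) = PowerSeries.coeff d (∏ i, geom (φ (X i))) := by
  rw [PowerSeries.coeff_prod]
  unfold hd monos
  rw [map_sum]
  refine Finset.sum_congr rfl fun α _ => ?_
  simp only [coeff_geom]
  rw [monomial_eq, C_1, one_mul, Finsupp.prod_fintype _ _ (fun i => pow_zero _), map_prod]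
  simp only [map_pow]

end Geom

/-! ### The executable pieces -/

noncomputable def H2 (w k : ℕ) : ℕ → ℕ := hc2% w k

noncomputable def H3 (w S k : ℕ) : ℕ → ℕ := hc3% w S k

theorem H2_zero (w k : ℕ) : H2 w k 0 = 1 := rfl

theorem H2_succ (w k m : ℕ) : H2 w k (m + 1) = 1 + 2 ^ (w * k) * H2 w k m := by
  have : H2 w k (m + 1) = Nat.add 1 (Nat.shiftLeft (H2 w k m) (Nat.mul w k)) := rfl
  rw [this, nadd, nshl, nmul, Nat.shiftLeft_eq, mul_comm (H2 w k m)]

theorem H3_zero (w S k : ℕ) : H3 w S k 0 = 1 := rfl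

theorem H3_succ (w S k m : ℕ) :
    H3 w S k (m + 1) = H2 w k (m + 1) + 2 ^ (w * S * k) * H3 w S k m := by
  have : H3 w S k (m + 1) = Nat.add (H2 w k (m + 1))
    (Nat.shiftLeft (H3 w S k m) (Nat.mul (Nat.mul w S) k)) := rfl
  rw [this, nadd, nshl, nmul, nmul, Nat.shiftLeft_eq, mul_comm (H3 w S k m)]

theorem hcm_eq (w S C k m s : ℕ) : hcm w S C k m s = H3 w S k m % md w S C s := rfl

abbrev R3 : Type := MvPolynomial (Fin 3) ℤ

theorem H2_eq (w k m : ℕ) :
    PowerSeries.coeff m (geom (1 : R3) * geom ((C (2 ^ w) : R3) ^ k)) = C (H2 w k m : ℤ) := by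
  induction m with
  | zero => rw [coeff_zero_mul_geom, coeff_geom, H2_zero]; simp
  | succ m ih =>
    rw [coeff_succ_mul_geom, ih, coeff_geom, H2_succ, one_pow]
    push_cast
    simp only [map_add, map_mul, map_pow, map_one, pow_mul]

theorem H3_eq (w S k m : ℕ) :
    PowerSeries.coeff m (geom (1 : R3) * geom ((C (2 ^ w) : R3) ^ k) *
      geom ((C (2 ^ (w * S)) : R3) ^ k)) = C (H3 w S k m : ℤ) := by
  induction m with
  | zero => rw [coeff_zero_mul_geom, H2_eq, H2_zero, H3_zero]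
  | succ m ih =>
    rw [coeff_succ_mul_geom, ih, H2_eq, H3_succ]
    push_cast
    simp only [map_add, map_mul, map_pow, pow_mul]

noncomputable def c2 (k j : ℕ) : R3 :=
  PowerSeries.coeff j (geom ((X 0 : R3) ^ k) * geom ((X 1 : R3) ^ k))

noncomputable def c3 (k j : ℕ) : R3 :=
  PowerSeries.coeff j (geom ((X 0 : R3) ^ k) * geom ((X 1 : R3) ^ k) * geom ((X 2 : R3) ^ k))

theorem c2_zero (k : ℕ) : c2 k 0 = 1 := by
  rw [c2, coeff_zero_mul_geom, coeff_geom, pow_zero]

theorem c2_succ (k j : ℕ) : c2 k (j + 1) = X 0 ^ (k * (j + 1)) + X 1 ^ k * c2 k j := by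
  rw [c2, coeff_succ_mul_geom, coeff_geom, ← pow_mul]; rfl

theorem c3_zero (k : ℕ) : c3 k 0 = c2 k 0 := by
  rw [c3, coeff_zero_mul_geom]; rfl

theorem c3_succ (k j : ℕ) : c3 k (j + 1) = c2 k (j + 1) + X 2 ^ k * c3 k j := by
  rw [c3, coeff_succ_mul_geom]; rfl

theorem Phi_expand_hd (w S k d : ℕ) :
    Phi w S (expand k (hd 6 d)) =
      ∑ j ∈ Finset.range (d + 1), C (H3 w S k (d - j) : ℤ) * c3 k j := by
  have h : Phi w S (expand k (hd 6 d)) =
      PowerSeries.coeff d (∏ i, geom (Phi w S (expand k (X i)))) :=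
    map_hd ((Phi w S).comp (expand k)) d
  rw [h, Fin.prod_univ_six]
  simp only [expand_X]
  simp only [map_pow (Phi w S)]
  have e0 : Phi w S (X 0) = 1 := by simp [Phi]
  have e1 : Phi w S (X 1) = C (2 ^ w) := by simp [Phi]
  have e2 : Phi w S (X 2) = C (2 ^ (w * S)) := by simp [Phi]
  have e3 : Phi w S (X 3) = X 0 := by simp [Phi]
  have e4 : Phi w S (X 4) = X 1 := by simp [Phi]
  have e5 : Phi w S (X 5) = X 2 := by simp [Phi]
  rw [e0, e1, e2, e3, e4, e5, one_pow]
  have : geom (1 : R3) * geom ((C (2 ^ w) : R3) ^ k) * geom ((C (2 ^ (w * S)) : R3) ^ k) *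
      geom ((X 0 : R3) ^ k) * geom ((X 1 : R3) ^ k) * geom ((X 2 : R3) ^ k) =
      (geom ((X 0 : R3) ^ k) * geom ((X 1 : R3) ^ k) * geom ((X 2 : R3) ^ k)) *
      (geom (1 : R3) * geom ((C (2 ^ w) : R3) ^ k) * geom ((C (2 ^ (w * S)) : R3) ^ k)) := by ring
  rw [this, PowerSeries.coeff_mul, Finset.Nat.sum_antidiagonal_eq_sum_range_succ_mk]
  refine Finset.sum_congr rfl fun j _ => ?_
  rw [H3_eq, mul_comm]
  rfl

theorem coeff_X0_mul (e p q r : ℕ) (G : R3) :
    coeff (ex3 p q r) (X 0 ^ e * G) = if e ≤ p then coeff (ex3 (p - e) q r) G else 0 := by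
  rw [X_pow_eq_monomial, coeff_monomial_mul', one_mul]
  simp only [Finsupp.single_le_iff, ex3_0]
  have : ex3 p q r - Finsupp.single 0 e = ex3 (p - e) q r := by
    refine ex3_ext ?_ ?_ ?_ <;> simp [ex3_0, ex3_1, ex3_2]
  rw [this]

theorem coeff_X1_mul (e p q r : ℕ) (G : R3) :
    coeff (ex3 p q r) (X 1 ^ e * G) = if e ≤ q then coeff (ex3 p (q - e) r) G else 0 := by
  rw [X_pow_eq_monomial, coeff_monomial_mul', one_mul]
  simp only [Finsupp.single_le_iff, ex3_1]
  have : ex3 p q r - Finsupp.single 1 e = ex3 p (q - e) r := by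
    refine ex3_ext ?_ ?_ ?_ <;> simp [ex3_0, ex3_1, ex3_2]
  rw [this]

theorem coeff_X2_mul (e p q r : ℕ) (G : R3) :
    coeff (ex3 p q r) (X 2 ^ e * G) = if e ≤ r then coeff (ex3 p q (r - e)) G else 0 := by
  rw [X_pow_eq_monomial, coeff_monomial_mul', one_mul]
  simp only [Finsupp.single_le_iff, ex3_2]
  have : ex3 p q r - Finsupp.single 2 e = ex3 p q (r - e) := by
    refine ex3_ext ?_ ?_ ?_ <;> simp [ex3_0, ex3_1, ex3_2]
  rw [this]

theorem coeff_c2_succ (k j p q r : ℕ) (G : R3) :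
    coeff (ex3 p q r) (c2 k (j + 1) * G) =
      (if k * (j + 1) ≤ p then coeff (ex3 (p - k * (j + 1)) q r) G else 0) +
      (if k ≤ q then coeff (ex3 p (q - k) r) (c2 k j * G) else 0) := by
  rw [c2_succ, add_mul, coeff_add, mul_assoc, coeff_X0_mul, coeff_X1_mul]

theorem coeff_c3_succ (k j p q r : ℕ) (G : R3) :
    coeff (ex3 p q r) (c3 k (j + 1) * G) =
      coeff (ex3 p q r) (c2 k (j + 1) * G) +
      (if k ≤ r then coeff (ex3 p q (r - k)) (c3 k j * G) else 0) := by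
  rw [c3_succ, add_mul, coeff_add, mul_assoc, coeff_X2_mul]

theorem coeff_c2_van (k : ℕ) (G : R3) (j : ℕ) :
    ∀ p q r, p + q < k * j → coeff (ex3 p q r) (c2 k j * G) = 0 := by
  induction j with
  | zero => intro p q r h; simp at h
  | succ j ih =>
    intro p q r h
    rw [coeff_c2_succ, if_neg (by omega), zero_add]
    split_ifs with h1
    · refine ih _ _ _ ?_
      rw [Nat.mul_succ] at h
      omega
    · rfl

theorem coeff_c3_van (k : ℕ) (G : R3) (j : ℕ) :
    ∀ p q r, p + q + r < k * j → coeff (ex3 p q r) (c3 k j * G) = 0 := by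
  induction j with
  | zero => intro p q r h; simp at h
  | succ j ih =>
    intro p q r h
    rw [coeff_c3_succ, coeff_c2_van k G _ _ _ _ (by omega), zero_add]
    split_ifs with h1
    · refine ih _ _ _ ?_
      rw [Nat.mul_succ] at h
      omega
    · rfl

noncomputable def G5 (D : ℕ → ℕ → ℕ → ℕ) (k : ℕ) : ℕ → ℕ → ℕ → ℕ → ℕ := g5% D k

noncomputable def G6 (g : ℕ → ℕ → ℕ → ℕ → ℕ) (k : ℕ) : ℕ → ℕ → ℕ → ℕ → ℕ := g6% g k

theorem G5_zero (D : ℕ → ℕ → ℕ → ℕ) (k p q r : ℕ) : G5 D k 0 p q r = D p q r := rfl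

theorem G5_succ (D : ℕ → ℕ → ℕ → ℕ) (k j p q r : ℕ) :
    G5 D k (j + 1) p q r = (if k * (j + 1) ≤ p then D (p - k * (j + 1)) q r else 0) +
      (if k ≤ q then G5 D k j p (q - k) r else 0) := by
  have : G5 D k (j + 1) p q r =
      cnd% (Nat.ble k q)
        (cnd% (Nat.ble (k * (j + 1)) p)
          (D (p - k * (j + 1)) q r + G5 D k j p (q - k) r) (G5 D k j p (q - k) r))
        (cnd% (Nat.ble (k * (j + 1)) p) (D (p - k * (j + 1)) q r) 0) := rfl
  rw [this]
  simp only [cnd_eq, Nat.ble_eq]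
  split_ifs <;> simp

theorem G6_zero (g : ℕ → ℕ → ℕ → ℕ → ℕ) (k p q r : ℕ) : G6 g k 0 p q r = g 0 p q r := rfl

theorem G6_succ (g : ℕ → ℕ → ℕ → ℕ → ℕ) (k j p q r : ℕ) :
    G6 g k (j + 1) p q r = g (j + 1) p q r + (if k ≤ r then G6 g k j p q (r - k) else 0) := by
  have : G6 g k (j + 1) p q r =
      cnd% (Nat.ble k r) (g (j + 1) p q r + G6 g k j p q (r - k)) (g (j + 1) p q r) := rfl
  rw [this]
  simp only [cnd_eq, Nat.ble_eq]
  split_ifs <;> simp

theorem G5_cong {D : ℕ → ℕ → ℕ → ℕ} {G : R3} {m : ℤ} {p₀ q₀ r₀ : ℕ} (k : ℕ)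
    (hD : ∀ p q r, p ≤ p₀ → q ≤ q₀ → r ≤ r₀ → (D p q r : ℤ) ≡ coeff (ex3 p q r) G [ZMOD m])
    (j : ℕ) : ∀ p q r, p ≤ p₀ → q ≤ q₀ → r ≤ r₀ →
      (G5 D k j p q r : ℤ) ≡ coeff (ex3 p q r) (c2 k j * G) [ZMOD m] := by
  induction j with
  | zero =>
    intro p q r hp hq hr
    rw [G5_zero, c2_zero, one_mul]
    exact hD p q r hp hq hr
  | succ j ih =>
    intro p q r hp hq hr
    rw [G5_succ, coeff_c2_succ, Nat.cast_add]
    refine Int.ModEq.add ?_ ?_
    · split_ifs
      · exact hD _ _ _ (by omega) hq hr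
      · rfl
    · split_ifs
      · exact ih _ _ _ hp (by omega) hr
      · rfl

theorem G6_cong {D : ℕ → ℕ → ℕ → ℕ} {G : R3} {m : ℤ} {p₀ q₀ r₀ : ℕ} (k : ℕ)
    (hD : ∀ p q r, p ≤ p₀ → q ≤ q₀ → r ≤ r₀ → (D p q r : ℤ) ≡ coeff (ex3 p q r) G [ZMOD m])
    (j : ℕ) : ∀ p q r, p ≤ p₀ → q ≤ q₀ → r ≤ r₀ →
      (G6 (G5 D k) k j p q r : ℤ) ≡ coeff (ex3 p q r) (c3 k j * G) [ZMOD m] := by
  induction j with
  | zero =>
    intro p q r hp hq hr
    rw [G6_zero, c3_zero]
    exact G5_cong k hD 0 p q r hp hq hr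
  | succ j ih =>
    intro p q r hp hq hr
    rw [G6_succ, coeff_c3_succ, Nat.cast_add]
    refine Int.ModEq.add (G5_cong k hD _ p q r hp hq hr) ?_
    split_ifs
    · exact ih _ _ _ hp hq (by omega)
    · rfl

theorem fin1_eq (w S C d k : ℕ) (g : ℕ → ℕ → ℕ → ℕ → ℕ) (p q r s J : ℕ) :
    fin1 w S C d k g p q r s J =
      ∑ j ∈ Finset.range J, hcm w S C k (d - j) s * g j p q r := by
  induction J with
  | zero => rfl
  | succ J ih =>
    have : fin1 w S C d k g p q r s (J + 1) =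
        cnd% (Nat.beq (g J p q r) 0) (fin1 w S C d k g p q r s J)
          (fin1 w S C d k g p q r s J + hcm w S C k (d - J) s * g J p q r) := rfl
    rw [this, cnd_eq, Finset.sum_range_succ, ih]
    split_ifs with h
    · rw [Nat.beq_eq] at h
      rw [h, mul_zero, add_zero]
    · rfl

theorem fink_eq (w S C d : ℕ) (T : ℕ → ℕ → ℕ → ℕ → ℕ) (k i p q r s : ℕ) :
    fink w S C d T k i p q r s =
      fin1 w S C d k (G6 (G5 (dn w S C (T i)) k) k) p q r s (min (s / k) d + 1) % md w S C s := by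
  have : fink w S C d T k i p q r s =
      fin1 w S C d k (G6 (G5 (dn w S C (T i)) k) k) p q r s
        ((cnd% (Nat.ble (s / k) d) (s / k) d) + 1) % md w S C s := rfl
  rw [this, cnd_eq]
  simp only [Nat.ble_eq, min_def]

theorem rhs_eq (w S C d : ℕ) (T : ℕ → ℕ → ℕ → ℕ → ℕ) (a p q r s : ℕ) :
    rhs w S C d T a p q r s =
      ∑ k ∈ Finset.range a, fink w S C d T (k + 1) (a - (k + 1)) p q r s := by
  have : ∀ n, @Nat.rec (fun _ => ℕ) 0 (fun k ih =>
      frc (Nat.succ k) fun k1 => frc (Nat.sub a k1) fun i =>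
        Nat.add ih (fink w S C d T k1 i p q r s)) n =
      ∑ k ∈ Finset.range n, fink w S C d T (k + 1) (a - (k + 1)) p q r s := by
    intro n
    induction n with
    | zero => rfl
    | succ n ih => rw [Finset.sum_range_succ, ← ih]; rfl
  exact this a

theorem ng_cong {M x : ℕ} {y : ℤ} (hx : x ≤ M) (h : (x : ℤ) ≡ y [ZMOD M]) :
    (ng M x : ℤ) ≡ -y [ZMOD M] := by
  have : ng M x = M - x ∨ (ng M x = 0 ∧ x = 0) := by
    unfold ng
    rw [cnd_eq]
    split_ifs with h0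
    · right; exact ⟨rfl, Nat.beq_eq.mp h0⟩
    · left; rfl
  rcases this with h1 | ⟨h1, h2⟩
  · rw [h1, Nat.cast_sub hx]
    have h3 : ((M : ℤ) - x) ≡ 0 - y [ZMOD M] :=
      Int.ModEq.sub (by simp) h
    simpa using h3
  · rw [h1]
    have := h.neg
    rw [h2] at this
    simpa using this

theorem dn_eq (w S C : ℕ) (T : ℕ → ℕ → ℕ → ℕ) (p q r : ℕ) :
    dn w S C T p q r =
      if q < p then
        (if r < q then T p q r else
          if q < r then
            (if r < p then ng (md w S C (p + q + r)) (T p r q) else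
              if p < r then T r p q else 0) else 0)
      else if p < q then
        (if r < p then ng (md w S C (p + q + r)) (T q p r) else
          if p < r then
            (if r < q then T q r p else
              if q < r then ng (md w S C (p + q + r)) (T r q p) else 0) else 0)
      else 0 := by
  simp only [dn, frc_eq, cnd_eq, Nat.blt_eq, nadd]

theorem dn_cong {w S C d β : ℕ} {P : ℕ → ℕ → ℕ} {T : ℕ → ℕ → ℕ → ℕ → ℕ} {i p₀ q₀ r₀ : ℕ}
    (hP : AntiP P) (hT : Inv w S C d β P T i) (hrq : r₀ < q₀) (hqp : q₀ < p₀) (hp₀ : p₀ ≤ P q₀ r₀)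
    (p q r : ℕ) (hp : p ≤ p₀) (hq : q ≤ q₀) (hr : r ≤ r₀) :
    (dn w S C (T i) p q r : ℤ) ≡ ev w S (FF d i) p q r [ZMOD (md w S C (p + q + r) : ℕ)] := by
  have s12 : ∀ x y z, ev w S (FF d i) y x z = -ev w S (FF d i) x y z :=
    fun x y z => ev_swap₁₂ w S (pleth_isSymmetric 6 i d) x y z
  have s23 : ∀ x y z, ev w S (FF d i) x z y = -ev w S (FF d i) x y z :=
    fun x y z => ev_swap₂₃ w S (pleth_isSymmetric 6 i d) x y z
  have key : ∀ x y z, z < y → y < x → x ≤ p₀ → y ≤ q₀ → z ≤ r₀ → x + y + z = p + q + r →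
      T i x y z ≤ md w S C (p + q + r) ∧
        (T i x y z : ℤ) ≡ ev w S (FF d i) x y z [ZMOD (md w S C (p + q + r) : ℕ)] := by
    intro x y z h1 h2 h3 h4 h5 h6
    have h := hT x y z h1 h2 (h3.trans (hp₀.trans (hP _ _ _ _ h4 h5)))
    rw [← h6, md_eq]
    refine ⟨h.le, ?_⟩
    have := h.cong
    push_cast
    exact this
  have z12 : ∀ x z, ev w S (FF d i) x x z = 0 := fun x z => by have := s12 x x z; omega
  have z23 : ∀ x z, ev w S (FF d i) x z z = 0 := fun x z => by have := s23 x z z; omega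
  have z13 : ∀ x z, ev w S (FF d i) x z x = 0 := fun x z => by rw [s23, z12, neg_zero]
  rw [dn_eq]
  split_ifs with h1 h2 h3 h4 h5 h6 h7 h8 h9 h10
  · exact (key p q r h2 h1 hp hq hr rfl).2
  · have h := key p r q h3 h4 hp (by omega) (by omega) (by omega)
    rw [s23 p r q]
    exact ng_cong h.1 h.2
  · have h := key r p q h1 h5 (by omega) (by omega) (by omega) (by omega)
    rw [s23 p r q, s12 r p q, neg_neg]
    exact h.2
  · have : r = p := by omega
    rw [this, z13]; rfl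
  · have : r = q := by omega
    rw [this, z23]; rfl
  · have h := key q p r h7 h6 (by omega) (by omega) hr (by omega)
    rw [s12 q p r]
    exact ng_cong h.1 h.2
  · have h := key q r p h8 h9 (by omega) (by omega) (by omega) (by omega)
    rw [s12 q p r, s23 q r p, neg_neg]
    exact h.2
  · have h := key r q p h6 h10 (by omega) (by omega) (by omega) (by omega)
    rw [s12 q p r, s23 q r p, neg_neg, s12 r q p]
    exact ng_cong h.1 h.2
  · have : r = q := by omega
    rw [this, z23]; rfl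
  · have : r = p := by omega
    rw [this, z13]; rfl
  · have : q = p := by omega
    rw [this, z12]; rfl

theorem md_dvd (w S C : ℕ) {s s' : ℕ} (h : s' ≤ s) : md w S C s ∣ md w S C s' := by
  rw [md_eq, md_eq]
  refine pow_dvd_pow _ (Nat.mul_le_mul_left _ ?_)
  omega

theorem fink_cong {w S C d β : ℕ} {P : ℕ → ℕ → ℕ} {T : ℕ → ℕ → ℕ → ℕ → ℕ} {i p q r : ℕ}
    (hP : AntiP P) (hT : Inv w S C d β P T i) (hrq : r < q) (hqp : q < p) (hp : p ≤ P q r)
    (k : ℕ) (hk : 0 < k) :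
    (fink w S C d T k i p q r (p + q + r) : ℤ) ≡ ev w S (expand k (hd 6 d) * FF d i) p q r
      [ZMOD (md w S C (p + q + r) : ℕ)] := by
  have hD : ∀ p' q' r', p' ≤ p → q' ≤ q → r' ≤ r →
      (dn w S C (T i) p' q' r' : ℤ) ≡ coeff (ex3 p' q' r') (Phi w S (FF d i))
        [ZMOD (md w S C (p + q + r) : ℕ)] := fun p' q' r' h1 h2 h3 =>
    (dn_cong hP hT hrq hqp hp p' q' r' h1 h2 h3).of_dvd
      (Int.natCast_dvd_natCast.2 (md_dvd w S C (by omega)))
  rw [fink_eq, Int.natCast_mod, fin1_eq]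
  refine (Int.mod_modEq _ _).trans ?_
  unfold ev
  rw [map_mul, Phi_expand_hd, Finset.sum_mul, coeff_sum]
  have hsub : Finset.range (min ((p + q + r) / k) d + 1) ⊆ Finset.range (d + 1) := by
    intro j hj
    rw [Finset.mem_range] at hj ⊢
    omega
  rw [← Finset.sum_subset hsub]
  · push_cast
    refine Int.ModEq.sum fun j _ => ?_
    rw [mul_assoc, coeff_C_mul]
    refine Int.ModEq.mul ?_ (G6_cong k hD j p q r le_rfl le_rfl le_rfl)
    rw [hcm_eq, Int.natCast_mod]
    exact Int.mod_modEq _ _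
  · intro j hj hj'
    rw [Finset.mem_range] at hj hj'
    rw [mul_assoc, coeff_C_mul, coeff_c3_van, mul_zero]
    have h1 : (p + q + r) / k < j := by omega
    rwa [Nat.div_lt_iff_lt_mul hk, mul_comm] at h1

end Newt

theorem rhs_cong {w S C d β : ℕ} {P : ℕ → ℕ → ℕ} {T : ℕ → ℕ → ℕ → ℕ → ℕ} {a p q r : ℕ}
    (hP : AntiP P) (hT : ∀ i, i < a → Inv w S C d β P T i)
    (hrq : r < q) (hqp : q < p) (hp : p ≤ P q r) :
    (rhs w S C d T a p q r (p + q + r) : ℤ) ≡ a * ev w S (FF d a) p q r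
      [ZMOD 2 ^ (w * S * ((C - (p + q + r)) / 3))] := by
  have hM : (2 : ℤ) ^ (w * S * ((C - (p + q + r)) / 3)) = (md w S C (p + q + r) : ℕ) := by
    rw [md_eq]; push_cast; rfl
  have hN : (a : ℤ) * ev w S (FF d a) p q r =
      ∑ k ∈ Finset.range a, ev w S (expand (k + 1) (hd 6 d) * FF d (a - (k + 1))) p q r := by
    have h1 : (a : MvPolynomial (Fin 6) ℤ) * FF d a =
        ∑ k ∈ Finset.range a, expand (k + 1) (hd 6 d) * FF d (a - (k + 1)) := by
      unfold FF
      rw [mul_left_comm, pleth_newton, Finset.mul_sum]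
      exact Finset.sum_congr rfl fun k _ => by ring
    unfold ev
    rw [← coeff_sum, ← map_sum, ← h1, map_mul, map_natCast, ← map_natCast MvPolynomial.C,
      coeff_C_mul]
  rw [hM, hN, Newt.rhs_eq]
  push_cast
  refine Int.ModEq.sum fun k hk => ?_
  rw [Finset.mem_range] at hk
  exact Newt.fink_cong hP (hT _ (by omega)) hrq hqp hp (k + 1) (Nat.succ_pos k)

end Crest.Agent.R187.K
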