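import Crest.Agent.R187.KLane
import Crest.Agent.R187.Chars

/-!
# Task K5: the Pieri step

Start from `mult_mul_hd`.  For `i ≤ 6`, `j : ℕ`, `τ : Fin 6 → ℕ` antitone let `W i j τ = ∑ mult f μ` over the `μ` with `μ k = τ k` for `k < i`,
`τ (k+1) ≤ μ k ≤ τ k` for `k ≥ i` (`τ 6 = 0`) and `∑ μ + j = ∑ τ` (all these `μ` are antitone).  Then `W 0 d λ` is the Pieri sum, and splitting on
`μ i = τ i`:  `W i j τ = W (i+1) j τ + (if 1 ≤ j ∧ τ (i+1) < τ i then W i (j-1) (update τ i (τ i - 1)) else 0)`.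
By `h6` only `μ 5 = 0` matters (terms with `μ 5 > 0` are `≤ 0`; it may be convenient to restrict the sum to `μ 5 = 0` at once, and to
call `j` the size of the strip in the rows above the last one).  In the code the channel index `j` is the size of the strip minus `r`, the tuple
`τ = lam (N0 + r + j) p q r u v` is stored in lane `u + 73 v`, and it is a partition iff `4 p + q + 3 v + 2 u ≤ N0 + j`:
* `p5 t j p q r` bounds `W 4` (rows 5 and 6 done: `μ 5 = 0`, `μ 4 = q - j ≥ r`),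
* `p4%` bounds `W 3` (`τ 3 - 1`: `(p, u, v) ↦ (p - 1, u, v + 1)`, shift right by one row),
* `p3%` bounds `W 2` (`τ 2 - 1`: `(u, v) ↦ (u + 1, v - 1)`; `nc0` keeps all lanes of rows `< 50` with column `≠ 0`; `2880 = 40 * 72`),
* `p2%` bounds `W 1` (`τ 1 - 1`: `u ↦ u - 1`; `tri M` keeps the lanes with `2 u + 3 v ≤ M`, `M = N0 + j - (4 p + q)`),
* `p1` bounds `W 0` (`τ 0 - 1`: same lane).
`p3%`, `p2%`, `p1` at index `i + 1` treat channel `j0 + i`, `j0 = 4 p + q - N0`; channels below `j0` contain no partition.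
Only inequalities "sum ≤ lane" are needed, for lanes that are partitions.  Absence of carries (`lane_add`): all lanes of `p5` are `≤ B = 2^β`
(the table is only read at `4 p + q' ≤ N0`), of `p4% j` `≤ B (j+1)`, of `p3% i` `≤ B (d+1) i`, of `p2% i` `≤ B (d+1)^2 i`, of `p1 i`
`≤ B (d+1)^3 i`, for `j ≤ d`, `i ≤ d + 1`.
-/

set_option autoImplicit false

namespace Crest.Agent.R187.K

open MvPolynomial

namespace Pieri

/-! ### Bounds for sums over finite sets of tuples -/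

/-- Every finite sum of values of `F` on tuples satisfying `P` is at most `x`. -/
def Bd (F : (Fin 6 → ℕ) → ℤ) (P : (Fin 6 → ℕ) → Prop) (x : ℕ) : Prop :=
  ∀ s : Finset (Fin 6 → ℕ), (∀ μ ∈ s, P μ) → ∑ μ ∈ s, F μ ≤ x

variable {F : (Fin 6 → ℕ) → ℤ}

theorem Bd.mono {P Q : (Fin 6 → ℕ) → Prop} {x y : ℕ} (h : Bd F P x) (hQ : ∀ μ, Q μ → P μ)
    (hxy : x ≤ y) : Bd F Q y := fun s hs =>
  (h s fun μ hμ => hQ μ (hs μ hμ)).trans (by exact_mod_cast hxy)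

theorem Bd.of_nonpos {P : (Fin 6 → ℕ) → Prop} (h : ∀ μ, P μ → F μ ≤ 0) (x : ℕ) : Bd F P x :=
  fun _ hs => (Finset.sum_nonpos fun μ hμ => h μ (hs μ hμ)).trans (Int.natCast_nonneg x)

theorem Bd.empty {P : (Fin 6 → ℕ) → Prop} (h : ∀ μ, ¬ P μ) (x : ℕ) : Bd F P x :=
  Bd.of_nonpos (fun μ hμ => absurd hμ (h μ)) x

theorem Bd.single {P : (Fin 6 → ℕ) → Prop} {x : ℕ} (ν : Fin 6 → ℕ) (h : ∀ μ, P μ → μ = ν)
    (hx : F ν ≤ x) : Bd F P x := by
  intro s hs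
  have : s ⊆ {ν} := fun μ hμ => Finset.mem_singleton.2 (h μ (hs μ hμ))
  rcases Finset.subset_singleton_iff.1 this with rfl | rfl
  · simp
  · simpa using hx

theorem Bd.or {P Q R : (Fin 6 → ℕ) → Prop} {x y : ℕ} (hP : Bd F P x) (hQ : Bd F Q y)
    (h : ∀ μ, R μ → P μ ∨ Q μ) : Bd F R (x + y) := by
  classical
  intro s hs
  rw [← Finset.sum_filter_add_sum_filter_not s P]
  push_cast
  refine add_le_add (hP _ fun μ hμ => (Finset.mem_filter.1 hμ).2) (hQ _ fun μ hμ => ?_)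
  exact (h μ (hs μ (Finset.mem_filter.1 hμ).1)).resolve_left (Finset.mem_filter.1 hμ).2

/-! ### Lanes -/

/-- All lanes are at most `a`. -/
def LB (x a : ℕ) : Prop := ∀ i, lane 40 x i ≤ a

theorem LB.mono {x a b : ℕ} (h : LB x a) (hab : a ≤ b) : LB x b := fun i => (h i).trans hab

theorem LB.zero (a : ℕ) : LB 0 a := fun i => by rw [lane_zero]; exact Nat.zero_le _

theorem LB.lane_add {x y a b : ℕ} (hx : LB x a) (hy : LB y b) (hab : a + b ≤ 2 ^ 39) (i : ℕ) :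
    lane 40 (x + y) i = lane 40 x i + lane 40 y i := by
  refine K.lane_add (fun j => ?_) i
  have h1 := hx j
  have h2 := hy j
  omega

theorem LB.add {x y a b : ℕ} (hx : LB x a) (hy : LB y b) (hab : a + b ≤ 2 ^ 39) :
    LB (x + y) (a + b) := fun i => by
  rw [hx.lane_add hy hab]; exact add_le_add (hx i) (hy i)

theorem LB.shr {x a : ℕ} (hx : LB x a) (m : ℕ) : LB (x >>> (40 * m)) a := fun i => by
  rw [lane_shiftRight]; exact hx _

theorem LB.shl {x a : ℕ} (hx : LB x a) (m : ℕ) : LB (x <<< (40 * m)) a := fun i => by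
  rw [lane_shiftLeft]
  split_ifs
  · exact Nat.zero_le _
  · exact hx _

theorem LB.land {x a : ℕ} (hx : LB x a) (y : ℕ) : LB (x &&& y) a := fun i => by
  rw [lane_land]; exact Nat.and_le_left.trans (hx i)

theorem lane_land_of {x y i : ℕ} (h : lane 40 y i = 2 ^ 40 - 1) :
    lane 40 (x &&& y) i = lane 40 x i := by
  rw [lane_land, h, land_allOnes (lane_lt _ _ _)]

theorem lane_lane {w n x u : ℕ} (v : ℕ) (hu : u < n) :
    lane w x (u + n * v) = lane w (lane (w * n) x v) u := by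
  rw [lane_eq_shift (w * n), lane_mod, if_pos hu, mul_assoc, lane_shiftRight]

theorem lane_nc {w n m a b u v : ℕ} (hw : 0 < w) (ha : a = w * (n + 1) * m) (hb : b = w * (n + 1))
    (hu0 : 0 < u) (hu : u < n + 1) (hv : v < m) :
    lane w (Nat.mul (Nat.div (Nat.sub (Nat.shiftLeft 1 a) 1) (Nat.sub (Nat.shiftLeft 1 b) 1))
      (Nat.sub (Nat.shiftLeft 1 b) (Nat.shiftLeft 1 w))) (u + (n + 1) * v) = 2 ^ w - 1 := by
  subst ha hb
  simp only [nmul, ndiv, nsub, nshl, Nat.shiftLeft_eq, one_mul]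
  have hpos : 0 < 2 ^ w := by positivity
  have hpos' : 0 < 2 ^ (w * (n + 1)) := by positivity
  rw [lane_lane v hu, lane_ones_mul (by positivity) (by omega), if_pos hv]
  have : 2 ^ (w * (n + 1)) - 2 ^ w = (2 ^ (w * n) - 1) <<< (w * 1) := by
    rw [Nat.shiftLeft_eq, mul_one, Nat.sub_mul, one_mul, ← pow_add, mul_add, mul_one]
  rw [this, lane_shiftLeft, if_neg (by omega), lane_pow_sub_one, if_pos (by omega)]

theorem lane_nc0 {u v : ℕ} (hu0 : 0 < u) (hu : u < 73) (hv : v < 50) :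
    lane 40 nc0 (u + 73 * v) = 2 ^ 40 - 1 :=
  lane_nc (w := 40) (n := 72) (m := 50) (by norm_num) (by norm_num) (by norm_num) hu0 hu hv

theorem lane_trow (M i : ℕ) : lane 40 (trow M) i = if i < M / 2 + 1 then 2 ^ 40 - 1 else 0 := by
  simp only [trow, nmul, ndiv, nsub, nshl, Nat.shiftLeft_eq, one_mul, Nat.succ_eq_add_one]
  exact lane_pow_sub_one _ _ _

/-- The recursion in `tri`. -/
noncomputable def triA (e : ℕ) : ℕ → ℕ :=
  @Nat.rec (fun _ => ℕ) (trow e) (fun n ih =>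
    Nat.add (trow (Nat.add e (Nat.mul 3 (Nat.succ n)))) (Nat.shiftLeft ih 2920))

theorem triA_succ (e n : ℕ) :
    triA e (n + 1) = trow (e + 3 * (n + 1)) + triA e n <<< (40 * 73) := rfl

theorem lane_triA {e : ℕ} (he : e < 3) (n : ℕ) (hn : e + 3 * n < 146) (u v : ℕ)
    (h : 2 * u + 3 * v ≤ e + 3 * n) : lane 40 (triA e n) (u + 73 * v) = 2 ^ 40 - 1 := by
  induction n generalizing v with
  | zero =>
    show lane 40 (trow e) _ = _
    rw [lane_trow, if_pos (by omega)]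
  | succ n ih =>
    rw [triA_succ, lane_add, lane_trow, lane_shiftLeft]
    · rcases v with _ | v
      · rw [if_pos (by omega), if_pos (by omega), add_zero]
      · rw [if_neg (by omega), if_neg (by omega), zero_add,
          show u + 73 * (v + 1) - 73 = u + 73 * v by omega]
        exact ih (by omega) v (by omega)
    · intro j
      rw [lane_trow, lane_shiftLeft]
      have := lane_lt 40 (triA e n) (j - 73)
      split_ifs <;> omega

theorem lane_tri {M u v : ℕ} (hM : M < 146) (h : 2 * u + 3 * v ≤ M) :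
    lane 40 (tri M) (u + 73 * v) = 2 ^ 40 - 1 :=
  lane_triA (e := M % 3) (Nat.mod_lt _ (by norm_num)) (M / 3) (by omega) u v (by omega)

/-! ### The recursions -/

noncomputable def Q4 (t : ℕ → ℕ → ℕ) : ℕ → ℕ → ℕ → ℕ → ℕ := p4% t

noncomputable def Q3 (g : ℕ → ℕ → ℕ → ℕ → ℕ) (j0 p q r : ℕ) : ℕ → ℕ := p3% g j0 p q r

noncomputable def Q2 (g : ℕ → ℕ) (m0 : ℕ) : ℕ → ℕ := p2% g m0

theorem p5_eq (t : ℕ → ℕ → ℕ) (j p q r : ℕ) :
    p5 t j p q r = if j + r ≤ q then t p (q - j) else 0 := by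
  simp only [p5, cnd_eq, frc_eq, Nat.ble_eq, nadd, nsub]

theorem Q4_zero (t : ℕ → ℕ → ℕ) (p q r : ℕ) : Q4 t 0 p q r = p5 t 0 p q r := rfl

theorem Q4_succ (t : ℕ → ℕ → ℕ) (j p q r : ℕ) :
    Q4 t (j + 1) p q r = if q < p then p5 t (j + 1) p q r + Q4 t j (p - 1) q r >>> (40 * 73)
      else p5 t (j + 1) p q r := by
  have : Q4 t (j + 1) p q r = cnd% (Nat.blt q p)
      (cnd% (Nat.ble (j + 1 + r) q) (p5 t (j + 1) p q r + Q4 t j (p - 1) q r >>> (40 * 73))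
        (Q4 t j (p - 1) q r >>> (40 * 73))) (p5 t (j + 1) p q r) := rfl
  rw [this]
  simp only [cnd_eq, Nat.ble_eq, Nat.blt_eq]
  split_ifs with h1 h2
  · rfl
  · rw [p5_eq, if_neg h2, zero_add]
  · rfl

theorem Q3_succ (g : ℕ → ℕ → ℕ → ℕ → ℕ) (j0 p q r i : ℕ) :
    Q3 g j0 p q r (i + 1) = g (j0 + i) p q r + (Q3 g j0 p q r i &&& nc0) <<< (40 * 72) := rfl

theorem Q2_succ (g : ℕ → ℕ) (m0 i : ℕ) :
    Q2 g m0 (i + 1) = (g (i + 1) + Q2 g m0 i <<< (40 * 1)) &&& tri (m0 + i) := rfl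

theorem p1_succ (g : ℕ → ℕ) (i : ℕ) : p1 g (i + 1) = p1 g i + g (i + 1) := rfl

theorem pieri_eq (t : ℕ → ℕ → ℕ) (N0 d p q r : ℕ) :
    pieri t N0 d p q r = p1 (Q2 (Q3 (Q4 t) (4 * p + q - N0) p q r) (N0 - (4 * p + q)))
      (d + 1 - (r + (4 * p + q - N0))) := rfl

/-! ### The sets of tuples -/

/-- Rows five and six are done. -/
def P5 (N0 j p q r u v : ℕ) (μ : Fin 6 → ℕ) : Prop :=
  μ 0 + μ 1 + μ 2 + μ 3 + μ 4 = N0 ∧ μ 5 = 0 ∧ p + v + u ≤ μ 0 ∧ μ 1 = p + v + u ∧ μ 2 = p + v ∧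
    μ 3 = p ∧ r ≤ μ 4 ∧ μ 4 + j = q

def P4 (N0 j p q r u v : ℕ) (μ : Fin 6 → ℕ) : Prop :=
  μ 0 + μ 1 + μ 2 + μ 3 + μ 4 = N0 ∧ μ 5 = 0 ∧ p + v + u ≤ μ 0 ∧ μ 1 = p + v + u ∧ μ 2 = p + v ∧
    q ≤ μ 3 ∧ μ 3 ≤ p ∧ r ≤ μ 4 ∧ μ 4 ≤ q ∧ μ 3 + μ 4 + j = p + q

/-- `J` is the channel plus one. -/
def P3 (N0 J p q r u v : ℕ) (μ : Fin 6 → ℕ) : Prop :=
  μ 0 + μ 1 + μ 2 + μ 3 + μ 4 = N0 ∧ μ 5 = 0 ∧ p + v + u ≤ μ 0 ∧ μ 1 = p + v + u ∧
    p ≤ μ 2 ∧ μ 2 ≤ p + v ∧ q ≤ μ 3 ∧ μ 3 ≤ p ∧ r ≤ μ 4 ∧ μ 4 ≤ q ∧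
    μ 2 + μ 3 + μ 4 + J = 2 * p + v + q + 1

def P2 (N0 J p q r u v : ℕ) (μ : Fin 6 → ℕ) : Prop :=
  μ 0 + μ 1 + μ 2 + μ 3 + μ 4 = N0 ∧ μ 5 = 0 ∧ p + v + u ≤ μ 0 ∧ p + v ≤ μ 1 ∧ μ 1 ≤ p + v + u ∧
    p ≤ μ 2 ∧ μ 2 ≤ p + v ∧ q ≤ μ 3 ∧ μ 3 ≤ p ∧ r ≤ μ 4 ∧ μ 4 ≤ q ∧
    μ 1 + μ 2 + μ 3 + μ 4 + J = 3 * p + 2 * v + u + q + 1

def P1 (N0 J p q r u v : ℕ) (μ : Fin 6 → ℕ) : Prop :=
  μ 0 + μ 1 + μ 2 + μ 3 + μ 4 = N0 ∧ μ 5 = 0 ∧ p + v + u ≤ μ 0 ∧ p + v ≤ μ 1 ∧ μ 1 ≤ p + v + u ∧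
    p ≤ μ 2 ∧ μ 2 ≤ p + v ∧ q ≤ μ 3 ∧ μ 3 ≤ p ∧ r ≤ μ 4 ∧ μ 4 ≤ q ∧
    3 * p + 2 * v + u + q + 1 ≤ μ 1 + μ 2 + μ 3 + μ 4 + J

/-- The hypothesis on the table. -/
def Tab (F : (Fin 6 → ℕ) → ℤ) (t : ℕ → ℕ → ℕ) (N0 B : ℕ) : Prop :=
  ∀ p q, q ≤ p → 4 * p + q ≤ N0 →
    (∀ u v, 4 * p + q + 0 + 3 * v + 2 * u ≤ N0 →
      F (lam N0 p q 0 u v) ≤ (lane 40 (t p q) (u + 73 * v) : ℤ)) ∧ LB (t p q) B

variable {t : ℕ → ℕ → ℕ} {N0 B d : ℕ}

theorem p5_ok (ht : Tab F t N0 B) {j p q : ℕ} (r : ℕ) (hqp : q ≤ p) (h : 4 * p + q ≤ N0 + j) :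
    LB (p5 t j p q r) B ∧
      ∀ u v, Bd F (P5 N0 j p q r u v) (lane 40 (p5 t j p q r) (u + 73 * v)) := by
  rw [p5_eq]
  split_ifs with hj
  · obtain ⟨h1, h2⟩ := ht p (q - j) (by omega) (by omega)
    refine ⟨h2, fun u v => ?_⟩
    by_cases huv : 4 * p + (q - j) + 0 + 3 * v + 2 * u ≤ N0
    · refine Bd.single (lam N0 p (q - j) 0 u v) (fun μ hμ => ?_) (h1 u v huv)
      unfold P5 at hμ
      funext i
      fin_cases i <;> simp [lam] <;> omega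
    · exact Bd.empty (fun μ hμ => by unfold P5 at hμ; omega) _
  · exact ⟨LB.zero _, fun u v => Bd.empty (fun μ hμ => by unfold P5 at hμ; omega) _⟩

theorem Q4_ok (ht : Tab F t N0 B) (hB : B * (d + 1) ≤ 2 ^ 39) (q r j : ℕ) (hj : j ≤ d) :
    ∀ p, q ≤ p → 4 * p + q ≤ N0 + j → LB (Q4 t j p q r) (B * (j + 1)) ∧
      ∀ u v, Bd F (P4 N0 j p q r u v) (lane 40 (Q4 t j p q r) (u + 73 * v)) := by
  induction j with
  | zero =>
    intro p hqp h
    obtain ⟨h1, h2⟩ := p5_ok ht r hqp h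
    rw [Q4_zero]
    exact ⟨h1.mono (by omega), fun u v =>
      (h2 u v).mono (fun μ hμ => by unfold P4 at hμ; unfold P5; omega) le_rfl⟩
  | succ j ih =>
    intro p hqp h
    obtain ⟨h1, h2⟩ := p5_ok ht r hqp h
    rw [Q4_succ]
    split_ifs with hlt
    · obtain ⟨h3, h4⟩ := ih (by omega) (p - 1) (by omega) (by omega)
      have hle : B + B * (j + 1) ≤ 2 ^ 39 := by
        have : B * (j + 1 + 1) ≤ B * (d + 1) := Nat.mul_le_mul_left _ (by omega)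
        rw [mul_add, mul_one] at this
        omega
      refine ⟨(h1.add (h3.shr 73) hle).mono (by rw [mul_add B (j + 1), mul_one, add_comm]),
        fun u v => ?_⟩
      rw [h1.lane_add (h3.shr 73) hle, lane_shiftRight,
        show u + 73 * v + 73 = u + 73 * (v + 1) by omega]
      exact (h2 u v).or (h4 u (v + 1)) fun μ hμ => by unfold P4 at hμ ⊢; unfold P5; omega
    · exact ⟨h1.mono (Nat.le_mul_of_pos_right _ (by omega)), fun u v =>
        (h2 u v).mono (fun μ hμ => by unfold P4 at hμ; unfold P5; omega) le_rfl⟩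

theorem step_le {A i d : ℕ} (hA : A * (d + 1) ≤ 2 ^ 39) (hi : i ≤ d) : A + A * i ≤ 2 ^ 39 := by
  have : A * (i + 1) ≤ A * (d + 1) := Nat.mul_le_mul_left _ (by omega)
  rw [mul_add, mul_one] at this
  omega

theorem Q3_ok {g : ℕ → ℕ → ℕ → ℕ → ℕ} {A p q r : ℕ} (hN : N0 + d < 146)
    (hA : A * (d + 1) ≤ 2 ^ 39)
    (hg : ∀ j, j ≤ d → 4 * p + q ≤ N0 + j → LB (g j p q r) A ∧
      ∀ u v, Bd F (P4 N0 j p q r u v) (lane 40 (g j p q r) (u + 73 * v)))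
    (i : ℕ) (hi : i ≤ d + 1 - (4 * p + q - N0)) :
    LB (Q3 g (4 * p + q - N0) p q r i) (A * i) ∧
      ∀ u v, Bd F (P3 N0 (4 * p + q - N0 + i) p q r u v)
        (lane 40 (Q3 g (4 * p + q - N0) p q r i) (u + 73 * v)) := by
  induction i with
  | zero => exact ⟨LB.zero _, fun u v => Bd.empty (fun μ hμ => by unfold P3 at hμ; omega) _⟩
  | succ i ih =>
    obtain ⟨h1, h2⟩ := hg (4 * p + q - N0 + i) (by omega) (by omega)
    obtain ⟨h3, h4⟩ := ih (by omega)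
    have hle : A + A * i ≤ 2 ^ 39 := step_le hA (by omega)
    rw [Q3_succ]
    refine ⟨(h1.add ((h3.land nc0).shl 72) hle).mono (by rw [mul_add A i, mul_one, add_comm]),
      fun u v => ?_⟩
    rw [h1.lane_add ((h3.land nc0).shl 72) hle]
    by_cases huv : 4 * p + q + 3 * v + 2 * u ≤ N0 + d
    · rcases v with _ | v
      · exact (h2 u 0).mono (fun μ hμ => by unfold P3 at hμ; unfold P4; omega)
          (Nat.le_add_right _ _)
      · rw [lane_shiftLeft, if_neg (by omega),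
          show u + 73 * (v + 1) - 72 = u + 1 + 73 * v by omega,
          lane_land_of (lane_nc0 (by omega) (by omega) (by omega))]
        exact (h2 u (v + 1)).or (h4 (u + 1) v) fun μ hμ => by
          unfold P3 at hμ ⊢; unfold P4; omega
    · exact Bd.empty (fun μ hμ => by unfold P3 at hμ; omega) _

theorem Q2_ok {g : ℕ → ℕ} {A p q r : ℕ} (hN : N0 + d < 146) (hA : A * (d + 1) ≤ 2 ^ 39)
    (hg : ∀ i, i ≤ d + 1 - (4 * p + q - N0) → LB (g i) A ∧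
      ∀ u v, Bd F (P3 N0 (4 * p + q - N0 + i) p q r u v) (lane 40 (g i) (u + 73 * v)))
    (i : ℕ) (hi : i ≤ d + 1 - (4 * p + q - N0)) :
    LB (Q2 g (N0 - (4 * p + q)) i) (A * i) ∧
      ∀ u v, Bd F (P2 N0 (4 * p + q - N0 + i) p q r u v)
        (lane 40 (Q2 g (N0 - (4 * p + q)) i) (u + 73 * v)) := by
  induction i with
  | zero => exact ⟨LB.zero _, fun u v => Bd.empty (fun μ hμ => by unfold P2 at hμ; omega) _⟩
  | succ i ih =>
    obtain ⟨h1, h2⟩ := hg (i + 1) hi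
    obtain ⟨h3, h4⟩ := ih (by omega)
    have hle : A + A * i ≤ 2 ^ 39 := step_le hA (by omega)
    rw [Q2_succ]
    refine ⟨((h1.add (h3.shl 1) hle).land _).mono (by rw [mul_add A i, mul_one, add_comm]),
      fun u v => ?_⟩
    by_cases huv : 2 * u + 3 * v ≤ N0 - (4 * p + q) + i
    · rw [lane_land_of (lane_tri (by omega) huv), h1.lane_add (h3.shl 1) hle]
      rcases u with _ | u
      · exact (h2 0 v).mono (fun μ hμ => by unfold P2 at hμ; unfold P3; omega)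
          (Nat.le_add_right _ _)
      · rw [lane_shiftLeft, if_neg (by omega),
          show u + 1 + 73 * v - 1 = u + 73 * v by omega]
        exact (h2 (u + 1) v).or (h4 u v) fun μ hμ => by
          unfold P2 at hμ ⊢; unfold P3; omega
    · exact Bd.empty (fun μ hμ => by unfold P2 at hμ; omega) _

theorem p1_ok {g : ℕ → ℕ} {A p q r : ℕ} (hA : A * (d + 1) ≤ 2 ^ 39)
    (hg : ∀ i, i ≤ d + 1 - (4 * p + q - N0) → LB (g i) A ∧
      ∀ u v, Bd F (P2 N0 (4 * p + q - N0 + i) p q r u v) (lane 40 (g i) (u + 73 * v)))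
    (i : ℕ) (hi : i ≤ d + 1 - (4 * p + q - N0)) :
    LB (p1 g i) (A * i) ∧
      ∀ u v, Bd F (P1 N0 (4 * p + q - N0 + i) p q r u v) (lane 40 (p1 g i) (u + 73 * v)) := by
  induction i with
  | zero => exact ⟨LB.zero _, fun u v => Bd.empty (fun μ hμ => by unfold P1 at hμ; omega) _⟩
  | succ i ih =>
    obtain ⟨h1, h2⟩ := hg (i + 1) hi
    obtain ⟨h3, h4⟩ := ih (by omega)
    have hle : A * i + A ≤ 2 ^ 39 := by rw [add_comm]; exact step_le hA (by omega)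
    rw [p1_succ]
    refine ⟨(h3.add h1 hle).mono (by rw [mul_add A i, mul_one]), fun u v => ?_⟩
    rw [h3.lane_add h1 hle]
    exact (h4 u v).or (h2 u v) fun μ hμ => by unfold P1 at hμ ⊢; unfold P2; omega

theorem strips_cases {p q r u v : ℕ} {μ : Fin 6 → ℕ}
    (huv : 4 * p + q + r + 3 * v + 2 * u ≤ N0 + d)
    (hμ : μ ∈ strips (lam (N0 + d) p q r u v) d) :
    P1 N0 (4 * p + q - N0 + (d + 1 - (r + (4 * p + q - N0)))) p q r u v μ ∨
      (Antitone μ ∧ 0 < μ 5) := by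
  simp only [strips, Finset.mem_filter, Fintype.mem_piFinset, Finset.mem_range,
    sum_lam huv] at hμ
  obtain ⟨ha, hb, hc⟩ := hμ
  rw [Fin.sum_univ_six] at hc
  have a1 : μ 1 < p + v + u + 1 := ha 1
  have a2 : μ 2 < p + v + 1 := ha 2
  have a3 : μ 3 < p + 1 := ha 3
  have a4 : μ 4 < q + 1 := ha 4
  have a5 : μ 5 < r + 1 := ha 5
  have a0 : μ 0 < N0 + d - (3 * p + 2 * v + u + q + r) + 1 := ha 0
  have b0 : p + v + u ≤ μ 0 := hb 0 1 rfl
  have b1 : p + v ≤ μ 1 := hb 1 2 rfl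
  have b2 : p ≤ μ 2 := hb 2 3 rfl
  have b3 : q ≤ μ 3 := hb 3 4 rfl
  have b4 : r ≤ μ 4 := hb 4 5 rfl
  clear ha hb
  by_cases h5 : μ 5 = 0
  · left
    refine ⟨by omega, h5, b0, b1, by omega, b2, by omega, b3, by omega, b4, by omega, by omega⟩
  · refine Or.inr ⟨?_, by omega⟩
    rw [Fin.antitone_iff_succ_le]
    intro i
    fin_cases i
    · show μ 1 ≤ μ 0
      omega
    · show μ 2 ≤ μ 1
      omega
    · show μ 3 ≤ μ 2
      omega
    · show μ 4 ≤ μ 3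
      omega
    · show μ 5 ≤ μ 4
      omega

end Pieri

open Pieri in
theorem pieri_sound {f : MvPolynomial (Fin 6) ℤ} {t : ℕ → ℕ → ℕ} {N0 d β : ℕ}
    (hf : f.IsSymmetric) (h6 : ∀ l : Fin 6 → ℕ, Antitone l → 0 < l 5 → mult f l ≤ 0)
    (ht : ∀ p q, q ≤ p → 4 * p + q ≤ N0 → Up N0 f (t p q) p q 0 ∧ ∀ i, lane 40 (t p q) i ≤ 2 ^ β)
    (hN : N0 + d < 146) (hβ : 2 ^ β * (d + 1) ^ 4 ≤ 2 ^ 39) {p q r : ℕ} (hrq : r ≤ q) (hqp : q ≤ p) :
    Up (N0 + d) (f * hd 6 d) (pieri t N0 d p q r) p q r ∧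
      ∀ i, lane 40 (pieri t N0 d p q r) i ≤ 2 ^ 39 := by
  have hT : Tab (mult f) t N0 (2 ^ β) := ht
  generalize 2 ^ β = B at hβ hT
  have hD : 0 < d + 1 := Nat.succ_pos d
  have h4 : B * (d + 1) * (d + 1) * (d + 1) * (d + 1) ≤ 2 ^ 39 := by
    refine le_of_eq_of_le ?_ hβ
    ring
  have h3 : B * (d + 1) * (d + 1) * (d + 1) ≤ 2 ^ 39 := (Nat.le_mul_of_pos_right _ hD).trans h4
  have h2 : B * (d + 1) * (d + 1) ≤ 2 ^ 39 := (Nat.le_mul_of_pos_right _ hD).trans h3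
  have h1 : B * (d + 1) ≤ 2 ^ 39 := (Nat.le_mul_of_pos_right _ hD).trans h2
  have k4 : ∀ j, j ≤ d → 4 * p + q ≤ N0 + j → LB (Q4 t j p q r) (B * (d + 1)) ∧
      ∀ u v, Bd (mult f) (P4 N0 j p q r u v) (lane 40 (Q4 t j p q r) (u + 73 * v)) :=
    fun j hj h => (Q4_ok hT h1 q r j hj p hqp h).imp_left
      fun h' => h'.mono (Nat.mul_le_mul_left _ (by omega))
  have k3 := fun i hi => (Q3_ok hN h2 k4 i hi).imp_left
      fun h' => h'.mono (Nat.mul_le_mul_left _ (show i ≤ d + 1 by omega))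
  have k2 := fun i hi => (Q2_ok hN h3 k3 i hi).imp_left
      fun h' => h'.mono (Nat.mul_le_mul_left _ (show i ≤ d + 1 by omega))
  obtain ⟨k0, k1⟩ := p1_ok h4 k2 (d + 1 - (r + (4 * p + q - N0))) (by omega)
  rw [← pieri_eq] at k0 k1
  refine ⟨fun u v huv => ?_, k0.mono ((Nat.mul_le_mul_left _ (by omega)).trans h4)⟩
  rw [mult_mul_hd f hf d _ (antitone_lam hrq hqp huv)]
  have hz : Bd (mult f) (fun μ => Antitone μ ∧ 0 < μ 5) 0 :=
    Bd.of_nonpos (fun μ hμ => h6 μ hμ.1 hμ.2) 0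
  suffices H : Bd (mult f) (fun μ => μ ∈ strips (lam (N0 + d) p q r u v) d)
      (lane 40 (pieri t N0 d p q r) (u + 73 * v) + 0) by
    rw [add_zero] at H
    exact H _ fun μ hμ => hμ
  refine (k1 u v).or hz fun μ hμ => ?_
  exact strips_cases huv hμ

end Crest.Agent.R187.K
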