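import Crest.Agent.R187.KDec

/-!
# Task K4: level zero, and repacking

`vprod_eq`: with `φ = ![1, C X, C Y, X 0, X 1, X 2]`, `coeff (ex3 p q r) (φ i * G) = act X Y i (fun p q r => coeff (ex3 p q r) G) p q r` for
`i < 6`; induct on the list; `vand 6` is the product over `vpairs` (`Finset.prod_filter`, `Fintype.prod_prod_type`, `Fin.prod_univ_six`, `ring`).
`abs_coeff_vand`: multiplying by `X i - X j` at most doubles the largest absolute value of a coefficient (`coeff_mul_X'`), 15 factors.
`chk0_sound`: use `ent_of_check` with `a = 1`, `B = 2^15`, `FF d 0 = vand 6 * 1` (`pleth_zero`); for `p > 5` the value `ev` is `0`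
(e.g. `ev_cong_sum` and `le_of_mem_support_vand_mul`).

`repack_sound`: `zt` is the biased entry of `Ent.lane_biased` (with `D = N + 15`); the lane of `λ = lam N p q r u v` is
`(p + v + u + 4) + S * (p + v + 3)` and `gam (N+15) (p+2) (q+1) r (p+v+u+4) (p+v+3) = plusRho λ`; `rslice` cuts out `n` lanes starting
there (`lane_shiftRight`, `lane_mod`), `rrow` is `∑_{u<n} (lane - 2^β) * 2^(40 u)` (`lane_sum`), and `rpk` is `∑_v row v * 2^(2920 v)`
(`2920 = 40 * 73`; each row has at most 73 lanes; induct on the number of rows using `lane_add`, `lane_shiftLeft`).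
-/

set_option autoImplicit false

namespace Crest.Agent.R187.K

open MvPolynomial

namespace Zero

/-- The images of the six variables. -/
noncomputable def phi (X' Y' : ℤ) : ℕ → MvPolynomial (Fin 3) ℤ
  | 0 => 1
  | 1 => C X'
  | 2 => C Y'
  | 3 => X 0
  | 4 => X 1
  | _ => X 2

theorem ex3_0 (p q r : ℕ) : ex3 p q r 0 = p := rfl
theorem ex3_1 (p q r : ℕ) : ex3 p q r 1 = q := rfl
theorem ex3_2 (p q r : ℕ) : ex3 p q r 2 = r := rfl

theorem ex3_succ0 (p q r : ℕ) : ex3 (p + 1) q r = Finsupp.single 0 1 + ex3 p q r := by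
  ext i
  fin_cases i <;> simp [ex3, add_comm]

theorem ex3_succ1 (p q r : ℕ) : ex3 p (q + 1) r = Finsupp.single 1 1 + ex3 p q r := by
  ext i
  fin_cases i <;> simp [ex3, add_comm]

theorem ex3_succ2 (p q r : ℕ) : ex3 p q (r + 1) = Finsupp.single 2 1 + ex3 p q r := by
  ext i
  fin_cases i <;> simp [ex3, add_comm]

theorem coeff_X_mul_zero (i : Fin 3) (m : Fin 3 →₀ ℕ) (hm : m i = 0) (G : MvPolynomial (Fin 3) ℤ) :
    coeff m (X i * G) = 0 := by
  rw [coeff_X_mul', if_neg]
  simp [hm]

theorem act_eq (X' Y' : ℤ) (i : ℕ) (G : MvPolynomial (Fin 3) ℤ) (p q r : ℕ) :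
    act X' Y' i (fun p q r => coeff (ex3 p q r) G) p q r = coeff (ex3 p q r) (phi X' Y' i * G) := by
  match i with
  | 0 =>
    show coeff (ex3 p q r) G = coeff (ex3 p q r) (1 * G)
    rw [one_mul]
  | 1 =>
    show X' * coeff (ex3 p q r) G = coeff (ex3 p q r) (C X' * G)
    rw [coeff_C_mul]
  | 2 =>
    show Y' * coeff (ex3 p q r) G = coeff (ex3 p q r) (C Y' * G)
    rw [coeff_C_mul]
  | 3 =>
    cases p with
    | zero =>
      show (0 : ℤ) = coeff (ex3 0 q r) (X 0 * G)
      rw [coeff_X_mul_zero 0 _ rfl]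
    | succ p =>
      show coeff (ex3 p q r) G = coeff (ex3 (p + 1) q r) (X 0 * G)
      rw [ex3_succ0, coeff_X_mul]
  | 4 =>
    cases q with
    | zero =>
      show (0 : ℤ) = coeff (ex3 p 0 r) (X 1 * G)
      rw [coeff_X_mul_zero 1 _ rfl]
    | succ q =>
      show coeff (ex3 p q r) G = coeff (ex3 p (q + 1) r) (X 1 * G)
      rw [ex3_succ1, coeff_X_mul]
  | (i + 5) =>
    cases r with
    | zero =>
      show (0 : ℤ) = coeff (ex3 p q 0) (X 2 * G)
      rw [coeff_X_mul_zero 2 _ rfl]
    | succ r =>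
      show coeff (ex3 p q r) G = coeff (ex3 p q (r + 1)) (X 2 * G)
      rw [ex3_succ2, coeff_X_mul]

theorem coeff_ex3_one (p q r : ℕ) :
    coeff (ex3 p q r) (1 : MvPolynomial (Fin 3) ℤ) = if p + q + r = 0 then 1 else 0 := by
  rw [coeff_one]
  by_cases h : p + q + r = 0
  · rw [if_pos h, if_pos]
    have hp : p = 0 := by omega
    have hq : q = 0 := by omega
    have hr : r = 0 := by omega
    subst hp hq hr
    ext i
    fin_cases i <;> simp [ex3]
  · rw [if_neg h, if_neg]
    intro h0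
    have h1 := ex3_0 p q r
    have h2 := ex3_1 p q r
    have h3 := ex3_2 p q r
    rw [← h0] at h1 h2 h3
    simp at h1 h2 h3
    omega

theorem vprod_list (X' Y' : ℤ) (l : List (ℕ × ℕ)) :
    vprod X' Y' l = fun p q r =>
      coeff (ex3 p q r) (l.map fun x => phi X' Y' x.1 - phi X' Y' x.2).prod := by
  induction l with
  | nil =>
    funext p q r
    show @Bool.rec (fun _ => ℤ) 0 1 (Nat.beq (p + q + r) 0) = _
    rw [cnd_eq, List.map_nil, List.prod_nil, coeff_ex3_one]
    simp only [Nat.beq_eq]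
  | cons x l ih =>
    funext p q r
    show act X' Y' x.1 (vprod X' Y' l) p q r - act X' Y' x.2 (vprod X' Y' l) p q r = _
    rw [ih, act_eq, act_eq, List.map_cons, List.prod_cons, sub_mul, coeff_sub]

def vp6 : List (Fin 6 × Fin 6) :=
  [(0, 1), (0, 2), (1, 2), (0, 3), (1, 3), (2, 3), (0, 4), (1, 4), (2, 4), (0, 5), (1, 5), (2, 5),
    (3, 4), (3, 5), (4, 5)]

theorem vand_six :
    vand 6 = (vp6.map fun x => (X x.1 - X x.2 : MvPolynomial (Fin 6) ℤ)).prod := by
  have h1 : (Finset.univ : Finset (Fin 6 × Fin 6)).filter (fun p => p.1 < p.2) = vp6.toFinset := by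
    decide
  have h2 : vp6.Nodup := by decide
  rw [vand, h1, List.prod_toFinset _ h2]

theorem Phi_X (w S : ℕ) (i : Fin 6) :
    Phi w S (X i) = phi (2 ^ w) (2 ^ (w * S)) (i : ℕ) := by
  rw [Phi, aeval_X]
  fin_cases i <;> rfl

theorem abs_coeff_list (l : List (Fin 6 × Fin 6)) (γ : Fin 6 →₀ ℕ) :
    |coeff γ (l.map fun x => (X x.1 - X x.2 : MvPolynomial (Fin 6) ℤ)).prod| ≤ 2 ^ l.length := by
  induction l generalizing γ with
  | nil =>
    rw [List.map_nil, List.prod_nil, coeff_one]
    split_ifs <;> simp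
  | cons x l ih =>
    rw [List.map_cons, List.prod_cons, sub_mul, coeff_sub, List.length_cons, pow_succ]
    have key : ∀ i : Fin 6, |coeff γ (X i *
        (l.map fun x => (X x.1 - X x.2 : MvPolynomial (Fin 6) ℤ)).prod)| ≤ 2 ^ l.length := by
      intro i
      rw [coeff_X_mul']
      split_ifs
      · exact ih _
      · simp
    have h1 := key x.1
    have h2 := key x.2
    have h3 := abs_sub (coeff γ (X x.1 *
        (l.map fun x => (X x.1 - X x.2 : MvPolynomial (Fin 6) ℤ)).prod)) (coeff γ (X x.2 *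
        (l.map fun x => (X x.1 - X x.2 : MvPolynomial (Fin 6) ℤ)).prod))
    linarith

theorem rrow_eq (w β z n : ℕ) :
    rrow w (1 <<< w) (1 <<< β) z n =
      ∑ u ∈ Finset.range n, (lane w z u - 2 ^ β) * 2 ^ (40 * u) := by
  induction n with
  | zero => rfl
  | succ n ih =>
    show rrow w (1 <<< w) (1 <<< β) z n +
      (((z >>> (w * n)) % (1 <<< w)) - 1 <<< β) <<< (40 * n) = _
    rw [ih, Finset.sum_range_succ, lane_eq_shift]
    simp only [Nat.shiftLeft_eq, one_mul]

theorem lane_rslice (w S z p v n u : ℕ) :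
    lane w (rslice w S z p v n) u =
      if u < n then lane w z ((p + v + u + 4) + S * (p + v + 3)) else 0 := by
  show lane w ((z >>> (w * (S * (p + v + 3) + (p + v + 4)))) % (1 <<< (w * n))) u = _
  rw [Nat.shiftLeft_eq, one_mul, lane_mod, lane_shiftRight]
  have : u + (S * (p + v + 3) + (p + v + 4)) = (p + v + u + 4) + S * (p + v + 3) := by omega
  rw [this]

theorem rpk_eq (w S β z p M : ℕ) :
    rpk w S β z p M = ∑ v ∈ Finset.range (M / 3 + 1),
      (rrow w (1 <<< w) (1 <<< β) (rslice w S z p v ((M - 3 * v) / 2 + 1))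
        ((M - 3 * v) / 2 + 1)) <<< (2920 * v) := by
  have key : ∀ k : ℕ, @Nat.rec (fun _ => ℕ) 0 (fun v ih =>
      frc (Nat.succ (Nat.div (Nat.sub M (Nat.mul 3 v)) 2)) fun n =>
        Nat.add ih (Nat.shiftLeft (rrow w (1 <<< w) (1 <<< β) (rslice w S z p v n) n)
          (Nat.mul 2920 v))) k = ∑ v ∈ Finset.range k,
      (rrow w (1 <<< w) (1 <<< β) (rslice w S z p v ((M - 3 * v) / 2 + 1))
        ((M - 3 * v) / 2 + 1)) <<< (2920 * v) := by
    intro k
    induction k with
    | zero => rfl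
    | succ k ih =>
      rw [Finset.sum_range_succ, ← ih]
      rfl
  exact key (M / 3 + 1)

theorem lane_rows (rows : ℕ → ℕ) (k : ℕ)
    (h : ∀ v, v < k → ∀ j, 73 ≤ j → lane 40 (rows v) j = 0) (i : ℕ) :
    lane 40 (∑ v ∈ Finset.range k, rows v <<< (2920 * v)) i =
      if i / 73 < k then lane 40 (rows (i / 73)) (i % 73) else 0 := by
  induction k generalizing i with
  | zero => simp [lane_zero]
  | succ k ih =>
    have ih' := ih fun v hv => h v (Nat.lt_succ_of_lt hv)
    have e : 2920 * k = 40 * (73 * k) := by ring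
    rw [Finset.sum_range_succ, e, lane_add, ih', lane_shiftLeft]
    · by_cases h1 : i / 73 < k
      · rw [if_pos h1, if_pos (by omega), if_pos (by omega), add_zero]
      · rw [if_neg h1, if_neg (by omega), zero_add]
        by_cases h2 : i / 73 < k + 1
        · have h3 : i / 73 = k := by omega
          have h4 : i - 73 * k = i % 73 := by omega
          rw [if_pos h2, h3, h4]
        · rw [if_neg h2]
          exact h k (Nat.lt_succ_self k) _ (by omega)
    · intro j
      rw [ih', lane_shiftLeft]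
      by_cases h1 : j / 73 < k
      · rw [if_pos h1, if_pos (by omega), add_zero]
        exact lane_lt _ _ _
      · rw [if_neg h1, if_neg (by omega), zero_add]
        exact lane_lt _ _ _

theorem gam_eq {N p q r u v : ℕ} (h : 4 * p + q + r + 3 * v + 2 * u ≤ N) :
    gam (N + 15) (p + 2) (q + 1) r (p + v + u + 4) (p + v + 3) = plusRho (lam N p q r u v) := by
  ext i
  fin_cases i <;> simp [gam, plusRho, lam] <;> omega

end Zero

open _root_.Crest.Agent.R187.K.Zero

theorem vprod_eq (w S p q r : ℕ) :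
    vprod (2 ^ w) (2 ^ (w * S)) vpairs p q r = ev w S (vand 6) p q r := by
  rw [vprod_list, ev, vand_six, map_list_prod, List.map_map]
  have : (vpairs.map fun x => phi (2 ^ w) (2 ^ (w * S)) x.1 - phi (2 ^ w) (2 ^ (w * S)) x.2) =
      vp6.map ((Phi w S) ∘ fun x => (X x.1 - X x.2 : MvPolynomial (Fin 6) ℤ)) := by
    have h2 : vpairs = vp6.map fun x => ((x.1 : ℕ), (x.2 : ℕ)) := by decide
    rw [h2, List.map_map]
    refine List.map_congr_left fun x _ => ?_
    simp only [Function.comp_apply, map_sub, Phi_X]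
  rw [this]

theorem abs_coeff_vand (γ : Fin 6 →₀ ℕ) : |coeff γ (vand 6)| ≤ 2 ^ 15 := by
  rw [vand_six]
  exact abs_coeff_list vp6 γ

theorem chk0_sound {w S C d β : ℕ} {T : ℕ → ℕ → ℕ → ℕ → ℕ} {p q r : ℕ} (hS : 5 < S) (hβ : β < w)
    (hw : 2 ^ 15 + 2 ^ β < 2 ^ w) (h : chk0 w S C β T p q r = true) :
    Ent w S C β (FF d 0) (T 0 p q r) p q r := by
  have hFF : FF d 0 = vand 6 := by rw [FF, pleth_zero, mul_one]
  have hhom : (vand 6).IsHomogeneous 15 := vand_isHomogeneous 6
  have hsupp : ∀ γ ∈ (vand 6).support, ∀ i, γ i ≤ 5 := by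
    intro γ hγ i
    have h1 : (1 : MvPolynomial (Fin 6) ℤ).IsHomogeneous 0 := isHomogeneous_one _ _
    have := le_of_mem_support_vand_mul h1 (γ := γ) (by rwa [mul_one]) i
    omega
  have hS' : ∀ γ ∈ (vand 6).support, γ 1 < S := fun γ hγ => by
    have := hsupp γ hγ 1
    omega
  rw [hFF]
  rw [chk0, frc_eq, cnd_eq] at h
  split_ifs at h with h1
  rw [cnd_eq] at h
  split_ifs at h with h2
  refine ent_of_check (a := 1) (B := 2 ^ 15) hhom hS' le_rfl hβ (by positivity) ?_ ?_ ?_ h2 h
  · have : ((2 ^ 15 + 2 ^ β : ℕ) : ℤ) < ((2 ^ w : ℕ) : ℤ) := by exact_mod_cast hw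
    push_cast at this ⊢
    linarith
  · intro γ _ _ _ _
    simpa using abs_coeff_vand γ
  · rw [cnd_eq] at h1
    simp only [Nat.cast_one, one_mul]
    split_ifs at h1 with h3
    · rw [Nat.beq_eq, Int.natAbs_eq_zero] at h1
      have e1 : Int.ofNat (Nat.shiftLeft 1 w) = 2 ^ w := by
        simp [nshl, Nat.shiftLeft_eq]
      have e2 : Int.ofNat (Nat.shiftLeft 1 (Nat.mul w S)) = 2 ^ (w * S) := by
        simp [nshl, nmul, Nat.shiftLeft_eq]
      have e3 : Int.ofNat (md w S C (Nat.add (Nat.add p q) r)) =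
          2 ^ (w * S * ((C - (p + q + r)) / 3)) := by
        rw [md_eq]
        simp [nadd]
      rw [e1, e2, e3, vprod_eq] at h1
      have h4 : (2 : ℤ) ^ (w * S * ((C - (p + q + r)) / 3)) ∣
          ev w S (vand 6) p q r - (T 0 p q r : ℤ) := Int.dvd_of_emod_eq_zero h1
      exact (Int.modEq_iff_dvd).2 h4
    · rw [Nat.beq_eq] at h1
      rw [Nat.ble_eq] at h3
      have h5 := ev_cong_sum (w := w) hhom hS' ((C - (p + q + r)) / 3) p q r
      rw [Finset.sum_eq_zero] at h5
      · rw [h1]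
        exact h5.symm
      · intro i _
        have : cf 15 (vand 6) p q r (i % S) (i / S) = 0 := by
          rw [cf]
          split_ifs
          · by_contra hne
            have h6 := hsupp _ (mem_support_iff.2 hne) 3
            have h7 : gam 15 p q r (i % S) (i / S) 3 = p := rfl
            omega
          · rfl
        rw [this, zero_mul]

theorem repack_sound {w S C β N : ℕ} {T : ℕ → ℕ → ℕ → ℕ} {f : MvPolynomial (Fin 6) ℤ} {p q r : ℕ}
    (hf : f.IsHomogeneous N) (hpos : ∀ l : Fin 6 → ℕ, Antitone l → 0 ≤ mult f l)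
    (hS : N + 5 < S) (hC : N + 15 ≤ C) (hN : N < 146) (hβ : β < w) (hβ' : β ≤ 40)
    (hrq : r ≤ q) (hqp : q ≤ p)
    (h : 4 * p + q + r ≤ N → Ent w S C β (vand 6 * f) (T (p + 2) (q + 1) r) (p + 2) (q + 1) r) :
    Exact N f (repack w S C β N T p q r) p q r ∧
      ∀ i, lane 40 (repack w S C β N T p q r) i < 2 ^ β := by
  have hrep : repack w S C β N T p q r = if 4 * p + q + r ≤ N then
      rpk w S β (zt w S C β T p q r) p (N - (4 * p + q + r)) else 0 := by
    rw [repack, frc_eq, cnd_eq]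
    simp only [Nat.ble_eq]
    rfl
  by_cases hm : 4 * p + q + r ≤ N
  swap
  · rw [hrep, if_neg hm]
    refine ⟨fun u v _ => ?_, fun i => ?_⟩
    · rw [lane_zero, if_neg (by omega)]
      rfl
    · rw [lane_zero]
      positivity
  have hE := h hm
  have hhom : (vand 6 * f).IsHomogeneous (N + 15) := by
    have := (vand_isHomogeneous 6).mul hf
    rwa [show Nat.choose 6 2 + N = N + 15 by rw [add_comm]; rfl] at this
  have hS' : ∀ γ ∈ (vand 6 * f).support, γ 1 < S := fun γ hγ => by
    have := le_of_mem_support_vand_mul hf hγ 1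
    omega
  generalize hz : zt w S C β T p q r = z at hrep
  generalize hM : N - (4 * p + q + r) = M at hrep
  -- the value of the lanes of `z`
  have hlane : ∀ u v, 3 * v + 2 * u ≤ M →
      ((lane w z ((p + v + u + 4) + S * (p + v + 3)) - 2 ^ β : ℕ) : ℤ) =
          mult f (lam N p q r u v) ∧
        lane w z ((p + v + u + 4) + S * (p + v + 3)) - 2 ^ β < 2 ^ β := by
    intro u v huv
    have hle : 4 * p + q + r + 3 * v + 2 * u ≤ N := by omega
    have hv : p + v + 3 < (C - (p + 2 + (q + 1) + r)) / 3 := by omega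
    have h1 := hE.lane_biased hhom hS' hβ (u := p + v + u + 4) (v := p + v + 3) (by omega) hv
    have hz' : (T (p + 2) (q + 1) r + bias w S C β (p + 2 + (q + 1) + r)) %
        md w S C (p + 2 + (q + 1) + r) = z := hz
    rw [hz', cf, if_pos (by omega), gam_eq hle] at h1
    have h2 : 0 ≤ mult f (lam N p q r u v) := hpos _ (antitone_lam hrq hqp hle)
    have h3 := (hE.bd (gam (N + 15) (p + 2) (q + 1) r (p + v + u + 4) (p + v + 3)) rfl rfl rfl hv).2
    rw [gam_eq hle] at h3
    change _ = mult f (lam N p q r u v) + 2 ^ β at h1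
    change mult f (lam N p q r u v) < 2 ^ β at h3
    generalize lane w z ((p + v + u + 4) + S * (p + v + 3)) = L at h1 ⊢
    generalize mult f (lam N p q r u v) = m at h1 h2 h3 ⊢
    have h4 : ((2 ^ β : ℕ) : ℤ) = 2 ^ β := by push_cast; rfl
    rw [← h4] at h1 h3
    generalize 2 ^ β = B at h1 h3 ⊢
    omega
  have hpow : 2 ^ β ≤ 2 ^ 40 := Nat.pow_le_pow_right (by norm_num) hβ'
  have hrow : ∀ v, v < M / 3 + 1 → ∀ j,
      lane 40 (rrow w (1 <<< w) (1 <<< β) (rslice w S z p v ((M - 3 * v) / 2 + 1))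
        ((M - 3 * v) / 2 + 1)) j =
      if j < (M - 3 * v) / 2 + 1 then
        lane w z ((p + v + j + 4) + S * (p + v + 3)) - 2 ^ β else 0 := by
    intro v hv j
    rw [rrow_eq, lane_sum (c := fun u => lane w (rslice w S z p v ((M - 3 * v) / 2 + 1)) u - 2 ^ β)]
    · split_ifs with hj
      · rw [lane_rslice, if_pos hj]
      · rfl
    · intro u hu
      rw [lane_rslice, if_pos hu]
      exact lt_of_lt_of_le (hlane u v (by omega)).2 hpow
  have hall : ∀ i, lane 40 (repack w S C β N T p q r) i =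
      if 3 * (i / 73) + 2 * (i % 73) ≤ M then
        lane w z ((p + i / 73 + i % 73 + 4) + S * (p + i / 73 + 3)) - 2 ^ β else 0 := by
    intro i
    rw [hrep, if_pos hm, rpk_eq, lane_rows]
    · by_cases h1 : i / 73 < M / 3 + 1
      · rw [if_pos h1, hrow _ h1]
        by_cases h2 : i % 73 < (M - 3 * (i / 73)) / 2 + 1
        · rw [if_pos h2, if_pos (by omega)]
        · rw [if_neg h2, if_neg (by omega)]
      · rw [if_neg h1, if_neg (by omega)]
    · intro v hv j hj
      rw [hrow v hv, if_neg (by omega)]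
  refine ⟨fun u v hu => ?_, fun i => ?_⟩
  · have e1 : (u + 73 * v) / 73 = v := by omega
    have e2 : (u + 73 * v) % 73 = u := by omega
    rw [hall, e1, e2]
    by_cases h1 : 3 * v + 2 * u ≤ M
    · rw [if_pos h1, if_pos (by omega)]
      exact (hlane u v h1).1
    · rw [if_neg h1, if_neg (by omega)]
      rfl
  · rw [hall]
    split_ifs with h1
    · exact (hlane _ _ h1).2
    · positivity

end Crest.Agent.R187.K
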