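import Crest.Agent.R187.KFam
import Crest.Agent.R187.KNewt
import Crest.Agent.R187.KZero
import Crest.Agent.R187.KPieri
import Crest.Agent.R187.KCov

/-!
Assembly of the soundness lemmas of the checkers.
-/

set_option autoImplicit false

namespace Crest.Agent.R187.K

open MvPolynomial Crest.AlgebraR.FoulkesHowe

theorem FF_isHomogeneous (d a : ℕ) : (FF d a).IsHomogeneous (Nat.choose 6 2 + a * d) :=
  (vand_isHomogeneous 6).mul (pleth_isHomogeneous 6 a d)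

theorem FF_support {d a S : ℕ} (hS : a * d + 5 < S) : ∀ γ ∈ (FF d a).support, γ 1 < S := by
  intro γ hγ
  have := le_of_mem_support_vand_mul (pleth_isHomogeneous 6 a d) hγ 1
  omega

theorem chk1x_sound {w S C d β β' : ℕ} {P : ℕ → ℕ → ℕ} {T : ℕ → ℕ → ℕ → ℕ → ℕ} {a x p q r : ℕ}
    (hP : AntiP P) (hT : ∀ i, i < a → Inv w S C d β P T i) (ha : 1 ≤ a) (hS : a * d + 5 < S)
    (hβ : β' < w) (hw : a * (d + 5).choose 5 * 2 ^ β + a * 2 ^ β' < 2 ^ w)
    (hrq : r < q) (hqp : q < p) (hp : p ≤ P q r) (h : chk1x w S C d β' T a x p q r = true) :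
    Ent w S C β' (FF d a) x p q r := by
  unfold chk1x at h
  rw [frc_eq, cnd_eq, cnd_eq] at h
  split_ifs at h with h1 h2
  refine ent_of_check (B := a * ((d + 5).choose 5 : ℕ) * 2 ^ β) (FF_isHomogeneous d a)
    (FF_support hS) ha hβ (by positivity) (by exact_mod_cast hw)
    (coeff_FF_bound hP hT hrq hqp hp) ?_ h2 h
  refine Int.ModEq.trans ?_ (rhs_cong hP hT hrq hqp hp)
  have h3 := Nat.eq_of_beq_eq_true h1
  simp only [nmod, nmul, nadd, md_eq] at h3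
  have h4 : (a * x) ≡ rhs w S C d T a p q r (p + q + r)
      [MOD 2 ^ (w * S * ((C - (p + q + r)) / 3))] := h3
  have h5 := Int.natCast_modEq_iff.2 h4
  push_cast at h5
  exact h5

theorem chk1_sound {w S C d β β' : ℕ} {P : ℕ → ℕ → ℕ} {T : ℕ → ℕ → ℕ → ℕ → ℕ} {a p q r : ℕ}
    (hP : AntiP P) (hT : ∀ i, i < a → Inv w S C d β P T i) (ha : 1 ≤ a) (hS : a * d + 5 < S)
    (hβ : β' < w) (hw : a * (d + 5).choose 5 * 2 ^ β + a * 2 ^ β' < 2 ^ w)
    (hrq : r < q) (hqp : q < p) (hp : p ≤ P q r) (h : chk1 w S C d β' T a p q r = true) :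
    Ent w S C β' (FF d a) (T a p q r) p q r :=
  chk1x_sound hP hT ha hS hβ hw hrq hqp hp h

/-- All slices `p < n` of level `a` pass the check. -/
def Lvl (w S C d β : ℕ) (P : ℕ → ℕ → ℕ) (T : ℕ → ℕ → ℕ → ℕ → ℕ) (a n : ℕ) : Prop :=
  ∀ p, p < n → chkp w S C d β P T a p = true

theorem Lvl.zero {w S C d β : ℕ} {P : ℕ → ℕ → ℕ} {T : ℕ → ℕ → ℕ → ℕ → ℕ} {a : ℕ} :
    Lvl w S C d β P T a 0 := fun _ h => absurd h (Nat.not_lt_zero _)

theorem Lvl.step {w S C d β : ℕ} {P : ℕ → ℕ → ℕ} {T : ℕ → ℕ → ℕ → ℕ → ℕ} {a n m : ℕ}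
    (h : Lvl w S C d β P T a n) (h' : chkr w S C d β P T a n m = true) :
    Lvl w S C d β P T a (n + m) := by
  intro p hp
  by_cases h1 : p < n
  · exact h p h1
  · unfold chkr at h'
    have := (allLt_iff _ _).1 h' (p - n) (by omega)
    rw [frc_eq, nadd, show n + (p - n) = p by omega] at this
    exact this

theorem inv_of_lvl {w S C d β β' n : ℕ} {P : ℕ → ℕ → ℕ} {T : ℕ → ℕ → ℕ → ℕ → ℕ} {a : ℕ}
    (hP : AntiP P) (hn : P 0 0 < n) (hT : ∀ i, i < a → Inv w S C d β P T i) (ha : 1 ≤ a)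
    (hS : a * d + 5 < S) (hβ : β' < w)
    (hw : a * (d + 5).choose 5 * 2 ^ β + a * 2 ^ β' < 2 ^ w)
    (h : Lvl w S C d β' P T a n) : Inv w S C d β' P T a := by
  intro p q r hrq hqp hp
  have h1 := h p (lt_of_le_of_lt (hp.trans (hP 0 0 0 0 le_rfl le_rfl |>.trans' (hP q r 0 0
    (Nat.zero_le _) (Nat.zero_le _)))) hn)
  unfold chkp at h1
  have h2 := (allLt_iff _ _).1 ((allLt_iff _ _).1 h1 q hqp) r hrq
  rw [cnd_eq, if_pos (Nat.ble_eq_true_of_le hp)] at h2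
  exact chk1_sound hP hT ha hS hβ hw hrq hqp hp h2

theorem inv_zero {w S C d β n : ℕ} {P : ℕ → ℕ → ℕ} {T : ℕ → ℕ → ℕ → ℕ → ℕ}
    (hP : AntiP P) (hn : P 0 0 < n) (hS : 5 < S) (hβ : β < w) (hw : 2 ^ 15 + 2 ^ β < 2 ^ w)
    (h : chkz w S C β P T n = true) : Inv w S C d β P T 0 := by
  intro p q r hrq hqp hp
  unfold chkz at h
  have h1 := (allLt_iff _ _).1 h p (lt_of_le_of_lt (hp.trans (hP q r 0 0
    (Nat.zero_le _) (Nat.zero_le _))) hn)
  have h2 := (allLt_iff _ _).1 ((allLt_iff _ _).1 h1 q hqp) r hrq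
  rw [cnd_eq, if_pos (Nat.ble_eq_true_of_le hp)] at h2
  exact chk0_sound hS hβ hw h2

theorem Inv.mono {w S C d β β' : ℕ} {P : ℕ → ℕ → ℕ} {T : ℕ → ℕ → ℕ → ℕ → ℕ} {a : ℕ}
    (h : Inv w S C d β P T a) (hβ : β ≤ β') : Inv w S C d β' P T a :=
  fun p q r h1 h2 h3 => (h p q r h1 h2 h3).mono hβ

theorem inv_family {w S C d β n A : ℕ} {P : ℕ → ℕ → ℕ} {T : ℕ → ℕ → ℕ → ℕ → ℕ}
    (hP : AntiP P) (hn : P 0 0 < n) (hS : A * d + 5 < S) (hβ : β < w)
    (hw0 : 2 ^ 15 + 2 ^ β < 2 ^ w) (hw : A * (d + 5).choose 5 * 2 ^ β + A * 2 ^ β < 2 ^ w)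
    (h0 : chkz w S C β P T n = true) (h : ∀ a, 1 ≤ a → a ≤ A → Lvl w S C d β P T a n) :
    ∀ a, a ≤ A → Inv w S C d β P T a := by
  intro a
  induction a using Nat.strong_induction_on with
  | _ a ih =>
    intro ha
    rcases Nat.eq_zero_or_pos a with rfl | hpos
    · exact inv_zero hP hn (by omega) hβ hw0 h0
    · refine inv_of_lvl hP hn (fun i hi => ih i hi (by omega)) hpos ?_ hβ ?_ (h a hpos ha)
      · have := Nat.mul_le_mul_right d ha
        omega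
      · refine lt_of_le_of_lt ?_ hw
        gcongr

theorem inv_top {w S C d β β' n A : ℕ} {P : ℕ → ℕ → ℕ} {T : ℕ → ℕ → ℕ → ℕ → ℕ}
    (hP : AntiP P) (hn : P 0 0 < n) (hS : (A + 1) * d + 5 < S) (hβ : β ≤ β') (hβ' : β' < w)
    (hw0 : 2 ^ 15 + 2 ^ β < 2 ^ w)
    (hw : (A + 1) * (d + 5).choose 5 * 2 ^ β + (A + 1) * 2 ^ β' < 2 ^ w)
    (h0 : chkz w S C β P T n = true) (h : ∀ a, 1 ≤ a → a ≤ A → Lvl w S C d β P T a n)
    (h1 : Lvl w S C d β' P T (A + 1) n) :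
    ∀ a, a ≤ A + 1 → Inv w S C d β' P T a := by
  have h2 : ∀ a, a ≤ A → Inv w S C d β P T a := by
    refine inv_family hP hn (by nlinarith) (by omega) hw0 (lt_of_le_of_lt ?_ hw) h0 h
    gcongr <;> omega
  intro a ha
  rcases Nat.lt_succ_iff_lt_or_eq.1 (Nat.lt_succ_of_le ha) with h3 | h3
  · exact (h2 a (by omega)).mono hβ
  · subst h3
    exact inv_of_lvl hP hn (fun i hi => h2 i (by omega)) (by omega) hS hβ' hw h1

theorem famT_succ (w S C d β n i p q r : ℕ) :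
    famT w S C d β (n + 1) i p q r = if i ≤ n then famT w S C d β n i p q r else
      (newtB w S C d β (famT w S C d β n) (n + 1) p q r).val := by
  have : famT w S C d β (n + 1) i p q r = @Bool.rec (fun _ => ℕ)
      ((newtB w S C d β (famT w S C d β n) (n + 1) p q r).val) (famT w S C d β n i p q r)
      (Nat.ble i n) := rfl
  rw [this, cnd_eq]
  simp only [Nat.ble_eq]

theorem inv_famT_succ {w S C d β β' β'' n m : ℕ} {P : ℕ → ℕ → ℕ} (hP : AntiP P) (hn : P 0 0 < n)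
    (hT : ∀ i, i ≤ m → Inv w S C d β P (famT w S C d β'' m) i) (hS : (m + 1) * d + 5 < S)
    (hβ : β ≤ β') (hβ' : β' < w)
    (hw : (m + 1) * (d + 5).choose 5 * 2 ^ β + (m + 1) * 2 ^ β' < 2 ^ w)
    (h : lvlx w S C d β' β'' P (famT w S C d β'' m) (m + 1) n = true) :
    ∀ i, i ≤ m + 1 → Inv w S C d β' P (famT w S C d β'' (m + 1)) i := by
  intro i hi p q r hrq hqp hp
  rw [famT_succ]
  split_ifs with h1
  · exact (hT i h1 p q r hrq hqp hp).mono hβ
  · obtain rfl : i = m + 1 := by omega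
    unfold lvlx at h
    have h2 := (allLt_iff _ _).1 h p (lt_of_le_of_lt (hp.trans (hP q r 0 0
      (Nat.zero_le _) (Nat.zero_le _))) hn)
    have h3 := (allLt_iff _ _).1 ((allLt_iff _ _).1 h2 q hqp) r hrq
    rw [cnd_eq, if_pos (Nat.ble_eq_true_of_le hp)] at h3
    exact chk1x_sound hP (fun i hi => hT i (by omega)) (by omega) hS hβ' hw hrq hqp hp h3

theorem inv_of_chkIn {w S C d β β' n A : ℕ} {P : ℕ → ℕ → ℕ}
    (hP : AntiP P) (hn : P 0 0 < n) (hS : (A + 1) * d + 5 < S) (hβ : β ≤ β') (hβ' : β' < w)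
    (hw0 : 2 ^ 15 + 2 ^ β < 2 ^ w)
    (hw : (A + 1) * (d + 5).choose 5 * 2 ^ β + (A + 1) * 2 ^ β' < 2 ^ w)
    (h : chkIn w S C d β β' P A n = true) :
    ∀ a, a ≤ A + 1 → Inv w S C d β' P (famT w S C d β' (A + 1)) a := by
  unfold chkIn at h
  rw [cnd_eq, cnd_eq] at h
  split_ifs at h with h1 h2
  have key : ∀ m, m ≤ A → ∀ i, i ≤ m → Inv w S C d β P (famT w S C d β' m) i := by
    intro m
    induction m with
    | zero =>
      intro _ i hi
      obtain rfl : i = 0 := by omega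
      exact inv_zero hP hn (by nlinarith) (by omega) hw0 h1
    | succ m ih =>
      intro hm
      refine inv_famT_succ hP hn (ih (by omega)) ?_ le_rfl (by omega) ?_
        ((allLt_iff _ _).1 h2 m (by omega))
      · have := Nat.mul_le_mul_right d (show m + 1 ≤ A + 1 by omega)
        omega
      · refine lt_of_le_of_lt ?_ hw
        gcongr <;> omega
  exact inv_famT_succ hP hn (key A le_rfl) hS hβ hβ' hw h

theorem both_iff {x y : Bool} : both x y = true ↔ x = true ∧ y = true := by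
  cases x <;> cases y <;> simp [both]

theorem chkL2_sound {L : ℕ → ℕ → ℕ → ℕ → ℕ} (h : chkL2 L = true) (a : ℕ) (h1 : 14 < a)
    (h2 : a ≤ 24) :
    chkL 53 150 159 39 (a * 6) pthinS (famT 53 150 159 6 39 24 a) (L a) 0 7 = true := by
  unfold chkL2 at h
  have := (allLt_iff _ _).1 h (a - 15) (by omega)
  rw [frc_eq, frc_eq, nadd, show 15 + (a - 15) = a by omega] at this
  exact this

/-! ### Repacked tables -/

theorem exact_of_inv {w S C d β a : ℕ} {P : ℕ → ℕ → ℕ} {T : ℕ → ℕ → ℕ → ℕ → ℕ}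
    (h : Inv w S C d β P T a) (hS : a * d + 5 < S) (hC : a * d + 15 ≤ C) (hN : a * d < 146)
    (hβ : β < w) (hβ' : β ≤ 40) {p q r : ℕ} (hrq : r ≤ q) (hqp : q ≤ p)
    (hp : 4 * p + q + r ≤ a * d → p + 2 ≤ P (q + 1) r) :
    Exact (a * d) (pleth 6 a d) (repack w S C β (a * d) (T a) p q r) p q r ∧
      ∀ i, lane 40 (repack w S C β (a * d) (T a) p q r) i < 2 ^ β :=
  repack_sound (pleth_isHomogeneous 6 a d) (mult_pleth_nonneg 6 a d) hS hC hN hβ hβ' hrq hqp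
    fun h1 => h (p + 2) (q + 1) r (by omega) (by omega) (hp h1)

theorem chkL_sound {w S C β N n : ℕ} {P : ℕ → ℕ → ℕ} {T L : ℕ → ℕ → ℕ → ℕ}
    (h : chkL w S C β N P T L 0 n = true) {p q r : ℕ} (hp : p < n) (hrq : r ≤ q) (hqp : q ≤ p)
    (hP : p + 2 ≤ P (q + 1) r) : L p q r = repack w S C β N T p q r := by
  unfold chkL at h
  have h1 := (allLt_iff _ _).1 h p hp
  rw [frc_eq, nadd, zero_add] at h1
  have h2 := (allLt_iff _ _).1 ((allLt_iff _ _).1 h1 q (Nat.lt_succ_of_le hqp)) r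
    (Nat.lt_succ_of_le hrq)
  rw [cnd_eq, if_pos (Nat.ble_eq_true_of_le hP)] at h2
  exact Nat.eq_of_beq_eq_true h2

/-! ### The upper bound `mU` -/

theorem mult_pleth_four (b : ℕ) (l : Fin 6 → ℕ) (hl : Antitone l) (h : 0 < l 4) :
    mult (pleth 6 4 b) l = 0 := by
  rw [mult_pleth_eq _ _ _ _ hl, ← hdim_blockSym_eq, hdim_rows 4 6 _ l 4 (by decide) (by omega)]
  rfl

theorem mult_five (b : ℕ) (l : Fin 6 → ℕ) (hl : Antitone l) (h : 0 < l 5) :
    mult (pleth 6 4 b * hd 6 b) l ≤ 0 := by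
  rw [mult_mul_hd _ (pleth_isSymmetric 6 4 b) b l hl]
  refine le_of_eq (Finset.sum_eq_zero fun mu hmu => ?_)
  unfold strips at hmu
  simp only [Finset.mem_filter, Fintype.mem_piFinset, Finset.mem_range] at hmu
  obtain ⟨h1, h2, -⟩ := hmu
  apply mult_pleth_four
  · rw [Fin.antitone_iff_succ_le]
    intro i
    have h3 := h1 i.succ
    have h4 := h2 i.castSucc i.succ (by simp)
    omega
  · have := h2 4 5 (by decide)
    omega

theorem up_stage2 {w β β1 b n : ℕ} {T : ℕ → ℕ → ℕ → ℕ → ℕ} {t1 : ℕ → ℕ → ℕ}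
    (hT : Inv w (4 * b + 6) (4 * b + 15) b β (pfour (4 * b + 8)) T 4) (hb : b ≤ 24)
    (hβ : β < w) (hβ' : β ≤ 17) (hβ1 : β1 ≤ 17) (hn : (4 * b + b) / 4 < n)
    (h : chkP (t0f w β b (T 4)) (4 * b) b β1 t1 n = true) {p q r : ℕ} (hrq : r ≤ q) (hqp : q ≤ p) :
    Up (6 * b) (pleth 6 4 b * hd 6 b * hd 6 b) (pieri t1 (5 * b) b p q r) p q r ∧
      ∀ i, lane 40 (pieri t1 (5 * b) b p q r) i ≤ 2 ^ 39 := by
  have hbd : ∀ x, x ≤ 17 → 2 ^ x * (b + 1) ^ 4 ≤ 2 ^ 39 := by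
    intro x hx
    calc 2 ^ x * (b + 1) ^ 4 ≤ 2 ^ 17 * (24 + 1) ^ 4 := by gcongr; omega
      _ ≤ 2 ^ 39 := by norm_num
  have hs1 : ∀ p q, q ≤ p → Up (4 * b + b) (pleth 6 4 b * hd 6 b)
      (pieri (t0f w β b (T 4)) (4 * b) b p q 0) p q 0 := by
    intro p q hqp
    refine (pieri_sound (β := β) (pleth_isSymmetric 6 4 b) ?_ ?_ (by omega) (hbd β hβ')
      (Nat.zero_le q) hqp).1
    · intro l hl h5
      exact le_of_eq (mult_pleth_four b l hl (lt_of_lt_of_le h5 (hl (by decide))))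
    · intro p q hqp hpq
      unfold t0f
      rw [cnd_eq]
      split_ifs with hq
      · have hq0 : q = 0 := Nat.eq_of_beq_eq_true hq
        subst hq0
        have := exact_of_inv hT (by omega) (by omega) (by omega) hβ (by omega) (p := p)
          (le_refl 0) (Nat.zero_le p) (fun h1 => by
            simp only [pfour, cnd_eq, Nat.ble_eq, nadd, ndiv]
            rw [if_pos (by omega)]; omega)
        exact ⟨this.1.up (by omega), fun i => (this.2 i).le⟩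
      · refine ⟨fun u v huv => ?_, fun i => by rw [lane_zero]; positivity⟩
        rw [lane_zero, mult_pleth_four b _ (antitone_lam (Nat.zero_le _) hqp huv)]
        · simp
        · have : q ≠ 0 := fun h0 => hq (by subst h0; rfl)
          simp only [lam]
          show 0 < q
          omega
  have := pieri_sound (β := β1) (f := pleth 6 4 b * hd 6 b) (t := t1) (N0 := 5 * b) (d := b)
    ((pleth_isSymmetric 6 4 b).mul (hd_isSymmetric 6 b)) (mult_five b) ?_ (by omega)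
    (hbd β1 hβ1) hrq hqp
  · rwa [show 5 * b + b = 6 * b by ring] at this
  · intro p q hqp hpq
    obtain ⟨h1, h2⟩ := chkP_sound (by omega) hn h hqp (by omega)
    refine ⟨?_, fun i => (h2 i).le⟩
    rw [h1, show 5 * b = 4 * b + b by ring]
    exact hs1 p q hqp

/-! ### The cover -/

/-- All rows `r < n` pass the cover check. -/
def Cvl (lo : ℕ → ℕ → ℕ → ℕ → ℕ) (U : ℕ → ℕ → ℕ → ℕ) (sel : ℕ → ℕ → ℕ → Bool) (b n : ℕ) : Prop :=
  ∀ p q r, r < n → r ≤ q → q ≤ p → 4 * p + q + r ≤ 6 * b → sel p q r = true →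
    ∃ ws, cov lo U b p q r ws = true

theorem Cvl.zero {lo : ℕ → ℕ → ℕ → ℕ → ℕ} {U : ℕ → ℕ → ℕ → ℕ} {sel : ℕ → ℕ → ℕ → Bool} {b : ℕ} :
    Cvl lo U sel b 0 := fun _ _ _ h => absurd h (Nat.not_lt_zero _)

theorem Cvl.step {lo : ℕ → ℕ → ℕ → ℕ → ℕ} {U : ℕ → ℕ → ℕ → ℕ} {sel : ℕ → ℕ → ℕ → Bool}
    {W : Tr} {b n m : ℕ} (h : Cvl lo U sel b n) (h' : chkC lo U sel W b n m = true) :
    Cvl lo U sel b (n + m) := by
  intro p q r hr hrq hqp hN hsel
  by_cases h1 : r < n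
  · exact h p q r h1 hrq hqp hN hsel
  · unfold chkC at h'
    have h2 := (allLt_iff _ _).1 h' (r - n) (by omega)
    rw [frc_eq, nadd, show n + (r - n) = r by omega] at h2
    have h3 := (allLt_iff _ _).1 ((allLt_iff _ _).1 h2 p (by
      simp only [nmul, ndiv]; omega)) q (Nat.lt_succ_of_le hqp)
    rw [cnd_eq, if_pos (by
      simp only [Bool.and_eq_true, Nat.ble_eq, nadd, nmul]; exact ⟨⟨hrq, hN⟩, hsel⟩)] at h3
    exact ⟨_, h3⟩

theorem le_of_cvl {lo : ℕ → ℕ → ℕ → ℕ → ℕ} {U : ℕ → ℕ → ℕ → ℕ} {sel : ℕ → ℕ → ℕ → Bool}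
    {b : ℕ} {f : MvPolynomial (Fin 6) ℤ} (hlo : Lo lo) (hb : b ≤ 24) (h : Cvl lo U sel b (b + 1))
    {p q r u v : ℕ} (hrq : r ≤ q) (hqp : q ≤ p) (huv : 4 * p + q + r + 3 * v + 2 * u ≤ 6 * b)
    (hsel : sel p q r = true) (hU : Up (6 * b) f (U p q r) p q r)
    (hU' : ∀ i, lane 40 (U p q r) i ≤ 2 ^ 39) :
    mult f (lam (6 * b) p q r u v) ≤ mS b (lam (6 * b) p q r u v) := by
  obtain ⟨ws, hws⟩ := h p q r (by omega) hrq hqp (by omega) hsel
  exact (hU u v huv).trans (cov_sound hlo hb hrq hqp hU' hws huv)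

theorem le_of_lam {b : ℕ}
    (h : ∀ p q r u v, r ≤ q → q ≤ p → 4 * p + q + r + 3 * v + 2 * u ≤ 6 * b →
      mA b (lam (6 * b) p q r u v) ≤ mS b (lam (6 * b) p q r u v))
    (l : Fin 6 → ℕ) (hl : Antitone l) : mA b l ≤ mS b l := by
  by_cases hs : ∑ i, l i = 6 * b
  · obtain ⟨h1, h2, h3, h4⟩ := eq_lam hl
    rw [hs] at h1 h4
    rw [h1]
    exact h _ _ _ _ _ h2 h3 h4
  · unfold mA
    rw [mult_eq_zero_of_degree _ (pleth_isHomogeneous 6 6 b) l hs]
    exact mult_pleth_nonneg 6 b 6 l hl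

/-- Small levels: the exact table of `mA` is available everywhere. -/
theorem level_small {lo : ℕ → ℕ → ℕ → ℕ → ℕ} (hlo : Lo lo) {b : ℕ} (hb : b ≤ 24)
    {T : ℕ → ℕ → ℕ → ℕ → ℕ}
    (hT : Inv 21 (6 * b + 6) (6 * b + 15) b 12 (pfull (6 * b + 9)) T 6)
    (h : Cvl lo (repack 21 (6 * b + 6) (6 * b + 15) 12 (6 * b) (T 6)) selT b (b + 1)) :
    ∀ l : Fin 6 → ℕ, Antitone l → mA b l ≤ mS b l := by
  refine le_of_lam fun p q r u v hrq hqp huv => ?_
  have := exact_of_inv hT (by omega) (by omega) (by omega) (by omega) (by omega) hrq hqp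
    (fun h1 => by simp only [pfull, nadd, nsub, ndiv]; omega)
  exact le_of_cvl hlo hb h hrq hqp huv rfl (this.1.up (by omega))
    fun i => (this.2 i).le.trans (by norm_num)

/-- Large levels. -/
theorem level_large {lo : ℕ → ℕ → ℕ → ℕ → ℕ} (hlo : Lo lo) {b n : ℕ} (hb : b ≤ 24)
    {T T' : ℕ → ℕ → ℕ → ℕ → ℕ} {t1 : ℕ → ℕ → ℕ}
    (hT : Inv 35 (6 * b + 6) (6 * b + 15) b 22 pthinA T 6)
    (hT' : Inv 23 (4 * b + 6) (4 * b + 15) b 7 (pfour (4 * b + 8)) T' 4)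
    (hn : (4 * b + b) / 4 < n) (hP : chkP (t0f 23 7 b (T' 4)) (4 * b) b 17 t1 n = true)
    (h : Cvl lo (repack 35 (6 * b + 6) (6 * b + 15) 22 (6 * b) (T 6)) selA b (b + 1))
    (h' : Cvl lo (pieri t1 (5 * b) b) selU b (b + 1)) :
    ∀ l : Fin 6 → ℕ, Antitone l → mA b l ≤ mS b l := by
  refine le_of_lam fun p q r u v hrq hqp huv => ?_
  by_cases hs : p + 2 ≤ pthinA (q + 1) r
  · have := exact_of_inv hT (by omega) (by omega) (by omega) (by omega) (by omega) hrq hqp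
      (fun _ => hs)
    exact le_of_cvl hlo hb h hrq hqp huv (Nat.ble_eq_true_of_le hs) (this.1.up (by omega))
      fun i => (this.2 i).le.trans (by norm_num)
  · have := up_stage2 hT' hb (by omega) (by omega) le_rfl hn hP hrq hqp
    refine (mA_le_mU b _ (antitone_lam hrq hqp huv)).trans ?_
    refine le_of_cvl hlo hb h' hrq hqp huv ?_ this.1 this.2
    unfold selU
    rw [Nat.blt_eq]
    exact Nat.lt_of_not_le hs

/-- The lower table. -/
theorem lo_of_inv {T1 L1 T2 L2 : ℕ → ℕ → ℕ → ℕ → ℕ}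
    (h1 : ∀ a, a ≤ 14 → Inv 48 90 99 6 39 (pfull 93) T1 a)
    (h2 : ∀ a, a ≤ 24 → Inv 53 150 159 6 39 pthinS T2 a)
    (hL1 : ∀ a, a ≤ 14 → chkL 48 90 99 39 (a * 6) (pfull (a * 6 + 9)) (T1 a) (L1 a) 0 22 = true)
    (hL2 : ∀ a, 14 < a → a ≤ 24 → chkL 53 150 159 39 (a * 6) pthinS (T2 a) (L2 a) 0 7 = true) :
    Lo (lof L1 L2) := by
  refine lof_sound (fun b p q r hb hrq hqp hN => ?_) (fun b p q r hb hb' hrq hqp hp => ?_)
  · rw [chkL_sound (hL1 b hb) (by omega) hrq hqp (by simp only [pfull, nadd, nsub, ndiv]; omega),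
      mul_comm 6 b]
    exact exact_of_inv (h1 b hb) (by omega) (by omega) (by omega) (by omega) (by omega) hrq hqp
      (fun h => by simp only [pfull, nadd, nsub, ndiv]; omega)
  · have hp' : p < 7 := by
      have := antiP_pthinS (q + 1) r 0 0 (Nat.zero_le _) (Nat.zero_le _)
      have h8 : pthinS 0 0 = 8 := rfl
      omega
    rw [chkL_sound (hL2 b hb hb') hp' hrq hqp hp, mul_comm 6 b]
    exact exact_of_inv (h2 b hb') (by omega) (by omega) (by omega) (by omega) (by omega) hrq hqp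
      (fun _ => hp)

end Crest.Agent.R187.K
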