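import Crest.Agent.R187.KD1

/-! Kernel checks of the tables. -/

set_option autoImplicit false
set_option Elab.async false

namespace Crest.Agent.R187.K

theorem cS1_z :
    chkz 48 90 99 35 (pfull 93) dS1.hd.getS 24 = true := by
  decide +kernel

theorem cS1_1_0 :
    chkr 48 90 99 6 35 (pfull 93) dS1.hd.getS 1 0 24 = true := by
  decide +kernel

theorem cS1_2_0 :
    chkr 48 90 99 6 35 (pfull 93) dS1.hd.getS 2 0 24 = true := by
  decide +kernel

theorem cS1_3_0 :
    chkr 48 90 99 6 35 (pfull 93) dS1.hd.getS 3 0 24 = true := by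
  decide +kernel

theorem cS1_4_0 :
    chkr 48 90 99 6 35 (pfull 93) dS1.hd.getS 4 0 24 = true := by
  decide +kernel

theorem cS1_5_0 :
    chkr 48 90 99 6 35 (pfull 93) dS1.hd.getS 5 0 16 = true := by
  decide +kernel

theorem cS1_5_16 :
    chkr 48 90 99 6 35 (pfull 93) dS1.hd.getS 5 16 8 = true := by
  decide +kernel

theorem cS1_6_0 :
    chkr 48 90 99 6 35 (pfull 93) dS1.hd.getS 6 0 16 = true := by
  decide +kernel

theorem cS1_6_16 :
    chkr 48 90 99 6 35 (pfull 93) dS1.hd.getS 6 16 8 = true := by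
  decide +kernel

theorem cS1_7_0 :
    chkr 48 90 99 6 35 (pfull 93) dS1.hd.getS 7 0 14 = true := by
  decide +kernel

theorem cS1_7_14 :
    chkr 48 90 99 6 35 (pfull 93) dS1.hd.getS 7 14 3 = true := by
  decide +kernel

theorem cS1_7_17 :
    chkr 48 90 99 6 35 (pfull 93) dS1.hd.getS 7 17 7 = true := by
  decide +kernel


end Crest.Agent.R187.K
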