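import Crest.Agent.R187.KGen

/-! Tables (untrusted data, produced at elaboration time and checked by the kernel later). -/

set_option autoImplicit false
set_option maxRecDepth 100000
set_option Elab.async false

namespace Crest.Agent.R187.K

noncomputable def dH10 : Tq := eval% (genH 23 7 10)
noncomputable def dH11 : Tq := eval% (genH 23 7 11)
noncomputable def dH12 : Tq := eval% (genH 23 7 12)
noncomputable def dH13 : Tq := eval% (genH 23 7 13)
noncomputable def dH14 : Tq := eval% (genH 23 7 14)
noncomputable def dH15 : Tq := eval% (genH 23 7 15)
noncomputable def dH16 : Tq := eval% (genH 23 7 16)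
noncomputable def dH17 : Tq := eval% (genH 23 7 17)
noncomputable def dH18 : Tq := eval% (genH 23 7 18)
noncomputable def dH19 : Tq := eval% (genH 23 7 19)
noncomputable def dH20 : Tq := eval% (genH 23 7 20)
noncomputable def dH21 : Tq := eval% (genH 23 7 21)
noncomputable def dH22 : Tq := eval% (genH 23 7 22)
noncomputable def dH23 : Tq := eval% (genH 23 7 23)
noncomputable def dH24 : Tq := eval% (genH 23 7 24)

end Crest.Agent.R187.K
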