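import Crest.Agent.R187.KD1
import Crest.Agent.R187.KD2
import Crest.Agent.R187.KD3
import Crest.Agent.R187.KD4

/-! Kernel checks of the tables. -/

set_option autoImplicit false
set_option Elab.async false

namespace Crest.Agent.R187.K

theorem cU10_0 :
    chkC (lof dS1.tl.get4 dS2.get4) (pieri dH10.get2 50 10) selU dW10 10 0 11 = true := by
  decide +kernel

theorem cU11_0 :
    chkC (lof dS1.tl.get4 dS2.get4) (pieri dH11.get2 55 11) selU dW11 11 0 12 = true := by
  decide +kernel

theorem cU12_0 :
    chkC (lof dS1.tl.get4 dS2.get4) (pieri dH12.get2 60 12) selU dW12 12 0 13 = true := by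
  decide +kernel

theorem cU13_0 :
    chkC (lof dS1.tl.get4 dS2.get4) (pieri dH13.get2 65 13) selU dW13 13 0 14 = true := by
  decide +kernel

theorem cU14_0 :
    chkC (lof dS1.tl.get4 dS2.get4) (pieri dH14.get2 70 14) selU dW14 14 0 15 = true := by
  decide +kernel

theorem cU15_0 :
    chkC (lof dS1.tl.get4 dS2.get4) (pieri dH15.get2 75 15) selU dW15 15 0 16 = true := by
  decide +kernel

theorem cU16_0 :
    chkC (lof dS1.tl.get4 dS2.get4) (pieri dH16.get2 80 16) selU dW16 16 0 17 = true := by
  decide +kernel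

theorem cU17_0 :
    chkC (lof dS1.tl.get4 dS2.get4) (pieri dH17.get2 85 17) selU dW17 17 0 18 = true := by
  decide +kernel

theorem cU18_0 :
    chkC (lof dS1.tl.get4 dS2.get4) (pieri dH18.get2 90 18) selU dW18 18 0 19 = true := by
  decide +kernel

theorem cU19_0 :
    chkC (lof dS1.tl.get4 dS2.get4) (pieri dH19.get2 95 19) selU dW19 19 0 4 = true := by
  decide +kernel

theorem cU19_4 :
    chkC (lof dS1.tl.get4 dS2.get4) (pieri dH19.get2 95 19) selU dW19 19 4 16 = true := by
  decide +kernel

theorem cU20_0 :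
    chkC (lof dS1.tl.get4 dS2.get4) (pieri dH20.get2 100 20) selU dW20 20 0 3 = true := by
  decide +kernel

theorem cU20_3 :
    chkC (lof dS1.tl.get4 dS2.get4) (pieri dH20.get2 100 20) selU dW20 20 3 18 = true := by
  decide +kernel

theorem cU21_0 :
    chkC (lof dS1.tl.get4 dS2.get4) (pieri dH21.get2 105 21) selU dW21 21 0 3 = true := by
  decide +kernel

theorem cU21_3 :
    chkC (lof dS1.tl.get4 dS2.get4) (pieri dH21.get2 105 21) selU dW21 21 3 19 = true := by
  decide +kernel


end Crest.Agent.R187.K
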