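import Crest.Agent.R187.KD1
import Crest.Agent.R187.KD2
import Crest.Agent.R187.KD3
import Crest.Agent.R187.KD4

/-! Kernel checks of the tables. -/

set_option autoImplicit false
set_option Elab.async false

namespace Crest.Agent.R187.K

theorem cU22_0 :
    chkC (lof dS1.tl.get4 dS2.get4) (pieri dH22.get2 110 22) selU dW22 22 0 2 = true := by
  decide +kernel

theorem cU22_2 :
    chkC (lof dS1.tl.get4 dS2.get4) (pieri dH22.get2 110 22) selU dW22 22 2 4 = true := by
  decide +kernel

theorem cU22_6 :
    chkC (lof dS1.tl.get4 dS2.get4) (pieri dH22.get2 110 22) selU dW22 22 6 17 = true := by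
  decide +kernel

theorem cU23_0 :
    chkC (lof dS1.tl.get4 dS2.get4) (pieri dH23.get2 115 23) selU dW23 23 0 2 = true := by
  decide +kernel

theorem cU23_2 :
    chkC (lof dS1.tl.get4 dS2.get4) (pieri dH23.get2 115 23) selU dW23 23 2 3 = true := by
  decide +kernel

theorem cU23_5 :
    chkC (lof dS1.tl.get4 dS2.get4) (pieri dH23.get2 115 23) selU dW23 23 5 19 = true := by
  decide +kernel

theorem cU24_0 :
    chkC (lof dS1.tl.get4 dS2.get4) (pieri dH24.get2 120 24) selU dW24 24 0 2 = true := by
  decide +kernel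

theorem cU24_2 :
    chkC (lof dS1.tl.get4 dS2.get4) (pieri dH24.get2 120 24) selU dW24 24 2 2 = true := by
  decide +kernel

theorem cU24_4 :
    chkC (lof dS1.tl.get4 dS2.get4) (pieri dH24.get2 120 24) selU dW24 24 4 3 = true := by
  decide +kernel

theorem cU24_7 :
    chkC (lof dS1.tl.get4 dS2.get4) (pieri dH24.get2 120 24) selU dW24 24 7 18 = true := by
  decide +kernel


end Crest.Agent.R187.K
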