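import Crest.Agent.R187.KD1

/-! Kernel checks of the tables. -/

set_option autoImplicit false
set_option Elab.async false

namespace Crest.Agent.R187.K

theorem cS1_8_0 :
    chkr 48 90 99 6 35 (pfull 93) dS1.hd.getS 8 0 14 = true := by
  decide +kernel

theorem cS1_8_14 :
    chkr 48 90 99 6 35 (pfull 93) dS1.hd.getS 8 14 3 = true := by
  decide +kernel

theorem cS1_8_17 :
    chkr 48 90 99 6 35 (pfull 93) dS1.hd.getS 8 17 7 = true := by
  decide +kernel

theorem cS1_9_0 :
    chkr 48 90 99 6 35 (pfull 93) dS1.hd.getS 9 0 13 = true := by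
  decide +kernel

theorem cS1_9_13 :
    chkr 48 90 99 6 35 (pfull 93) dS1.hd.getS 9 13 3 = true := by
  decide +kernel

theorem cS1_9_16 :
    chkr 48 90 99 6 35 (pfull 93) dS1.hd.getS 9 16 2 = true := by
  decide +kernel

theorem cS1_9_18 :
    chkr 48 90 99 6 35 (pfull 93) dS1.hd.getS 9 18 6 = true := by
  decide +kernel


end Crest.Agent.R187.K
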