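import Crest.Agent.R187.KD1

/-! Kernel checks of the tables. -/

set_option autoImplicit false
set_option Elab.async false

namespace Crest.Agent.R187.K

theorem cS1_13_0 :
    chkr 48 90 99 6 35 (pfull 93) dS1.hd.getS 13 0 12 = true := by
  decide +kernel

theorem cS1_13_12 :
    chkr 48 90 99 6 35 (pfull 93) dS1.hd.getS 13 12 2 = true := by
  decide +kernel

theorem cS1_13_14 :
    chkr 48 90 99 6 35 (pfull 93) dS1.hd.getS 13 14 2 = true := by
  decide +kernel

theorem cS1_13_16 :
    chkr 48 90 99 6 35 (pfull 93) dS1.hd.getS 13 16 2 = true := by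
  decide +kernel

theorem cS1_13_18 :
    chkr 48 90 99 6 35 (pfull 93) dS1.hd.getS 13 18 2 = true := by
  decide +kernel

theorem cS1_13_20 :
    chkr 48 90 99 6 35 (pfull 93) dS1.hd.getS 13 20 4 = true := by
  decide +kernel


end Crest.Agent.R187.K
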