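import Crest.Agent.R187.KGen

/-! Tables (untrusted data, produced at elaboration time and checked by the kernel later). -/

set_option autoImplicit false
set_option maxRecDepth 100000
set_option Elab.async false

namespace Crest.Agent.R187.K

noncomputable def dS1 : Tq := eval% (genS1 14)

end Crest.Agent.R187.K
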