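import Crest.Agent.R187.KLane
import Crest.Agent.R187.Chars

/-!
# Task K3: from congruences to digits

`ev_cong_sum`: expand `F` as the sum of its monomials; for a monomial `γ` of degree `D` with `γ 1 < S` the right-hand side has at most the
single term `i = γ 1 + S * γ 2`; if `γ 2 ≥ H` the left-hand side is divisible by `2^(w S H)`.

`ent_of_check`: let `n = S * H`, `M = 2^(w n)`, `z = (x + bias) % M`.  The mask test says that all digits `z_i` (`i < n`) are `< 2^(β+1)`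
(`lane_land`, `lane_ones_mul`, `lt_of_land_hi`), and `x ≡ ∑ (z_i - 2^β) 2^(w i)` (`eq_sum_lane`, `ones_eq`).  So
`∑ (a (z_i - 2^β) - a c_i) 2^(w i) ≡ 0`, and `eq_zero_of_sum_modEq` gives `c_i = z_i - 2^β` (`a ≠ 0`).  Every `γ` with the given tail and
`γ 2 < H` either has coefficient zero (wrong degree, or `γ 1 ≥ S`) or is `gam D p q r (γ 1) (γ 2)`.

`coeff_FF_bound`: `coeff γ (expand k (hd 6 d) * F) = ∑_{α ∈ monos 6 d} if k • α ≤ γ then coeff (γ - k • α) F else 0`, and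
`(monos 6 d).card = (d+5).choose 5` (`Finset.card_finsuppAntidiag_nat_eq_choose`).  For `γ' ≤ γ` sort the last three entries by swaps
(`coeff_vand_mul_swap`); the sorted triple lies in the region by `AntiP`; if two entries agree the coefficient is zero.
-/

set_option autoImplicit false

namespace Crest.Agent.R187.K

open MvPolynomial

/-- The exponent of total degree `D` with entries `(*, u, v, p, q, r)`. -/
noncomputable def gam (D p q r u v : ℕ) : Fin 6 →₀ ℕ :=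
  Finsupp.equivFunOnFinite.symm ![D - (u + v + p + q + r), u, v, p, q, r]

/-- The coefficient stored in lane `u + S v`. -/
noncomputable def cf (D : ℕ) (F : MvPolynomial (Fin 6) ℤ) (p q r u v : ℕ) : ℤ :=
  if u + v + p + q + r ≤ D then coeff (gam D p q r u v) F else 0

namespace Dec

theorem gam_apply (D p q r u v : ℕ) (i : Fin 6) :
    gam D p q r u v i = ![D - (u + v + p + q + r), u, v, p, q, r] i := rfl

theorem gam_one (D p q r u v : ℕ) : gam D p q r u v 1 = u := rfl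
theorem gam_two (D p q r u v : ℕ) : gam D p q r u v 2 = v := rfl
theorem gam_three (D p q r u v : ℕ) : gam D p q r u v 3 = p := rfl
theorem gam_four (D p q r u v : ℕ) : gam D p q r u v 4 = q := rfl
theorem gam_five (D p q r u v : ℕ) : gam D p q r u v 5 = r := rfl

theorem degree_six (γ : Fin 6 →₀ ℕ) : γ.degree = γ 0 + γ 1 + γ 2 + γ 3 + γ 4 + γ 5 := by
  rw [Finsupp.degree_eq_sum, Fin.sum_univ_six]

theorem eq_gam {D : ℕ} {γ : Fin 6 →₀ ℕ} (h : γ.degree = D) :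
    γ = gam D (γ 3) (γ 4) (γ 5) (γ 1) (γ 2) ∧ γ 1 + γ 2 + γ 3 + γ 4 + γ 5 ≤ D := by
  rw [degree_six] at h
  refine ⟨?_, by omega⟩
  ext i
  rw [gam_apply]
  fin_cases i <;> simp
  omega

theorem ex3_eq_iff {p q r p' q' r' : ℕ} :
    ex3 p q r = ex3 p' q' r' ↔ p = p' ∧ q = q' ∧ r = r' := by
  constructor
  · intro h
    exact ⟨DFunLike.congr_fun h 0, DFunLike.congr_fun h 1, DFunLike.congr_fun h 2⟩
  · rintro ⟨rfl, rfl, rfl⟩; rfl

theorem monomial_ex3 (p q r : ℕ) (c : ℤ) :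
    (monomial (ex3 p q r) c : MvPolynomial (Fin 3) ℤ) = C c * (X 0 ^ p * X 1 ^ q * X 2 ^ r) := by
  rw [monomial_eq, Finsupp.prod_fintype _ _ (fun _ => pow_zero _), Fin.prod_univ_three]
  rfl

theorem Phi_monomial (w S : ℕ) (γ : Fin 6 →₀ ℕ) (c : ℤ) :
    Phi w S (monomial γ c) =
      monomial (ex3 (γ 3) (γ 4) (γ 5)) (c * 2 ^ (w * (γ 1 + S * γ 2))) := by
  rw [Phi, aeval_monomial, Finsupp.prod_fintype _ _ (fun _ => pow_zero _), Fin.prod_univ_six,
    monomial_ex3]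
  have e : (2 : ℤ) ^ (w * (γ 1 + S * γ 2)) = (2 ^ w) ^ γ 1 * (2 ^ (w * S)) ^ γ 2 := by
    rw [← pow_mul, ← pow_mul, ← pow_add]; congr 1; ring
  rw [e, algebraMap_eq]
  generalize (2 : ℤ) ^ w = A
  generalize (2 : ℤ) ^ (w * S) = B
  have e0 : (![1, C A, C B, X 0, X 1, X 2] : Fin 6 → MvPolynomial (Fin 3) ℤ) 0 = 1 := rfl
  have e1 : (![1, C A, C B, X 0, X 1, X 2] : Fin 6 → MvPolynomial (Fin 3) ℤ) 1 = C A := rfl
  have e2 : (![1, C A, C B, X 0, X 1, X 2] : Fin 6 → MvPolynomial (Fin 3) ℤ) 2 = C B := rfl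
  have e3 : (![1, C A, C B, X 0, X 1, X 2] : Fin 6 → MvPolynomial (Fin 3) ℤ) 3 = X 0 := rfl
  have e4 : (![1, C A, C B, X 0, X 1, X 2] : Fin 6 → MvPolynomial (Fin 3) ℤ) 4 = X 1 := rfl
  have e5 : (![1, C A, C B, X 0, X 1, X 2] : Fin 6 → MvPolynomial (Fin 3) ℤ) 5 = X 2 := rfl
  rw [e0, e1, e2, e3, e4, e5, C_mul, C_mul, C_pow, C_pow]
  ring

theorem ev_eq_sum (w S : ℕ) (F : MvPolynomial (Fin 6) ℤ) (p q r : ℕ) :
    ev w S F p q r = ∑ γ ∈ F.support,
      if γ 3 = p ∧ γ 4 = q ∧ γ 5 = r then coeff γ F * 2 ^ (w * (γ 1 + S * γ 2)) else 0 := by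
  classical
  unfold ev
  conv_lhs => rw [F.as_sum, map_sum, coeff_sum]
  refine Finset.sum_congr rfl fun γ _ => ?_
  rw [Phi_monomial, coeff_monomial]
  simp only [ex3_eq_iff]

theorem cf_eq_sum {D : ℕ} {F : MvPolynomial (Fin 6) ℤ} (hF : F.IsHomogeneous D)
    (p q r u v : ℕ) :
    cf D F p q r u v = ∑ γ ∈ F.support,
      if γ 3 = p ∧ γ 4 = q ∧ γ 5 = r ∧ γ 1 = u ∧ γ 2 = v then coeff γ F else 0 := by
  classical
  have hdeg : ∀ γ ∈ F.support, γ.degree = D := fun γ hγ => by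
    by_contra h
    exact (mem_support_iff.1 hγ) (hF.coeff_eq_zero h)
  unfold cf
  split_ifs with h
  · have h1 : ∀ γ ∈ F.support,
        (if γ 3 = p ∧ γ 4 = q ∧ γ 5 = r ∧ γ 1 = u ∧ γ 2 = v then coeff γ F else 0) =
        if γ = gam D p q r u v then coeff γ F else 0 := by
      intro γ hγ
      refine if_congr ⟨?_, ?_⟩ rfl rfl
      · rintro ⟨rfl, rfl, rfl, rfl, rfl⟩
        exact (eq_gam (hdeg γ hγ)).1
      · rintro rfl
        exact ⟨rfl, rfl, rfl, rfl, rfl⟩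
    rw [Finset.sum_congr rfl h1, Finset.sum_ite_eq']
    split_ifs with h2
    · rfl
    · exact notMem_support_iff.1 h2
  · symm
    refine Finset.sum_eq_zero fun γ hγ => if_neg ?_
    rintro ⟨rfl, rfl, rfl, rfl, rfl⟩
    have := (eq_gam (hdeg γ hγ)).2
    omega

theorem mod_div_of_lt {S u : ℕ} (hu : u < S) (v : ℕ) :
    (u + S * v) % S = u ∧ (u + S * v) / S = v := by
  have hS : 0 < S := by omega
  refine ⟨?_, ?_⟩
  · rw [Nat.add_mul_mod_self_left, Nat.mod_eq_of_lt hu]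
  · rw [Nat.add_mul_div_left _ _ hS, Nat.div_eq_of_lt hu, zero_add]

theorem lt_mul_of_lt {S H u v : ℕ} (hu : u < S) (hv : v < H) : u + S * v < S * H := by
  calc u + S * v < S + S * v := by omega
    _ = S * (v + 1) := by ring
    _ ≤ S * H := Nat.mul_le_mul_left _ hv

end Dec

open Dec

theorem ev_cong_sum {w S D : ℕ} {F : MvPolynomial (Fin 6) ℤ} (hF : F.IsHomogeneous D)
    (hS : ∀ γ ∈ F.support, γ 1 < S) (H p q r : ℕ) :
    ev w S F p q r ≡ ∑ i ∈ Finset.range (S * H), cf D F p q r (i % S) (i / S) * 2 ^ (w * i)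
      [ZMOD 2 ^ (w * S * H)] := by
  classical
  rw [ev_eq_sum]
  simp only [cf_eq_sum hF, Finset.sum_mul]
  rw [Finset.sum_comm]
  refine Int.ModEq.sum fun γ hγ => ?_
  have h1 := hS γ hγ
  by_cases h : γ 3 = p ∧ γ 4 = q ∧ γ 5 = r
  · rw [if_pos h]
    have h2 : ∀ i ∈ Finset.range (S * H),
        (if γ 3 = p ∧ γ 4 = q ∧ γ 5 = r ∧ γ 1 = i % S ∧ γ 2 = i / S then coeff γ F else 0) *
          (2 : ℤ) ^ (w * i) =
        if i = γ 1 + S * γ 2 then coeff γ F * 2 ^ (w * i) else 0 := by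
      intro i _
      rw [ite_mul, zero_mul]
      refine if_congr ⟨?_, ?_⟩ rfl rfl
      · rintro ⟨-, -, -, h4, h5⟩
        rw [h4, h5, Nat.mod_add_div]
      · rintro rfl
        obtain ⟨h4, h5⟩ := mod_div_of_lt h1 (γ 2)
        exact ⟨h.1, h.2.1, h.2.2, h4.symm, h5.symm⟩
    rw [Finset.sum_congr rfl h2, Finset.sum_ite_eq']
    split_ifs with h3
    · rfl
    · rw [Finset.mem_range, not_lt] at h3
      refine (Int.modEq_zero_iff_dvd.2 (Dvd.dvd.mul_left (pow_dvd_pow _ ?_) _))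
      rw [mul_assoc]
      exact Nat.mul_le_mul_left _ h3
  · rw [if_neg h, Finset.sum_eq_zero]
    intro i _
    rw [if_neg (fun h' => h ⟨h'.1, h'.2.1, h'.2.2.1⟩), zero_mul]

/-- Exponents of `vand 6 * f` are at most `N + 5` when `f` is homogeneous of degree `N` (`degreeOf_mul_le`; each variable occurs in five
factors of `vand 6`). -/
theorem le_of_mem_support_vand_mul {N : ℕ} {f : MvPolynomial (Fin 6) ℤ} (hf : f.IsHomogeneous N)
    {γ : Fin 6 →₀ ℕ} (hγ : γ ∈ (vand 6 * f).support) (i : Fin 6) : γ i ≤ N + 5 := by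
  have h1 := monomial_le_degreeOf i hγ
  have h2 := degreeOf_mul_le i (vand 6) f
  have h3 := (degreeOf_le_totalDegree f i).trans hf.totalDegree_le
  have h4 : degreeOf i (vand 6) ≤ 5 := by
    refine (degreeOf_prod_le i _ _).trans ?_
    have h5 : ∀ x ∈ (Finset.univ : Finset (Fin 6 × Fin 6)).filter (fun p => p.1 < p.2),
        degreeOf i (X x.1 - X x.2 : MvPolynomial (Fin 6) ℤ) ≤
          max (if i = x.1 then 1 else 0) (if i = x.2 then 1 else 0) := by
      intro x _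
      refine (degreeOf_sub_le i _ _).trans ?_
      rw [degreeOf_X, degreeOf_X]
    refine (Finset.sum_le_sum h5).trans ?_
    clear h5 h1 h2 h3
    revert i
    decide
  omega

namespace Dec

theorem ones_eq' {w : ℕ} (hw : 0 < w) (S C s : ℕ) :
    ones w S C s = ∑ j ∈ Finset.range (S * ((C - s) / 3)), 2 ^ (w * j) := by
  rw [← ones_eq hw, ← mul_assoc, ← md_eq]
  simp only [ones, ndiv, nsub, nshl, Nat.shiftLeft_eq, one_mul]

theorem bias_eq {w : ℕ} (hw : 0 < w) (S C β s : ℕ) :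
    bias w S C β s = ∑ j ∈ Finset.range (S * ((C - s) / 3)), 2 ^ β * 2 ^ (w * j) := by
  rw [bias, nshl, Nat.shiftLeft_eq, ones_eq' hw, Finset.sum_mul]
  exact Finset.sum_congr rfl fun j _ => mul_comm _ _

theorem lane_himask {w β : ℕ} (hβ : β < w) (S C s : ℕ) {i : ℕ} (hi : i < S * ((C - s) / 3)) :
    lane w (himask w S C β s) i = 2 ^ w - 2 ^ (β + 1) := by
  have hw : 0 < w := by omega
  have e : himask w S C β s =
      (2 ^ (w * (S * ((C - s) / 3))) - 1) / (2 ^ w - 1) * (2 ^ w - 2 ^ (β + 1)) := by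
    rw [ones_eq hw, ← ones_eq' hw]
    simp only [himask, nmul, nsub, nshl, Nat.shiftLeft_eq, one_mul]
    rw [pow_succ, mul_comm (2 ^ β) 2]
  rw [e, lane_ones_mul hw, if_pos hi]
  have : 0 < 2 ^ (β + 1) := by positivity
  have : 0 < 2 ^ w := by positivity
  omega

theorem cf_bound {D p q r H : ℕ} {F : MvPolynomial (Fin 6) ℤ} {Q : ℤ → Prop} (h0 : Q 0)
    (h : ∀ γ : Fin 6 →₀ ℕ, γ 3 = p → γ 4 = q → γ 5 = r → γ 2 < H → Q (coeff γ F)) (u : ℕ)
    {v : ℕ} (hv : v < H) : Q (cf D F p q r u v) := by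
  unfold cf
  split_ifs
  · exact h _ rfl rfl rfl hv
  · exact h0

end Dec

theorem ent_of_check {w S C β a D x p q r : ℕ} {B : ℤ} {F : MvPolynomial (Fin 6) ℤ}
    (hF : F.IsHomogeneous D) (hS : ∀ γ ∈ F.support, γ 1 < S) (ha : 1 ≤ a) (hβ : β < w)
    (hB0 : 0 ≤ B) (hB : B + a * 2 ^ β < 2 ^ w)
    (hbd : ∀ γ : Fin 6 →₀ ℕ, γ 3 = p → γ 4 = q → γ 5 = r → γ 2 < (C - (p + q + r)) / 3 →
      |a * coeff γ F| ≤ B)
    (hc : (a : ℤ) * x ≡ a * ev w S F p q r [ZMOD 2 ^ (w * S * ((C - (p + q + r)) / 3))])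
    (hle : Nat.ble x (md w S C (p + q + r)) = true)
    (hm : Nat.beq (Nat.land (Nat.mod (Nat.add x (bias w S C β (p + q + r))) (md w S C (p + q + r)))
        (himask w S C β (p + q + r))) 0 = true) :
    Ent w S C β F x p q r := by
  have hw : 0 < w := by omega
  rw [Nat.ble_eq, md_eq] at hle
  rw [Nat.beq_eq, nland, nmod, nadd, md_eq, mul_assoc] at hm
  have hb := bias_eq hw S C β (p + q + r)
  have hmask := fun i => lane_himask hβ S C (p + q + r) (i := i)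
  have hev := ev_cong_sum (w := w) hF hS ((C - (p + q + r)) / 3) p q r
  generalize hH : (C - (p + q + r)) / 3 = H at *
  generalize bias w S C β (p + q + r) = b at *
  generalize himask w S C β (p + q + r) = m at *
  rw [mul_assoc] at hc hev
  have hzlt : (x + b) % 2 ^ (w * (S * H)) < 2 ^ (w * (S * H)) := Nat.mod_lt _ (by positivity)
  have hzc : (((x + b) % 2 ^ (w * (S * H)) : ℕ) : ℤ) ≡ x + b [ZMOD 2 ^ (w * (S * H))] := by
    push_cast
    exact Int.mod_modEq _ _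
  generalize (x + b) % 2 ^ (w * (S * H)) = z at *
  have hz : ∀ i, i < S * H → lane w z i < 2 ^ (β + 1) := by
    intro i hi
    refine lt_of_land_hi (lane_lt w z i) hβ ?_
    rw [← hmask i hi, ← lane_land, hm, lane_zero]
  have hzs : (z : ℤ) = ∑ j ∈ Finset.range (S * H), (lane w z j : ℤ) * 2 ^ (w * j) := by
    exact_mod_cast eq_sum_lane hzlt
  have hbs : (b : ℤ) = ∑ j ∈ Finset.range (S * H), (2 : ℤ) ^ β * 2 ^ (w * j) := by
    exact_mod_cast hb
  have hx : (x : ℤ) ≡ ∑ j ∈ Finset.range (S * H), ((lane w z j : ℤ) - 2 ^ β) * 2 ^ (w * j)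
      [ZMOD 2 ^ (w * (S * H))] := by
    have h1 := (hzc.sub_right b).symm
    rw [add_sub_cancel_right] at h1
    simp only [sub_mul, Finset.sum_sub_distrib]
    rwa [← hzs, ← hbs]
  have hzero : ∀ i, i < S * H →
      (a : ℤ) * ((lane w z i : ℤ) - 2 ^ β) - a * cf D F p q r (i % S) (i / S) = 0 := by
    refine eq_zero_of_sum_modEq (w := w) ?_ ?_
    · intro i hi
      have h1 : |(a : ℤ) * cf D F p q r (i % S) (i / S)| ≤ B :=
        cf_bound (Q := fun t => |(a : ℤ) * t| ≤ B) (by simpa using hB0) hbd _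
          (Nat.div_lt_of_lt_mul hi)
      have h2 : ((lane w z i : ℕ) : ℤ) < 2 * 2 ^ β := by
        have := hz i hi
        rw [pow_succ'] at this
        exact_mod_cast this
      have h3 : (0 : ℤ) ≤ (lane w z i : ℕ) := Int.natCast_nonneg _
      have h4 : |(a : ℤ) * ((lane w z i : ℤ) - 2 ^ β)| ≤ a * 2 ^ β := by
        rw [abs_mul, Nat.abs_cast]
        refine mul_le_mul_of_nonneg_left (abs_le.2 ⟨by linarith, by linarith⟩) (Int.natCast_nonneg _)
      have h5 := abs_sub ((a : ℤ) * ((lane w z i : ℤ) - 2 ^ β)) (a * cf D F p q r (i % S) (i / S))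
      linarith
    · have h1 := ((hx.mul_left a).symm.trans hc).trans (hev.mul_left a)
      have h2 := h1.sub_right (a * ∑ i ∈ Finset.range (S * H),
        cf D F p q r (i % S) (i / S) * 2 ^ (w * i))
      rw [sub_self] at h2
      simp only [sub_mul, Finset.sum_sub_distrib, Finset.mul_sum, mul_assoc] at h2 ⊢
      simpa only [mul_sub, sub_mul, Finset.sum_sub_distrib, Finset.mul_sum, mul_assoc] using h2
  have heq : ∀ i, i < S * H → cf D F p q r (i % S) (i / S) = (lane w z i : ℤ) - 2 ^ β := by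
    intro i hi
    have ha0 : (a : ℤ) ≠ 0 := by exact_mod_cast (by omega : a ≠ 0)
    exact (mul_left_cancel₀ ha0 (sub_eq_zero.1 (hzero i hi))).symm
  refine ⟨by rw [hH]; exact hle, ?_, ?_⟩
  · rw [hH, mul_assoc]
    refine hx.trans (Int.ModEq.trans ?_ hev.symm)
    rw [Finset.sum_congr rfl fun i hi => by rw [← heq i (Finset.mem_range.1 hi)]]
  · intro γ h3 h4 h5 h2
    rw [hH] at h2
    have hp : (0 : ℤ) < 2 ^ β := by positivity
    by_cases h0 : coeff γ F = 0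
    · rw [h0]; constructor <;> linarith
    · have hdeg : γ.degree = D := by
        by_contra h
        exact h0 (hF.coeff_eq_zero h)
      have h1 := hS γ (mem_support_iff.2 h0)
      have hi := lt_mul_of_lt h1 h2
      obtain ⟨e1, e2⟩ := mod_div_of_lt h1 (γ 2)
      obtain ⟨g1, g2⟩ := eq_gam hdeg
      have h6 := heq _ hi
      rw [e1, e2, cf, ← h3, ← h4, ← h5, if_pos g2, ← g1] at h6
      have h7 : ((lane w z (γ 1 + S * γ 2) : ℕ) : ℤ) < 2 * 2 ^ β := by
        have := hz _ hi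
        rw [pow_succ'] at this
        exact_mod_cast this
      have h8 : (0 : ℤ) ≤ (lane w z (γ 1 + S * γ 2) : ℕ) := Int.natCast_nonneg _
      rw [h6]
      constructor <;> linarith

namespace Dec

theorem card_monos (d : ℕ) : (monos 6 d).card = (d + 5).choose 5 := by
  rw [monos, Finset.card_finsuppAntidiag_nat_eq_choose, Finset.card_univ, Fintype.card_fin,
    show 6 + d - 1 = d + 5 by omega]
  exact Nat.choose_symm_add

theorem swap_apply (γ : Fin 6 →₀ ℕ) (i j k : Fin 6) :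
    (γ.mapDomain (Equiv.swap i j)) k = γ (Equiv.swap i j k) := by
  rw [Finsupp.mapDomain_equiv_apply, Equiv.symm_swap]

/-- Sorting the last three exponents. -/
theorem abs_coeff_le {f : MvPolynomial (Fin 6) ℤ} (hf : f.IsSymmetric) {B : ℤ} (hB : 0 ≤ B)
    {p q r H : ℕ} (hrq : r < q) (hqp : q < p)
    (h : ∀ γ : Fin 6 →₀ ℕ, γ 5 < γ 4 → γ 4 < γ 3 → γ 3 ≤ p → γ 4 ≤ q → γ 5 ≤ r → γ 2 < H →
      |coeff γ (vand 6 * f)| ≤ B)
    (γ : Fin 6 →₀ ℕ) (h3 : γ 3 ≤ p) (h4 : γ 4 ≤ q) (h5 : γ 5 ≤ r) (h2 : γ 2 < H) :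
    |coeff γ (vand 6 * f)| ≤ B := by
  have sw : ∀ (i j : Fin 6), i ≠ j → ∀ δ : Fin 6 →₀ ℕ,
      |coeff (δ.mapDomain (Equiv.swap i j)) (vand 6 * f)| ≤ B → |coeff δ (vand 6 * f)| ≤ B := by
    intro i j hij δ hδ
    rwa [coeff_vand_mul_swap f hf i j hij, abs_neg] at hδ
  have eqz : ∀ (i j : Fin 6), i ≠ j → ∀ δ : Fin 6 →₀ ℕ, δ i = δ j →
      |coeff δ (vand 6 * f)| ≤ B := by
    intro i j hij δ hδ
    have h1 := coeff_vand_mul_swap f hf i j hij δ
    have h2 : δ.mapDomain (Equiv.swap i j) = δ := by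
      ext k
      rw [swap_apply, Equiv.apply_swap_eq_self hδ]
    rw [h2] at h1
    have h3 : coeff δ (vand 6 * f) = 0 := by linarith
    rw [h3, abs_zero]; exact hB
  have a34 : ∀ δ : Fin 6 →₀ ℕ, (δ.mapDomain (Equiv.swap 3 4)) 2 = δ 2 ∧
      (δ.mapDomain (Equiv.swap 3 4)) 3 = δ 4 ∧ (δ.mapDomain (Equiv.swap 3 4)) 4 = δ 3 ∧
      (δ.mapDomain (Equiv.swap 3 4)) 5 = δ 5 := fun δ => by
    simp only [swap_apply]
    exact ⟨rfl, rfl, rfl, rfl⟩
  have a45 : ∀ δ : Fin 6 →₀ ℕ, (δ.mapDomain (Equiv.swap 4 5)) 2 = δ 2 ∧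
      (δ.mapDomain (Equiv.swap 4 5)) 3 = δ 3 ∧ (δ.mapDomain (Equiv.swap 4 5)) 4 = δ 5 ∧
      (δ.mapDomain (Equiv.swap 4 5)) 5 = δ 4 := fun δ => by
    simp only [swap_apply]
    exact ⟨rfl, rfl, rfl, rfl⟩
  -- step 1: `δ 4 < δ 3`, `δ 5 < δ 3`
  have s1 : ∀ δ : Fin 6 →₀ ℕ, δ 5 < δ 3 → δ 4 < δ 3 → δ 3 ≤ p → δ 4 ≤ q → δ 5 ≤ q →
      (δ 4 ≤ r ∨ δ 5 ≤ r) → δ 2 < H → |coeff δ (vand 6 * f)| ≤ B := by
    intro δ e1 e2 e3 e4 e5 e6 e7
    rcases lt_trichotomy (δ 5) (δ 4) with e | e | e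
    · exact h δ e e2 e3 e4 (by omega) e7
    · exact eqz 5 4 (by decide) δ e
    · obtain ⟨b2, b3, b4, b5⟩ := a45 δ
      exact sw 4 5 (by decide) δ (h _ (by omega) (by omega) (by omega) (by omega) (by omega)
        (by omega))
  -- step 2: `δ 5 < δ 4`
  have s2 : ∀ δ : Fin 6 →₀ ℕ, δ 5 < δ 4 → δ 3 ≤ p → δ 4 ≤ q → δ 5 ≤ r → δ 2 < H →
      |coeff δ (vand 6 * f)| ≤ B := by
    intro δ e1 e3 e4 e5 e7
    rcases lt_trichotomy (δ 4) (δ 3) with e | e | e
    · exact h δ e1 e e3 e4 e5 e7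
    · exact eqz 4 3 (by decide) δ e
    · obtain ⟨b2, b3, b4, b5⟩ := a34 δ
      exact sw 3 4 (by decide) δ (s1 _ (by omega) (by omega) (by omega) (by omega) (by omega)
        (by omega) (by omega))
  rcases lt_trichotomy (γ 5) (γ 4) with e | e | e
  · exact s2 γ e h3 h4 h5 h2
  · exact eqz 5 4 (by decide) γ e
  · obtain ⟨b2, b3, b4, b5⟩ := a45 γ
    exact sw 4 5 (by decide) γ (s2 _ (by omega) (by omega) (by omega) (by omega) (by omega))

end Dec

theorem coeff_FF_bound {w S C d β : ℕ} {P : ℕ → ℕ → ℕ} {T : ℕ → ℕ → ℕ → ℕ → ℕ} {a p q r : ℕ}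
    (hP : AntiP P) (hT : ∀ i, i < a → Inv w S C d β P T i)
    (hrq : r < q) (hqp : q < p) (hp : p ≤ P q r) (γ : Fin 6 →₀ ℕ) (h3 : γ 3 = p) (h4 : γ 4 = q)
    (h5 : γ 5 = r) (h2 : γ 2 < (C - (p + q + r)) / 3) :
    |(a : ℤ) * coeff γ (FF d a)| ≤ a * ((d + 5).choose 5 : ℕ) * 2 ^ β := by
  have hpos : (0 : ℤ) < 2 ^ β := by positivity
  have key : ∀ i, i < a → ∀ δ : Fin 6 →₀ ℕ, δ ≤ γ → |coeff δ (FF d i)| ≤ 2 ^ β := by
    intro i hi δ hδ
    refine abs_coeff_le (pleth_isSymmetric 6 i d) hpos.le hrq hqp (H := (C - (p + q + r)) / 3)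
      ?_ δ (h3 ▸ hδ 3) (h4 ▸ hδ 4) (h5 ▸ hδ 5) (lt_of_le_of_lt (hδ 2) h2)
    intro ε e1 e2 e3 e4 e5 e6
    have hE := hT i hi (ε 3) (ε 4) (ε 5) e1 e2 (e3.trans (hp.trans (hP q r _ _ e4 e5)))
    have := hE.bd ε rfl rfl rfl (by omega)
    exact abs_le.2 ⟨this.1, this.2.le⟩
  have e : (a : ℤ) * coeff γ (FF d a) = ∑ k ∈ Finset.range a, ∑ α ∈ monos 6 d,
      if (k + 1) • α ≤ γ then coeff (γ - (k + 1) • α) (FF d (a - (k + 1))) else 0 := by
    have h1 : (MvPolynomial.C (a : ℤ) : MvPolynomial (Fin 6) ℤ) * FF d a =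
        ∑ k ∈ Finset.range a, expand (k + 1) (hd 6 d) * FF d (a - (k + 1)) := by
      rw [map_natCast, FF, mul_left_comm, pleth_newton, Finset.mul_sum]
      refine Finset.sum_congr rfl fun k _ => ?_
      rw [FF, mul_left_comm]
    rw [← coeff_C_mul, h1, coeff_sum]
    refine Finset.sum_congr rfl fun k _ => ?_
    rw [hd, map_sum, Finset.sum_mul, coeff_sum]
    refine Finset.sum_congr rfl fun α _ => ?_
    rw [expand_monomial, coeff_monomial_mul', one_mul]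
  rw [e]
  refine (Finset.abs_sum_le_sum_abs _ _).trans ?_
  have h6 : ∀ k ∈ Finset.range a, |∑ α ∈ monos 6 d,
      if (k + 1) • α ≤ γ then coeff (γ - (k + 1) • α) (FF d (a - (k + 1))) else 0| ≤
      ((d + 5).choose 5 : ℕ) * (2 : ℤ) ^ β := by
    intro k hk
    rw [Finset.mem_range] at hk
    refine (Finset.abs_sum_le_sum_abs _ _).trans ?_
    rw [← card_monos, ← nsmul_eq_mul]
    refine Finset.sum_le_card_nsmul _ _ _ fun α _ => ?_
    split_ifs
    · exact key _ (by omega) _ tsub_le_self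
    · rw [abs_zero]; exact hpos.le
  refine (Finset.sum_le_card_nsmul _ _ _ h6).trans ?_
  rw [Finset.card_range, nsmul_eq_mul, mul_assoc]

/-- The digits of the biased entry. -/
theorem Ent.lane_biased {w S C β D x p q r : ℕ} {F : MvPolynomial (Fin 6) ℤ}
    (h : Ent w S C β F x p q r) (hF : F.IsHomogeneous D) (hS : ∀ γ ∈ F.support, γ 1 < S)
    (hβ : β < w) {u v : ℕ} (hu : u < S) (hv : v < (C - (p + q + r)) / 3) :
    (lane w ((x + bias w S C β (p + q + r)) % md w S C (p + q + r)) (u + S * v) : ℤ) =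
      cf D F p q r u v + 2 ^ β := by
  have hw : 0 < w := by omega
  have hpos : (0 : ℤ) < 2 ^ β := by positivity
  have hb := bias_eq hw S C β (p + q + r)
  have hev := h.cong.trans (ev_cong_sum (w := w) hF hS ((C - (p + q + r)) / 3) p q r)
  have hbd := h.bd
  rw [md_eq]
  generalize (C - (p + q + r)) / 3 = H at *
  generalize bias w S C β (p + q + r) = b at *
  rw [mul_assoc] at hev ⊢
  have hc : ∀ i, i < S * H → -2 ^ β ≤ cf D F p q r (i % S) (i / S) ∧
      cf D F p q r (i % S) (i / S) < 2 ^ β := fun i hi =>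
    cf_bound (Q := fun t => -2 ^ β ≤ t ∧ t < 2 ^ β) ⟨by linarith, hpos⟩ hbd _
      (Nat.div_lt_of_lt_mul hi)
  set c : ℕ → ℕ := fun i => (cf D F p q r (i % S) (i / S) + 2 ^ β).toNat with hcdef
  have hci : ∀ i, i < S * H → (c i : ℤ) = cf D F p q r (i % S) (i / S) + 2 ^ β := fun i hi =>
    Int.toNat_of_nonneg (by linarith [(hc i hi).1])
  have hclt : ∀ i, i < S * H → c i < 2 ^ w := by
    intro i hi
    have h1 : (2 : ℤ) ^ (β + 1) ≤ 2 ^ w := pow_le_pow_right₀ (by norm_num) hβ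
    have h2 : (c i : ℤ) < 2 ^ w := by
      rw [hci i hi]
      rw [pow_succ] at h1
      linarith [(hc i hi).2]
    exact_mod_cast h2
  have hmod : x + b ≡ ∑ j ∈ Finset.range (S * H), c j * 2 ^ (w * j) [MOD 2 ^ (w * (S * H))] := by
    rw [← Int.natCast_modEq_iff]
    push_cast
    rw [Finset.sum_congr rfl fun i hi => by rw [hci i (Finset.mem_range.1 hi)]]
    simp only [add_mul, Finset.sum_add_distrib]
    refine hev.add ?_
    rw [hb]
    push_cast
    rfl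
  have hi := lt_mul_of_lt hu hv
  obtain ⟨e1, e2⟩ := mod_div_of_lt hu v
  rw [hmod, lane_mod, if_pos hi, lane_sum hclt, if_pos hi, hci _ hi, e1, e2]

end Crest.Agent.R187.K
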