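import Mathlib

/-!
Executable (kernel-friendly) definitions for the numerical part of result 187.
All functions are plain recursions on small indices; the kernel shares repeated calls.
-/

set_option autoImplicit false

namespace Crest.Agent.R187.K

/-- Lisp-style trees of numbers, used to store tables. -/
inductive Tr : Type
  | lf (n : ℕ) : Tr
  | nd (a b : Tr) : Tr

noncomputable def Tr.hd (t : Tr) : Tr := @Tr.rec (fun _ => Tr) (fun n => Tr.lf n) (fun a _ _ _ => a) t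
noncomputable def Tr.tl (t : Tr) : Tr := @Tr.rec (fun _ => Tr) (fun n => Tr.lf n) (fun _ b _ _ => b) t
noncomputable def Tr.val (t : Tr) : ℕ := @Tr.rec (fun _ => ℕ) (fun n => n) (fun _ _ _ _ => 0) t
noncomputable def Tr.nth (t : Tr) (n : ℕ) : Tr :=
  Tr.hd (@Nat.rec (fun _ => Tr) t (fun _ ih => Tr.tl ih) n)
noncomputable def Tr.get3 (t : Tr) (p q r : ℕ) : ℕ := (((t.nth p).nth q).nth r).val
noncomputable def Tr.get4 (t : Tr) (i p q r : ℕ) : ℕ := ((((t.nth i).nth p).nth q).nth r).val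

/-- `frc n f = f n`, evaluating `n` first. -/
noncomputable def frc {α : Type} (n : ℕ) (f : ℕ → α) : α :=
  @Nat.rec (fun _ => α) (f 0) (fun m _ => f m) (Nat.succ n)

/-- `cnd b x y = if b then x else y`. -/
notation "cnd% " b:max x:max y:max => @Bool.rec (fun _ => ℕ) y x b
notation "cndb% " b:max x:max y:max => @Bool.rec (fun _ => Bool) y x b

/-- All `i < n` satisfy `f`. -/
noncomputable def allLt (n : ℕ) (f : ℕ → Bool) : Bool :=
  @Nat.rec (fun _ => Bool) true (fun i ih => cndb% (f i) ih false) n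

/-! ### Newton step -/

/-- Number of bits kept for triples of sum `s`. -/
noncomputable def kb (w S C s : ℕ) : ℕ := Nat.mul (Nat.mul w S) (Nat.div (Nat.sub C s) 3)

noncomputable def md (w S C s : ℕ) : ℕ := Nat.shiftLeft 1 (kb w S C s)

noncomputable def ng (M x : ℕ) : ℕ := cnd% (Nat.beq x 0) 0 (Nat.sub M x)

/-- Antisymmetric extension of a table given on decreasing triples. -/
noncomputable def dn (w S C : ℕ) (T : ℕ → ℕ → ℕ → ℕ) (p q r : ℕ) : ℕ :=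
  frc (Nat.add (Nat.add p q) r) fun s =>
  cnd% (Nat.blt q p)
    (cnd% (Nat.blt r q) (T p q r)
      (cnd% (Nat.blt q r)
        (cnd% (Nat.blt r p) (ng (md w S C s) (T p r q))
          (cnd% (Nat.blt p r) (T r p q) 0)) 0))
    (cnd% (Nat.blt p q)
      (cnd% (Nat.blt r p) (ng (md w S C s) (T q p r))
        (cnd% (Nat.blt p r)
          (cnd% (Nat.blt r q) (T q r p)
            (cnd% (Nat.blt q r) (ng (md w S C s) (T r q p)) 0)) 0)) 0)

/-- `h_m (1, X^k)`. -/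
notation "hc2% " w:max k:max =>
  @Nat.rec (fun _ => ℕ) 1 (fun _ ih => Nat.add 1 (Nat.shiftLeft ih (Nat.mul w k)))

/-- `h_m (1, X^k, Y^k)`. -/
notation "hc3% " w:max S:max k:max =>
  @Nat.rec (fun _ => ℕ) 1 (fun m ih => Nat.add ((hc2% w k) (Nat.succ m))
    (Nat.shiftLeft ih (Nat.mul (Nat.mul w S) k)))

noncomputable def hcm (w S C k m s : ℕ) : ℕ := Nat.mod ((hc3% w S k) m) (md w S C s)

notation "g5% " D:max k:max =>
  @Nat.rec (fun _ => ℕ → ℕ → ℕ → ℕ) (fun p q r => D p q r) (fun j ih p q r =>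
    frc (Nat.mul k (Nat.succ j)) fun kj =>
    cnd% (Nat.ble k q)
      (frc (Nat.sub q k) fun q' =>
        cnd% (Nat.ble kj p)
          (frc (Nat.sub p kj) fun p' => Nat.add (D p' q r) (ih p q' r))
          (ih p q' r))
      (cnd% (Nat.ble kj p) (frc (Nat.sub p kj) fun p' => D p' q r) 0))

notation "g6% " g:max k:max =>
  @Nat.rec (fun _ => ℕ → ℕ → ℕ → ℕ) (fun p q r => g 0 p q r) (fun j ih p q r =>
    frc (Nat.succ j) fun j1 =>
    cnd% (Nat.ble k r)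
      (frc (Nat.sub r k) fun r' => Nat.add (g j1 p q r) (ih p q r'))
      (g j1 p q r))

/-- `∑_{j < J} h_{d-j}(1, X^k, Y^k) * g j p q r`. -/
noncomputable def fin1 (w S C d k : ℕ) (g : ℕ → ℕ → ℕ → ℕ → ℕ) (p q r s J : ℕ) : ℕ :=
  @Nat.rec (fun _ => ℕ) 0 (fun j ih =>
    cnd% (Nat.beq (g j p q r) 0) ih
      (frc (Nat.sub d j) fun m => Nat.add ih (Nat.mul (hcm w S C k m s) (g j p q r)))) J

noncomputable def fink (w S C d : ℕ) (T : ℕ → ℕ → ℕ → ℕ → ℕ) (k i p q r s : ℕ) : ℕ :=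
  frc (Nat.succ (cnd% (Nat.ble (Nat.div s k) d) (Nat.div s k) d)) fun J =>
  Nat.mod (fin1 w S C d k (g6% (g5% (dn w S C (T i)) k) k) p q r s J) (md w S C s)

noncomputable def rhs (w S C d : ℕ) (T : ℕ → ℕ → ℕ → ℕ → ℕ) (a p q r s : ℕ) : ℕ :=
  @Nat.rec (fun _ => ℕ) 0 (fun k ih =>
    frc (Nat.succ k) fun k1 => frc (Nat.sub a k1) fun i =>
      Nat.add ih (fink w S C d T k1 i p q r s)) a

/-- `∑_{i < n} 2^(w i)` where `n` is the number of lanes for triples of sum `s`. -/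
noncomputable def ones (w S C s : ℕ) : ℕ :=
  Nat.div (Nat.sub (md w S C s) 1) (Nat.sub (Nat.shiftLeft 1 w) 1)

noncomputable def bias (w S C β s : ℕ) : ℕ := Nat.shiftLeft (ones w S C s) β

noncomputable def himask (w S C β s : ℕ) : ℕ :=
  Nat.mul (ones w S C s) (Nat.sub (Nat.shiftLeft 1 w) (Nat.shiftLeft 2 β))

noncomputable def chk1 (w S C d β : ℕ) (T : ℕ → ℕ → ℕ → ℕ → ℕ) (a p q r : ℕ) : Bool :=
  frc (Nat.add (Nat.add p q) r) fun s =>
  cndb% (Nat.beq (Nat.mod (Nat.mul a (T a p q r)) (md w S C s))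
      (Nat.mod (rhs w S C d T a p q r s) (md w S C s)))
    (cndb% (Nat.ble (T a p q r) (md w S C s))
      (Nat.beq (Nat.land (Nat.mod (Nat.add (T a p q r) (bias w S C β s)) (md w S C s))
        (himask w S C β s)) 0) false) false

/-- Check level `a` for the triples with first entry `p`. -/
noncomputable def chkp (w S C d β : ℕ) (P : ℕ → ℕ → ℕ) (T : ℕ → ℕ → ℕ → ℕ → ℕ) (a p : ℕ) : Bool :=
  allLt p fun q => allLt q fun r =>
    cndb% (Nat.ble p (P q r)) (chk1 w S C d β T a p q r) true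

noncomputable def chkr (w S C d β : ℕ) (P : ℕ → ℕ → ℕ) (T : ℕ → ℕ → ℕ → ℕ → ℕ) (a p0 n : ℕ) : Bool :=
  allLt n fun i => frc (Nat.add p0 i) fun p => chkp w S C d β P T a p

noncomputable def pfull (C q r : ℕ) : ℕ := Nat.div (Nat.sub C (Nat.add q r)) 4

noncomputable def pfour (C q r : ℕ) : ℕ :=
  cnd% (Nat.ble (Nat.add q r) 1) (Nat.div C 4) 0

noncomputable def pthinS (q r : ℕ) : ℕ :=
  cnd% (Nat.ble (Nat.add q r) 1) 8 (Nat.sub 7 (Nat.add q r))

noncomputable def pthinA (q r : ℕ) : ℕ :=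
  cnd% (Nat.ble q 1 && Nat.ble r 0) 10 (cnd% (Nat.ble q 2 && Nat.ble r 1) 8
    (cnd% (Nat.ble q 5 && Nat.ble r 0) 7 (cnd% (Nat.ble q 4 && Nat.ble r 3) 6 0)))

/-! ### Level zero: the Vandermonde product -/

noncomputable def act (X Y : ℤ) (i : ℕ) (V : ℕ → ℕ → ℕ → ℤ) (p q r : ℕ) : ℤ :=
  @Nat.rec (fun _ => ℤ) (V p q r) (fun i _ =>
  @Nat.rec (fun _ => ℤ) (Int.mul X (V p q r)) (fun i _ =>
  @Nat.rec (fun _ => ℤ) (Int.mul Y (V p q r)) (fun i _ =>
  @Nat.rec (fun _ => ℤ) (@Nat.rec (fun _ => ℤ) 0 (fun p' _ => V p' q r) p) (fun i _ =>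
  @Nat.rec (fun _ => ℤ) (@Nat.rec (fun _ => ℤ) 0 (fun q' _ => V p q' r) q) (fun _ _ =>
    @Nat.rec (fun _ => ℤ) 0 (fun r' _ => V p q r') r) i) i) i) i) i

noncomputable def vprod (X Y : ℤ) (l : List (ℕ × ℕ)) : ℕ → ℕ → ℕ → ℤ :=
  @List.rec (ℕ × ℕ) (fun _ => ℕ → ℕ → ℕ → ℤ)
    (fun p q r => @Bool.rec (fun _ => ℤ) 0 1 (Nat.beq (Nat.add (Nat.add p q) r) 0))
    (fun x _ ih p q r => Int.sub (act X Y x.1 ih p q r) (act X Y x.2 ih p q r)) l

def vpairs : List (ℕ × ℕ) :=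
  [(0, 1), (0, 2), (1, 2), (0, 3), (1, 3), (2, 3), (0, 4), (1, 4), (2, 4), (0, 5), (1, 5), (2, 5),
    (3, 4), (3, 5), (4, 5)]

noncomputable def chk0 (w S C β : ℕ) (T : ℕ → ℕ → ℕ → ℕ → ℕ) (p q r : ℕ) : Bool :=
  frc (Nat.add (Nat.add p q) r) fun s =>
  cndb% (cndb% (Nat.ble p 5)
      (Nat.beq (Int.natAbs (Int.emod (Int.sub
        (vprod (Int.ofNat (Nat.shiftLeft 1 w)) (Int.ofNat (Nat.shiftLeft 1 (Nat.mul w S))) vpairs p q r)
        (Int.ofNat (T 0 p q r))) (Int.ofNat (md w S C s)))) 0)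
      (Nat.beq (T 0 p q r) 0))
    (cndb% (Nat.ble (T 0 p q r) (md w S C s))
      (Nat.beq (Nat.land (Nat.mod (Nat.add (T 0 p q r) (bias w S C β s)) (md w S C s))
        (himask w S C β s)) 0) false) false

noncomputable def chkz (w S C β : ℕ) (P : ℕ → ℕ → ℕ) (T : ℕ → ℕ → ℕ → ℕ → ℕ) (n : ℕ) : Bool :=
  allLt n fun p => allLt p fun q => allLt q fun r =>
    cndb% (Nat.ble p (P q r)) (chk0 w S C β T p q r) true

/-! ### Repacking into the common format (lanes of 40 bits, rows of 73 lanes) -/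

/-- The biased table entry for the partition tail `(p, q, r)`. -/
noncomputable def zt (w S C β : ℕ) (T : ℕ → ℕ → ℕ → ℕ) (p q r : ℕ) : ℕ :=
  frc (Nat.add p 2) fun p2 => frc (Nat.add q 1) fun q1 => frc (Nat.add (Nat.add p2 q1) r) fun s =>
  Nat.mod (Nat.add (T p2 q1 r) (bias w S C β s)) (md w S C s)

/-- `n` lanes of width `w` of `z`, minus `B`, repacked with width 40. -/
noncomputable def rrow (w W B z n : ℕ) : ℕ :=
  @Nat.rec (fun _ => ℕ) 0 (fun u ih =>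
    Nat.add ih (Nat.shiftLeft (Nat.sub (Nat.mod (Nat.shiftRight z (Nat.mul w u)) W) B)
      (Nat.mul 40 u))) n

noncomputable def rslice (w S z p v n : ℕ) : ℕ :=
  Nat.mod (Nat.shiftRight z (Nat.mul w (Nat.add (Nat.mul S (Nat.add (Nat.add p v) 3))
    (Nat.add (Nat.add p v) 4)))) (Nat.shiftLeft 1 (Nat.mul w n))

/-- `M` is the slack `N - (4 p + q + r)`. -/
noncomputable def rpk (w S β z p M : ℕ) : ℕ :=
  frc (Nat.shiftLeft 1 w) fun W => frc (Nat.shiftLeft 1 β) fun B =>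
  @Nat.rec (fun _ => ℕ) 0 (fun v ih =>
    frc (Nat.succ (Nat.div (Nat.sub M (Nat.mul 3 v)) 2)) fun n =>
      Nat.add ih (Nat.shiftLeft (rrow w W B (rslice w S z p v n) n) (Nat.mul 2920 v)))
    (Nat.succ (Nat.div M 3))

noncomputable def repack (w S C β N : ℕ) (T : ℕ → ℕ → ℕ → ℕ) (p q r : ℕ) : ℕ :=
  frc (Nat.add (Nat.add (Nat.mul 4 p) q) r) fun m =>
  cnd% (Nat.ble m N) (frc (Nat.sub N m) fun M => rpk w S β (zt w S C β T p q r) p M) 0

/-- Check that `L` is the repacked table. -/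
noncomputable def chkL (w S C β N : ℕ) (P : ℕ → ℕ → ℕ) (T L : ℕ → ℕ → ℕ → ℕ) (p0 n : ℕ) : Bool :=
  allLt n fun i => frc (Nat.add p0 i) fun p =>
    allLt (Nat.succ p) fun q => allLt (Nat.succ q) fun r =>
      cndb% (Nat.ble (Nat.add p 2) (P (Nat.succ q) r))
        (Nat.beq (L p q r) (repack w S C β N T p q r)) true

/-! ### Pieri step -/

/-- All lanes of the first 50 rows, except those of column `0`. -/
noncomputable def nc0 : ℕ :=
  Nat.mul (Nat.div (Nat.sub (Nat.shiftLeft 1 146000) 1) (Nat.sub (Nat.shiftLeft 1 2920) 1))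
    (Nat.sub (Nat.shiftLeft 1 2920) (Nat.shiftLeft 1 40))

noncomputable def trow (M : ℕ) : ℕ :=
  Nat.sub (Nat.shiftLeft 1 (Nat.mul 40 (Nat.succ (Nat.div M 2)))) 1

/-- The mask of the lanes `(u, v)` with `2 u + 3 v ≤ M`. -/
noncomputable def tri (M : ℕ) : ℕ :=
  frc (Nat.mod M 3) fun e =>
  @Nat.rec (fun _ => ℕ) (trow e) (fun n ih =>
    Nat.add (trow (Nat.add e (Nat.mul 3 (Nat.succ n)))) (Nat.shiftLeft ih 2920)) (Nat.div M 3)

noncomputable def p5 (t : ℕ → ℕ → ℕ) (j p q r : ℕ) : ℕ :=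
  cnd% (Nat.ble (Nat.add j r) q) (frc (Nat.sub q j) fun q' => t p q') 0

notation "p4% " t:max =>
  @Nat.rec (fun _ => ℕ → ℕ → ℕ → ℕ) (fun p q r => p5 t 0 p q r) (fun j ih p q r =>
    frc (Nat.succ j) fun j1 =>
    cnd% (Nat.blt q p)
      (frc (Nat.pred p) fun p' =>
        cnd% (Nat.ble (Nat.add j1 r) q)
          (Nat.add (p5 t j1 p q r) (Nat.shiftRight (ih p' q r) 2920))
          (Nat.shiftRight (ih p' q r) 2920))
      (p5 t j1 p q r))

notation "p3% " g:max j0:max p:max q:max r:max =>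
  @Nat.rec (fun _ => ℕ) 0 (fun i ih => frc (Nat.add j0 i) fun j =>
    Nat.add (g j p q r) (Nat.shiftLeft (Nat.land ih nc0) 2880))

notation "p2% " g:max m0:max =>
  @Nat.rec (fun _ => ℕ) 0 (fun i ih => frc (Nat.succ i) fun i1 => frc (Nat.add m0 i) fun M =>
    Nat.land (Nat.add (g i1) (Nat.shiftLeft ih 40)) (tri M))

noncomputable def p1 (g : ℕ → ℕ) (n : ℕ) : ℕ :=
  @Nat.rec (fun _ => ℕ) 0 (fun i ih => frc (Nat.succ i) fun i1 => Nat.add ih (g i1)) n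

/-- The Pieri step; `t` has degree `N0` and at most five rows, the strip has size `d`. -/
noncomputable def pieri (t : ℕ → ℕ → ℕ) (N0 d p q r : ℕ) : ℕ :=
  frc (Nat.add (Nat.mul 4 p) q) fun m =>
  frc (Nat.sub m N0) fun j0 => frc (Nat.sub N0 m) fun m0 =>
  p1 (p2% (p3% (p4% t) j0 p q r) m0) (Nat.sub (Nat.succ d) (Nat.add r j0))

/-- `∑_{i < 73 n} 2^(40 i)`. -/
noncomputable def ones40 (n : ℕ) : ℕ :=
  Nat.div (Nat.sub (Nat.shiftLeft 1 (Nat.mul 2920 n)) 1) 1099511627775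

noncomputable def hi40 (β : ℕ) : ℕ :=
  Nat.mul (ones40 50) (Nat.sub 1099511627776 (Nat.shiftLeft 1 β))

noncomputable def t0f (w β b : ℕ) (T : ℕ → ℕ → ℕ → ℕ) (p q : ℕ) : ℕ :=
  cnd% (Nat.beq q 0) (repack w (Nat.add (Nat.mul 4 b) 6) (Nat.add (Nat.mul 4 b) 15) β
    (Nat.mul 4 b) T p 0 0) 0

/-- Check that `t1` is the result of the first Pieri step and is bounded by `2^β1`. -/
noncomputable def chkP (t : ℕ → ℕ → ℕ) (N0 d β1 : ℕ) (t1 : ℕ → ℕ → ℕ) (n : ℕ) : Bool :=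
  allLt n fun p => allLt (Nat.succ p) fun q =>
    cndb% (Nat.ble (Nat.add (Nat.mul 4 p) q) (Nat.add N0 d))
      (cndb% (Nat.beq (t1 p q) (pieri t N0 d p q 0))
        (cndb% (Nat.blt (t1 p q) (Nat.shiftLeft 1 146000))
          (Nat.beq (Nat.land (t1 p q) (hi40 β1)) 0) false) false) true

/-! ### The cover check -/

noncomputable def grd (n : ℕ) : ℕ := Nat.shiftLeft (ones40 n) 39

noncomputable def dig (x i : ℕ) : ℕ := Nat.mod (Nat.shiftRight x (Nat.mul 8 i)) 256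

/-- The shift `x` encodes `(c, μ4, μ5, μ6, μ2 - μ3, μ3 - μ4)`; it is usable if the lower table is
positive there. -/
noncomputable def okS (lo : ℕ → ℕ → ℕ → ℕ → ℕ) (x : ℕ) : Bool :=
  frc (dig x 0) fun c => frc (dig x 1) fun p => frc (dig x 2) fun q => frc (dig x 3) fun r =>
  cndb% (Nat.blt (dig x 4) 73)
    (Nat.blt 0 (Nat.mod (Nat.shiftRight (lo c p q r)
      (Nat.mul 40 (Nat.add (dig x 4) (Nat.mul 73 (dig x 5))))) 1099511627776)) false

/-- The lower table shifted by `x`. -/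
noncomputable def shf (lo : ℕ → ℕ → ℕ → ℕ → ℕ) (b p q r x : ℕ) : ℕ :=
  cnd% (okS lo x && Nat.ble (dig x 0) b && Nat.ble (dig x 1) p && Nat.ble (dig x 2) q &&
      Nat.ble (dig x 3) r)
    (frc (Nat.sub b (dig x 0)) fun b' => frc (Nat.sub p (dig x 1)) fun p' =>
      frc (Nat.sub q (dig x 2)) fun q' => frc (Nat.sub r (dig x 3)) fun r' =>
      Nat.shiftLeft (lo b' p' q' r') (Nat.mul 40 (Nat.add (dig x 4) (Nat.mul 73 (dig x 5)))))
    0

noncomputable def cov1 (lo : ℕ → ℕ → ℕ → ℕ → ℕ) (b p q r G GU : ℕ) (ws : Tr) : ℕ :=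
  @Tr.rec (fun _ => ℕ) (fun _ => Nat.land GU G) (fun x _ _ ih => frc x.val fun x =>
    Nat.lor ih (Nat.land (Nat.add (shf lo b p q r x) GU) G)) ws

noncomputable def cov (lo : ℕ → ℕ → ℕ → ℕ → ℕ) (U : ℕ → ℕ → ℕ → ℕ) (b p q r : ℕ) (ws : Tr) : Bool :=
  frc (Nat.succ (Nat.div (Nat.sub (Nat.mul 6 b) (Nat.add (Nat.add (Nat.mul 4 p) q) r)) 3)) fun n =>
  Nat.beq (cov1 lo b p q r (grd n)
    (Nat.sub (grd n) (Nat.mod (U p q r) (Nat.shiftLeft 1 (Nat.mul 2920 n)))) ws) (grd n)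

/-- The lower table: `L1` for levels `≤ 14`, `L2` on the thin region above. -/
noncomputable def lof (L1 L2 : ℕ → ℕ → ℕ → ℕ → ℕ) (b p q r : ℕ) : ℕ :=
  cnd% (Nat.ble q p && Nat.ble r q && Nat.ble (Nat.add (Nat.add (Nat.mul 4 p) q) r) (Nat.mul 6 b))
    (cnd% (Nat.ble b 14) (L1 b p q r)
      (cnd% (Nat.ble b 24 && Nat.ble (Nat.add p 2) (pthinS (Nat.succ q) r)) (L2 b p q r) 0)) 0

/-- Cover check on the triples with `r0 ≤ r < r0 + n` selected by `sel`. -/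
noncomputable def chkC (lo : ℕ → ℕ → ℕ → ℕ → ℕ) (U : ℕ → ℕ → ℕ → ℕ) (sel : ℕ → ℕ → ℕ → Bool)
    (W : Tr) (b r0 n : ℕ) : Bool :=
  allLt n fun i => frc (Nat.add r0 i) fun r =>
    allLt (Nat.succ (Nat.div (Nat.mul 6 b) 4)) fun p => allLt (Nat.succ p) fun q =>
      cndb% (Nat.ble r q && Nat.ble (Nat.add (Nat.add (Nat.mul 4 p) q) r) (Nat.mul 6 b) && sel p q r)
        (cov lo U b p q r (((W.nth r).nth p).nth q)) true

end Crest.Agent.R187.K
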