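import Crest.Agent.R187.KDefs

/-! Further executable definitions: compact storage of tables, tables computed inside a check. -/

set_option autoImplicit false

namespace Crest.Agent.R187.K

/-- Trees whose leaves are numbers given row by row (blocks of five rows). -/
inductive Tq : Type
  | nil : Tq
  | pos (m : ℕ) (t : Tq) : Tq
  | neg (m : ℕ) (t : Tq) : Tq
  | zer (t : Tq) : Tq
  | posB (b t : Tq) : Tq
  | negB (b t : Tq) : Tq
  | zerB (t : Tq) : Tq
  | nd (a b : Tq) : Tq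

noncomputable def Tq.hd (t : Tq) : Tq :=
  @Tq.rec (fun _ => Tq) Tq.nil (fun _ _ _ => Tq.nil) (fun _ _ _ => Tq.nil) (fun _ _ => Tq.nil)
    (fun _ _ _ _ => Tq.nil) (fun _ _ _ _ => Tq.nil) (fun _ _ => Tq.nil) (fun a _ _ _ => a) t

noncomputable def Tq.tl (t : Tq) : Tq :=
  @Tq.rec (fun _ => Tq) Tq.nil (fun _ _ _ => Tq.nil) (fun _ _ _ => Tq.nil) (fun _ _ => Tq.nil)
    (fun _ _ _ _ => Tq.nil) (fun _ _ _ _ => Tq.nil) (fun _ _ => Tq.nil) (fun _ b _ _ => b) t

noncomputable def Tq.nth (t : Tq) (n : ℕ) : Tq :=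
  Tq.hd (@Nat.rec (fun _ => Tq) t (fun _ ih => Tq.tl ih) n)

noncomputable def Tq.asm (rb rb5 : ℕ) (t : Tq) : ℕ :=
  @Tq.rec (fun _ => ℕ) 0 (fun m _ ih => Nat.add (Nat.shiftLeft ih rb) m)
    (fun m _ ih => Nat.sub (Nat.shiftLeft ih rb) m) (fun _ ih => Nat.shiftLeft ih rb)
    (fun _ _ ib ih => Nat.add (Nat.shiftLeft ih rb5) ib)
    (fun _ _ ib ih => Nat.sub (Nat.shiftLeft ih rb5) ib) (fun _ ih => Nat.shiftLeft ih rb5)
    (fun _ _ _ _ => 0) t

/-- A signed entry modulo `M`. -/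
noncomputable def Tq.ent (M rb rb5 : ℕ) (t : Tq) : ℕ :=
  @Tq.rec (fun _ => ℕ) 0 (fun _ _ _ => 0) (fun _ _ _ => 0) (fun t _ => Tq.asm rb rb5 t)
    (fun _ _ _ _ => 0) (fun _ _ _ _ => 0) (fun t _ => Nat.sub M (Tq.asm rb rb5 t))
    (fun _ _ _ _ => 0) t

/-- Entries are boxed, so that the kernel evaluates them only once. -/
noncomputable def Tq.boxS (t : Tq) (i p q r : ℕ) : Tr :=
  frc (Nat.add (Nat.add p q) r) fun s =>
    frc (Tq.ent (md 48 90 99 s) 4320 21600 ((((t.nth i).nth p).nth q).nth r)) Tr.lf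

/-- The stored table of the full `S` family. -/
noncomputable def Tq.getS (t : Tq) (i p q r : ℕ) : ℕ := (t.boxS i p q r).val

noncomputable def Tq.box4 (t : Tq) (i p q r : ℕ) : Tr :=
  frc (Tq.asm 2920 14600 ((((t.nth i).nth p).nth q).nth r)) Tr.lf

noncomputable def Tq.get4 (t : Tq) (i p q r : ℕ) : ℕ := (t.box4 i p q r).val

noncomputable def Tq.box2 (t : Tq) (p q : ℕ) : Tr :=
  frc (Tq.asm 2920 14600 ((t.nth p).nth q)) Tr.lf

noncomputable def Tq.get2 (t : Tq) (p q : ℕ) : ℕ := (t.box2 p q).val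

/-- `chk1` for an arbitrary candidate value `x`. -/
noncomputable def chk1x (w S C d β : ℕ) (T : ℕ → ℕ → ℕ → ℕ → ℕ) (a x p q r : ℕ) : Bool :=
  frc (Nat.add (Nat.add p q) r) fun s =>
  cndb% (Nat.beq (Nat.mod (Nat.mul a x) (md w S C s))
      (Nat.mod (rhs w S C d T a p q r s) (md w S C s)))
    (cndb% (Nat.ble x (md w S C s))
      (Nat.beq (Nat.land (Nat.mod (Nat.add x (bias w S C β s)) (md w S C s))
        (himask w S C β s)) 0) false) false

/-- Candidate value at level zero. -/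
noncomputable def tz (w S C p q r : ℕ) : ℕ :=
  cnd% (Nat.ble p 5) (frc (Nat.add (Nat.add p q) r) fun s => Int.natAbs (Int.emod
    (vprod (Int.ofNat (Nat.shiftLeft 1 w)) (Int.ofNat (Nat.shiftLeft 1 (Nat.mul w S))) vpairs p q r)
    (Int.ofNat (md w S C s)))) 0

/-- Candidate value at level `a`. -/
noncomputable def newt (w S C d β : ℕ) (T : ℕ → ℕ → ℕ → ℕ → ℕ) (a p q r : ℕ) : ℕ :=
  frc (Nat.add (Nat.add p q) r) fun s =>
  Nat.mod (Nat.sub (Nat.add (Nat.div (Nat.mod (Nat.add (rhs w S C d T a p q r s)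
    (Nat.mul a (bias w S C β s))) (md w S C s)) a) (md w S C s)) (bias w S C β s)) (md w S C s)

noncomputable def newtB (w S C d β : ℕ) (T : ℕ → ℕ → ℕ → ℕ → ℕ) (a p q r : ℕ) : Tr :=
  frc (newt w S C d β T a p q r) Tr.lf

noncomputable def tzB (w S C p q r : ℕ) : Tr := frc (tz w S C p q r) Tr.lf

notation "TT% " w:max S:max C:max d:max β:max =>
  @Nat.rec (fun _ => ℕ → ℕ → ℕ → ℕ → ℕ) (fun _ p q r => Tr.val (tzB w S C p q r)) (fun n ih i p q r =>
    cnd% (Nat.ble i n) (ih i p q r)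
      (frc (Nat.succ n) fun a => Tr.val (newtB w S C d β ih a p q r)))

/-- The table with levels `≤ n`, computed by the Newton recursion. -/
noncomputable def famT (w S C d β n : ℕ) : ℕ → ℕ → ℕ → ℕ → ℕ := (TT% w S C d β) n

noncomputable def lvlx (w S C d β β' : ℕ) (P : ℕ → ℕ → ℕ) (T : ℕ → ℕ → ℕ → ℕ → ℕ) (a n : ℕ) : Bool :=
  allLt n fun p => allLt p fun q => allLt q fun r =>
    cndb% (Nat.ble p (P q r)) (chk1x w S C d β T a (Tr.val (newtB w S C d β' T a p q r)) p q r) true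

/-- Levels `0, …, A` with bound `β` and level `A + 1` with bound `β'` of `famT`. -/
noncomputable def chkIn (w S C d β β' : ℕ) (P : ℕ → ℕ → ℕ) (A n : ℕ) : Bool :=
  cndb% (chkz w S C β P ((TT% w S C d β') 0) n)
    (cndb% (allLt A fun i => frc (Nat.succ i) fun a => lvlx w S C d β β' P ((TT% w S C d β') i) a n)
      (frc A fun i => frc (Nat.succ i) fun a => lvlx w S C d β' β' P ((TT% w S C d β') i) a n)
      false) false

noncomputable def selA (p q r : ℕ) : Bool := Nat.ble (Nat.add p 2) (pthinA (Nat.succ q) r)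
noncomputable def selU (p q r : ℕ) : Bool := Nat.blt (pthinA (Nat.succ q) r) (Nat.add p 2)
noncomputable def selT (_ _ _ : ℕ) : Bool := true

/-- Conjunction, evaluated in one kernel run. -/
noncomputable def both (x y : Bool) : Bool := cndb% x y false

noncomputable def chkL2 (L : ℕ → ℕ → ℕ → ℕ → ℕ) : Bool :=
  allLt 10 fun i => frc (Nat.add 15 i) fun a => frc (Nat.mul a 6) fun N =>
    chkL 53 150 159 39 N pthinS (famT 53 150 159 6 39 24 a) (L a) 0 7

end Crest.Agent.R187.K
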