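import Crest.Agent.R187.KAsm
import Crest.Agent.R187.KC1
import Crest.Agent.R187.KC2
import Crest.Agent.R187.KC3
import Crest.Agent.R187.KC4
import Crest.Agent.R187.KC5
import Crest.Agent.R187.KC6
import Crest.Agent.R187.KC7
import Crest.Agent.R187.KC8
import Crest.Agent.R187.KC9
import Crest.Agent.R187.KC10
import Crest.Agent.R187.KC11

/-! The numerical inequality `mA b ≤ mS b` for `7 ≤ b ≤ 24`. -/

set_option autoImplicit false

namespace Crest.Agent.R187.K

theorem invS1 : ∀ a, a ≤ 14 → Inv 48 90 99 6 39 (pfull 93) dS1.hd.getS a := by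
  refine inv_top (β := 35) (A := 13) (n := 24) (antiP_pfull 93) (by decide) (by norm_num) (by norm_num) (by norm_num)
    (by norm_num) (by norm_num [Nat.choose]) cS1_z ?_ ?_
  · intro a h1 h2
    interval_cases a
    · exact (Lvl.zero.step cS1_1_0)
    · exact (Lvl.zero.step cS1_2_0)
    · exact (Lvl.zero.step cS1_3_0)
    · exact (Lvl.zero.step cS1_4_0)
    · exact ((Lvl.zero.step cS1_5_0).step cS1_5_16)
    · exact ((Lvl.zero.step cS1_6_0).step cS1_6_16)
    · exact (((Lvl.zero.step cS1_7_0).step cS1_7_14).step cS1_7_17)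
    · exact (((Lvl.zero.step cS1_8_0).step cS1_8_14).step cS1_8_17)
    · exact ((((Lvl.zero.step cS1_9_0).step cS1_9_13).step cS1_9_16).step cS1_9_18)
    · exact ((((Lvl.zero.step cS1_10_0).step cS1_10_13).step cS1_10_16).step cS1_10_18)
    · exact ((((((Lvl.zero.step cS1_11_0).step cS1_11_12).step cS1_11_14).step cS1_11_16).step cS1_11_18).step cS1_11_20)
    · exact ((((((Lvl.zero.step cS1_12_0).step cS1_12_12).step cS1_12_14).step cS1_12_16).step cS1_12_18).step cS1_12_20)
    · exact ((((((Lvl.zero.step cS1_13_0).step cS1_13_12).step cS1_13_14).step cS1_13_16).step cS1_13_18).step cS1_13_20)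
  · exact ((((((Lvl.zero.step cS1_14_0).step cS1_14_12).step cS1_14_14).step cS1_14_16).step cS1_14_18).step cS1_14_20)

theorem invS2 : ∀ a, a ≤ 24 → Inv 53 150 159 6 39 pthinS (famT 53 150 159 6 39 24) a :=
  inv_of_chkIn antiP_pthinS (by decide) (by norm_num) (by norm_num) (by norm_num) (by norm_num)
    (by norm_num [Nat.choose]) (both_iff.1 cS2).1

theorem loS : Lo (lof dS1.tl.get4 dS2.get4) := by
  refine lo_of_inv invS1 invS2 ?_ (chkL2_sound (both_iff.1 cS2).2)
  intro a h
  interval_cases a
  · exact cL1_0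
  · exact cL1_1
  · exact cL1_2
  · exact cL1_3
  · exact cL1_4
  · exact cL1_5
  · exact cL1_6
  · exact cL1_7
  · exact cL1_8
  · exact cL1_9
  · exact cL1_10
  · exact cL1_11
  · exact cL1_12
  · exact cL1_13
  · exact cL1_14

theorem level7 : ∀ l : Fin 6 → ℕ, Antitone l → mA 7 l ≤ mS 7 l := by
  refine level_small loS (by norm_num) (T := famT 21 48 57 7 12 6) ?_ (Cvl.zero.step (both_iff.1 cA7).2)
  exact inv_of_chkIn (antiP_pfull _) (by decide) (by norm_num) (by norm_num) (by norm_num) (by norm_num)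
    (by norm_num [Nat.choose]) (both_iff.1 cA7).1 6 le_rfl

theorem level8 : ∀ l : Fin 6 → ℕ, Antitone l → mA 8 l ≤ mS 8 l := by
  refine level_small loS (by norm_num) (T := famT 21 54 63 8 12 6) ?_ (Cvl.zero.step (both_iff.1 cA8).2)
  exact inv_of_chkIn (antiP_pfull _) (by decide) (by norm_num) (by norm_num) (by norm_num) (by norm_num)
    (by norm_num [Nat.choose]) (both_iff.1 cA8).1 6 le_rfl

theorem level9 : ∀ l : Fin 6 → ℕ, Antitone l → mA 9 l ≤ mS 9 l := by
  refine level_small loS (by norm_num) (T := famT 21 60 69 9 12 6) ?_ (Cvl.zero.step (both_iff.1 cA9).2)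
  exact inv_of_chkIn (antiP_pfull _) (by decide) (by norm_num) (by norm_num) (by norm_num) (by norm_num)
    (by norm_num [Nat.choose]) (both_iff.1 cA9).1 6 le_rfl

theorem level10 : ∀ l : Fin 6 → ℕ, Antitone l → mA 10 l ≤ mS 10 l := by
  refine level_large loS (by norm_num) (T := famT 35 66 75 10 22 6) (T' := famT 23 46 55 10 7 4) ?_ ?_
    (by norm_num) (both_iff.1 cH10).2 (Cvl.zero.step (both_iff.1 cA10).2)
    (Cvl.zero.step cU10_0)
  · exact inv_of_chkIn antiP_pthinA (by decide) (by norm_num) (by norm_num) (by norm_num) (by norm_num)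
      (by norm_num [Nat.choose]) (both_iff.1 cA10).1 6 le_rfl
  · exact inv_of_chkIn (antiP_pfour _) (by decide) (by norm_num) (by norm_num) (by norm_num) (by norm_num)
      (by norm_num [Nat.choose]) (both_iff.1 cH10).1 4 le_rfl

theorem level11 : ∀ l : Fin 6 → ℕ, Antitone l → mA 11 l ≤ mS 11 l := by
  refine level_large loS (by norm_num) (T := famT 35 72 81 11 22 6) (T' := famT 23 50 59 11 7 4) ?_ ?_
    (by norm_num) (both_iff.1 cH11).2 (Cvl.zero.step (both_iff.1 cA11).2)
    (Cvl.zero.step cU11_0)
  · exact inv_of_chkIn antiP_pthinA (by decide) (by norm_num) (by norm_num) (by norm_num) (by norm_num)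
      (by norm_num [Nat.choose]) (both_iff.1 cA11).1 6 le_rfl
  · exact inv_of_chkIn (antiP_pfour _) (by decide) (by norm_num) (by norm_num) (by norm_num) (by norm_num)
      (by norm_num [Nat.choose]) (both_iff.1 cH11).1 4 le_rfl

theorem level12 : ∀ l : Fin 6 → ℕ, Antitone l → mA 12 l ≤ mS 12 l := by
  refine level_large loS (by norm_num) (T := famT 35 78 87 12 22 6) (T' := famT 23 54 63 12 7 4) ?_ ?_
    (by norm_num) (both_iff.1 cH12).2 (Cvl.zero.step (both_iff.1 cA12).2)
    (Cvl.zero.step cU12_0)
  · exact inv_of_chkIn antiP_pthinA (by decide) (by norm_num) (by norm_num) (by norm_num) (by norm_num)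
      (by norm_num [Nat.choose]) (both_iff.1 cA12).1 6 le_rfl
  · exact inv_of_chkIn (antiP_pfour _) (by decide) (by norm_num) (by norm_num) (by norm_num) (by norm_num)
      (by norm_num [Nat.choose]) (both_iff.1 cH12).1 4 le_rfl

theorem level13 : ∀ l : Fin 6 → ℕ, Antitone l → mA 13 l ≤ mS 13 l := by
  refine level_large loS (by norm_num) (T := famT 35 84 93 13 22 6) (T' := famT 23 58 67 13 7 4) ?_ ?_
    (by norm_num) (both_iff.1 cH13).2 (Cvl.zero.step (both_iff.1 cA13).2)
    (Cvl.zero.step cU13_0)
  · exact inv_of_chkIn antiP_pthinA (by decide) (by norm_num) (by norm_num) (by norm_num) (by norm_num)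
      (by norm_num [Nat.choose]) (both_iff.1 cA13).1 6 le_rfl
  · exact inv_of_chkIn (antiP_pfour _) (by decide) (by norm_num) (by norm_num) (by norm_num) (by norm_num)
      (by norm_num [Nat.choose]) (both_iff.1 cH13).1 4 le_rfl

theorem level14 : ∀ l : Fin 6 → ℕ, Antitone l → mA 14 l ≤ mS 14 l := by
  refine level_large loS (by norm_num) (T := famT 35 90 99 14 22 6) (T' := famT 23 62 71 14 7 4) ?_ ?_
    (by norm_num) (both_iff.1 cH14).2 (Cvl.zero.step (both_iff.1 cA14).2)
    (Cvl.zero.step cU14_0)
  · exact inv_of_chkIn antiP_pthinA (by decide) (by norm_num) (by norm_num) (by norm_num) (by norm_num)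
      (by norm_num [Nat.choose]) (both_iff.1 cA14).1 6 le_rfl
  · exact inv_of_chkIn (antiP_pfour _) (by decide) (by norm_num) (by norm_num) (by norm_num) (by norm_num)
      (by norm_num [Nat.choose]) (both_iff.1 cH14).1 4 le_rfl

theorem level15 : ∀ l : Fin 6 → ℕ, Antitone l → mA 15 l ≤ mS 15 l := by
  refine level_large loS (by norm_num) (T := famT 35 96 105 15 22 6) (T' := famT 23 66 75 15 7 4) ?_ ?_
    (by norm_num) (both_iff.1 cH15).2 (Cvl.zero.step (both_iff.1 cA15).2)
    (Cvl.zero.step cU15_0)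
  · exact inv_of_chkIn antiP_pthinA (by decide) (by norm_num) (by norm_num) (by norm_num) (by norm_num)
      (by norm_num [Nat.choose]) (both_iff.1 cA15).1 6 le_rfl
  · exact inv_of_chkIn (antiP_pfour _) (by decide) (by norm_num) (by norm_num) (by norm_num) (by norm_num)
      (by norm_num [Nat.choose]) (both_iff.1 cH15).1 4 le_rfl

theorem level16 : ∀ l : Fin 6 → ℕ, Antitone l → mA 16 l ≤ mS 16 l := by
  refine level_large loS (by norm_num) (T := famT 35 102 111 16 22 6) (T' := famT 23 70 79 16 7 4) ?_ ?_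
    (by norm_num) (both_iff.1 cH16).2 (Cvl.zero.step (both_iff.1 cA16).2)
    (Cvl.zero.step cU16_0)
  · exact inv_of_chkIn antiP_pthinA (by decide) (by norm_num) (by norm_num) (by norm_num) (by norm_num)
      (by norm_num [Nat.choose]) (both_iff.1 cA16).1 6 le_rfl
  · exact inv_of_chkIn (antiP_pfour _) (by decide) (by norm_num) (by norm_num) (by norm_num) (by norm_num)
      (by norm_num [Nat.choose]) (both_iff.1 cH16).1 4 le_rfl

theorem level17 : ∀ l : Fin 6 → ℕ, Antitone l → mA 17 l ≤ mS 17 l := by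
  refine level_large loS (by norm_num) (T := famT 35 108 117 17 22 6) (T' := famT 23 74 83 17 7 4) ?_ ?_
    (by norm_num) (both_iff.1 cH17).2 (Cvl.zero.step (both_iff.1 cA17).2)
    (Cvl.zero.step cU17_0)
  · exact inv_of_chkIn antiP_pthinA (by decide) (by norm_num) (by norm_num) (by norm_num) (by norm_num)
      (by norm_num [Nat.choose]) (both_iff.1 cA17).1 6 le_rfl
  · exact inv_of_chkIn (antiP_pfour _) (by decide) (by norm_num) (by norm_num) (by norm_num) (by norm_num)
      (by norm_num [Nat.choose]) (both_iff.1 cH17).1 4 le_rfl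

theorem level18 : ∀ l : Fin 6 → ℕ, Antitone l → mA 18 l ≤ mS 18 l := by
  refine level_large loS (by norm_num) (T := famT 35 114 123 18 22 6) (T' := famT 23 78 87 18 7 4) ?_ ?_
    (by norm_num) (both_iff.1 cH18).2 (Cvl.zero.step (both_iff.1 cA18).2)
    (Cvl.zero.step cU18_0)
  · exact inv_of_chkIn antiP_pthinA (by decide) (by norm_num) (by norm_num) (by norm_num) (by norm_num)
      (by norm_num [Nat.choose]) (both_iff.1 cA18).1 6 le_rfl
  · exact inv_of_chkIn (antiP_pfour _) (by decide) (by norm_num) (by norm_num) (by norm_num) (by norm_num)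
      (by norm_num [Nat.choose]) (both_iff.1 cH18).1 4 le_rfl

theorem level19 : ∀ l : Fin 6 → ℕ, Antitone l → mA 19 l ≤ mS 19 l := by
  refine level_large loS (by norm_num) (T := famT 35 120 129 19 22 6) (T' := famT 23 82 91 19 7 4) ?_ ?_
    (by norm_num) (both_iff.1 cH19).2 (Cvl.zero.step (both_iff.1 cA19).2)
    ((Cvl.zero.step cU19_0).step cU19_4)
  · exact inv_of_chkIn antiP_pthinA (by decide) (by norm_num) (by norm_num) (by norm_num) (by norm_num)
      (by norm_num [Nat.choose]) (both_iff.1 cA19).1 6 le_rfl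
  · exact inv_of_chkIn (antiP_pfour _) (by decide) (by norm_num) (by norm_num) (by norm_num) (by norm_num)
      (by norm_num [Nat.choose]) (both_iff.1 cH19).1 4 le_rfl

theorem level20 : ∀ l : Fin 6 → ℕ, Antitone l → mA 20 l ≤ mS 20 l := by
  refine level_large loS (by norm_num) (T := famT 35 126 135 20 22 6) (T' := famT 23 86 95 20 7 4) ?_ ?_
    (by norm_num) (both_iff.1 cH20).2 (Cvl.zero.step (both_iff.1 cA20).2)
    ((Cvl.zero.step cU20_0).step cU20_3)
  · exact inv_of_chkIn antiP_pthinA (by decide) (by norm_num) (by norm_num) (by norm_num) (by norm_num)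
      (by norm_num [Nat.choose]) (both_iff.1 cA20).1 6 le_rfl
  · exact inv_of_chkIn (antiP_pfour _) (by decide) (by norm_num) (by norm_num) (by norm_num) (by norm_num)
      (by norm_num [Nat.choose]) (both_iff.1 cH20).1 4 le_rfl

theorem level21 : ∀ l : Fin 6 → ℕ, Antitone l → mA 21 l ≤ mS 21 l := by
  refine level_large loS (by norm_num) (T := famT 35 132 141 21 22 6) (T' := famT 23 90 99 21 7 4) ?_ ?_
    (by norm_num) (both_iff.1 cH21).2 (Cvl.zero.step (both_iff.1 cA21).2)
    ((Cvl.zero.step cU21_0).step cU21_3)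
  · exact inv_of_chkIn antiP_pthinA (by decide) (by norm_num) (by norm_num) (by norm_num) (by norm_num)
      (by norm_num [Nat.choose]) (both_iff.1 cA21).1 6 le_rfl
  · exact inv_of_chkIn (antiP_pfour _) (by decide) (by norm_num) (by norm_num) (by norm_num) (by norm_num)
      (by norm_num [Nat.choose]) (both_iff.1 cH21).1 4 le_rfl

theorem level22 : ∀ l : Fin 6 → ℕ, Antitone l → mA 22 l ≤ mS 22 l := by
  refine level_large loS (by norm_num) (T := famT 35 138 147 22 22 6) (T' := famT 23 94 103 22 7 4) ?_ ?_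
    (by norm_num) (both_iff.1 cH22).2 (Cvl.zero.step (both_iff.1 cA22).2)
    (((Cvl.zero.step cU22_0).step cU22_2).step cU22_6)
  · exact inv_of_chkIn antiP_pthinA (by decide) (by norm_num) (by norm_num) (by norm_num) (by norm_num)
      (by norm_num [Nat.choose]) (both_iff.1 cA22).1 6 le_rfl
  · exact inv_of_chkIn (antiP_pfour _) (by decide) (by norm_num) (by norm_num) (by norm_num) (by norm_num)
      (by norm_num [Nat.choose]) (both_iff.1 cH22).1 4 le_rfl

theorem level23 : ∀ l : Fin 6 → ℕ, Antitone l → mA 23 l ≤ mS 23 l := by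
  refine level_large loS (by norm_num) (T := famT 35 144 153 23 22 6) (T' := famT 23 98 107 23 7 4) ?_ ?_
    (by norm_num) (both_iff.1 cH23).2 (Cvl.zero.step (both_iff.1 cA23).2)
    (((Cvl.zero.step cU23_0).step cU23_2).step cU23_5)
  · exact inv_of_chkIn antiP_pthinA (by decide) (by norm_num) (by norm_num) (by norm_num) (by norm_num)
      (by norm_num [Nat.choose]) (both_iff.1 cA23).1 6 le_rfl
  · exact inv_of_chkIn (antiP_pfour _) (by decide) (by norm_num) (by norm_num) (by norm_num) (by norm_num)
      (by norm_num [Nat.choose]) (both_iff.1 cH23).1 4 le_rfl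

theorem level24 : ∀ l : Fin 6 → ℕ, Antitone l → mA 24 l ≤ mS 24 l := by
  refine level_large loS (by norm_num) (T := famT 35 150 159 24 22 6) (T' := famT 23 102 111 24 7 4) ?_ ?_
    (by norm_num) (both_iff.1 cH24).2 (Cvl.zero.step (both_iff.1 cA24).2)
    ((((Cvl.zero.step cU24_0).step cU24_2).step cU24_4).step cU24_7)
  · exact inv_of_chkIn antiP_pthinA (by decide) (by norm_num) (by norm_num) (by norm_num) (by norm_num)
      (by norm_num [Nat.choose]) (both_iff.1 cA24).1 6 le_rfl
  · exact inv_of_chkIn (antiP_pfour _) (by decide) (by norm_num) (by norm_num) (by norm_num) (by norm_num)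
      (by norm_num [Nat.choose]) (both_iff.1 cH24).1 4 le_rfl

theorem numeric (b : ℕ) (h1 : 7 ≤ b) (h2 : b ≤ 24) : ∀ l : Fin 6 → ℕ, Antitone l → mA b l ≤ mS b l := by
  interval_cases b
  · exact level7
  · exact level8
  · exact level9
  · exact level10
  · exact level11
  · exact level12
  · exact level13
  · exact level14
  · exact level15
  · exact level16
  · exact level17
  · exact level18
  · exact level19
  · exact level20
  · exact level21
  · exact level22
  · exact level23
  · exact level24

end Crest.Agent.R187.K
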