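import Crest.Agent.R187.KFam

/-!
Untrusted generators of the tables (ordinary programs, evaluated at elaboration time by `eval%`).
Nothing is proved about them: their output is checked by the kernel.
-/

set_option autoImplicit false

namespace Crest.Agent.R187.K

partial def Tr.toE : Tr → Lean.Expr
  | .lf n => Lean.mkApp (Lean.mkConst ``Tr.lf) (Lean.mkRawNatLit n)
  | .nd a b => Lean.mkApp2 (Lean.mkConst ``Tr.nd) a.toE b.toE

instance : Lean.ToExpr Tr := ⟨Tr.toE, Lean.mkConst ``Tr⟩

def trOf {α : Type} (f : α → Tr) (l : Array α) : Tr :=
  l.foldr (fun x t => Tr.nd (f x) t) (Tr.lf 0)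

abbrev T3 := Array (Array (Array ℕ))

def tr3 (t : T3) : Tr := trOf (trOf (trOf Tr.lf)) t
def tr4 (t : Array T3) : Tr := trOf tr3 t

def T3.get (t : T3) (p q r : ℕ) : ℕ := ((t.getD p #[]).getD q #[]).getD r 0

def gmd (w S C s : ℕ) : ℕ := 1 <<< (w * S * ((C - s) / 3))

def gdn (M : ℕ → ℕ) (T : T3) (p q r : ℕ) : ℕ :=
  let ng := fun x => if x == 0 then 0 else M (p + q + r) - x
  if q < p then
    if r < q then T.get p q r else if q < r then
      if r < p then ng (T.get p r q) else if p < r then T.get r p q else 0
    else 0
  else if p < q then
    if r < p then ng (T.get q p r) else if p < r then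
      if r < q then T.get q r p else if q < r then ng (T.get r q p) else 0
    else 0
  else 0

def ghc (w S k d : ℕ) : Array ℕ := Id.run do
  let mut h2 := 1
  let mut h3 := 1
  let mut res := #[1]
  for _ in [0:d] do
    h2 := 1 + (h2 <<< (w * k))
    h3 := h2 + (h3 <<< (w * S * k))
    res := res.push h3
  return res

def perms6 : List (List ℕ × Bool) :=
  let rec ins (x : ℕ) : List ℕ → List (List ℕ × Bool)
    | [] => [([x], false)]
    | y :: l => (x :: y :: l, false) :: (ins x l).map fun (t, s) => (y :: t, !s)
  [0, 1, 2, 3, 4, 5].foldl (fun acc x => acc.flatMap fun (t, s) =>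
    (ins x t).map fun (t', s') => (t', xor s s')) [([], false)]

def gen0 (w S C pmax : ℕ) (P : ℕ → ℕ → ℕ) : T3 := Id.run do
  let mut res : T3 := #[]
  for p in [0:pmax+1] do
    let mut pl := #[]
    for q in [0:p] do
      let mut row := #[]
      for r in [0:q] do
        if p ≤ P q r then
          let M := gmd w S C (p + q + r)
          let mut x := 0
          if p ≤ 5 then
            for (t, s) in perms6 do
              if t[3]! == p && t[4]! == q && t[5]! == r then
                let y := (1 <<< (w * (t[1]! + S * t[2]!))) % M
                x := if s then (x + M - y) % M else (x + y) % M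
          row := row.push x
      pl := pl.push row
    res := res.push pl
  return res

def genStep (w S C d β pmax : ℕ) (P : ℕ → ℕ → ℕ) (tabs : Array T3) : T3 := Id.run do
  let a := tabs.size
  let Ms : Array ℕ := (Array.range (3 * pmax + 1)).map (gmd w S C)
  let M := fun s => Ms.getD s 1
  let Bs : Array ℕ := Ms.map fun m => ((m - 1) / ((1 <<< w) - 1)) <<< β
  let Hs : Array (Array ℕ) := (Array.range (a + 1)).map fun k => ghc w S k d
  let mut res : T3 := #[]
  for p in [0:pmax+1] do
    -- the pairs (q, r) needed for output, and the bounding staircase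
    let mut acc : Array (Array ℕ) := #[]
    for q in [0:p] do
      let mut row := #[]
      for r in [0:q] do
        if p ≤ P q r then row := row.push 0
      acc := acc.push row
    -- `qmax r` = largest q with output (q, r') for some r' ≥ r
    let mut qmax : Array ℕ := #[]
    for q in [0:p] do
      let n := acc[q]!.size
      for r in [0:n] do
        if r < qmax.size then qmax := qmax.set! r q else qmax := qmax.push q
    for k in [1:a+1] do
      let T := tabs[a - k]!
      let H := Hs[k]!
      -- g6.(j).(q).(r)
      let mut prev5 : Array (Array ℕ) := #[]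
      let mut prev6 : Array (Array ℕ) := #[]
      let mut part := acc.map fun row => row.map fun _ => 0
      for j in [0:d+1] do
        if k * j ≤ 3 * p then
          let mut c5 : Array (Array ℕ) := #[]
          for r in [0:qmax.size] do
            let mut col := #[]
            for q in [0:qmax[r]!+1] do
              let x := if k * j ≤ p then gdn M T (p - k * j) q r else 0
              let y := if j ≥ 1 && k ≤ q then (prev5[r]!)[q - k]! else 0
              col := col.push (if x == 0 then y else if y == 0 then x else x + y)
            c5 := c5.push col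
          let mut c6 : Array (Array ℕ) := #[]
          for r in [0:qmax.size] do
            let mut col := #[]
            for q in [0:qmax[r]!+1] do
              if r < q && r < acc[q]!.size then
                let x := (c5[r]!)[q]!
                let y := if j ≥ 1 && k ≤ r then (prev6[r - k]!)[q]! else 0
                let z := if x == 0 then y else if y == 0 then x else x + y
                col := col.push z
                if z != 0 then
                  let h := H[d - j]! % M (p + q + r)
                  part := part.modify q fun row => row.modify r fun t => t + h * z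
              else col := col.push 0
            c6 := c6.push col
          prev5 := c5
          prev6 := c6
      for q in [0:p] do
        for r in [0:acc[q]!.size] do
          let t := (part[q]!)[r]! % M (p + q + r)
          acc := acc.modify q fun row => row.modify r fun u => u + t
    for q in [0:p] do
      for r in [0:acc[q]!.size] do
        let m := M (p + q + r)
        let b := Bs[p + q + r]!
        acc := acc.modify q fun row => row.modify r fun u => (((u + a * b) % m) / a + m - b) % m
    res := res.push acc
  return res

def genAll (w S C d β pmax : ℕ) (P : ℕ → ℕ → ℕ) (n : ℕ) : Array T3 := Id.run do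
  let mut tabs := #[gen0 w S C pmax P]
  for _ in [0:n] do
    tabs := tabs.push (genStep w S C d β pmax P tabs)
  return tabs

def gpfull (C q r : ℕ) : ℕ := (C - (q + r)) / 4

def gpfour (C q r : ℕ) : ℕ := if q + r ≤ 1 then C / 4 else 0

def gpthinS (q r : ℕ) : ℕ := if q + r ≤ 1 then 8 else 7 - (q + r)

def gpthinA (q r : ℕ) : ℕ :=
  if q ≤ 1 && r ≤ 0 then 10 else if q ≤ 2 && r ≤ 1 then 8 else if q ≤ 5 && r ≤ 0 then 7
  else if q ≤ 4 && r ≤ 3 then 6 else 0

/-- Reading a table back from a tree. -/
partial def Tr.toArr : Tr → Array Tr
  | .lf _ => #[]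
  | t => go t #[]
where go : Tr → Array Tr → Array Tr
  | .lf _, acc => acc
  | .nd a b, acc => go b (acc.push a)

def grepack (w S C β N : ℕ) (T : T3) (p q r : ℕ) : ℕ := Id.run do
  let m := 4 * p + q + r
  if N < m then return 0
  let M := N - m
  let s := p + q + r + 3
  let md := gmd w S C s
  let z := (T.get (p + 2) (q + 1) r + (((md - 1) / ((1 <<< w) - 1)) <<< β)) % md
  let mut res := 0
  for v in [0:M / 3 + 1] do
    let n := (M - 3 * v) / 2 + 1
    let row := (z >>> (w * (S * (p + v + 3) + (p + v + 4)))) % (1 <<< (w * n))
    let mut x := 0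
    for u in [0:n] do
      let y := (row >>> (w * u)) % (1 <<< w) - (1 <<< β)
      x := x + (y <<< (40 * u))
    res := res + (x <<< (2920 * v))
  return res

def grepackAll (w S C β N : ℕ) (P : ℕ → ℕ → ℕ) (T : T3) : T3 :=
  (Array.range (N / 4 + 1)).map fun p => (Array.range (p + 1)).map fun q =>
    ((Array.range (q + 1)).filter fun r => p + 2 ≤ P (q + 1) r && 4 * p + q + r ≤ N).map fun r =>
      grepack w S C β N T p q r

def gtri (M : ℕ) : ℕ := Id.run do
  let mut res := 0
  for v in [0:M / 3 + 1] do
    res := res + (((1 <<< (40 * ((M - 3 * v) / 2 + 1))) - 1) <<< (2920 * v))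
  return res

/-- The first Pieri step (output with at most five rows), as a table indexed by `(p, q)`. -/
def gpieri (t0 : Array ℕ) (N0 d : ℕ) : Array (Array ℕ) := Id.run do
  let nc := ((1 <<< 146000) - 1) / ((1 <<< 2920) - 1) * ((1 <<< 2920) - (1 <<< 40))
  let tris := (Array.range (N0 + d + 1)).map gtri
  let mut res := #[]
  for p in [0:(N0 + d) / 4 + 1] do
    let mut row := #[]
    for q in [0:p+1] do
      let m := 4 * p + q
      if m ≤ N0 + d then
        let j0 := m - N0
        let m0 := N0 - m
        let mut g3 := 0
        let mut g2 := 0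
        let mut g1 := 0
        for i in [0:d + 1 - j0] do
          let j := j0 + i
          let g4 := if q ≤ j && j ≤ p then (t0.getD (p + q - j) 0) >>> (2920 * (j - q)) else 0
          g3 := g4 + ((g3 &&& nc) <<< 2880)
          g2 := (g3 + (g2 <<< 40)) &&& tris[m0 + i]!
          g1 := g1 + g2
        row := row.push g1
    res := res.push row
  return res

/-- Largest absolute value of a lane (for choosing parameters). -/
def gmaxT (w S C β : ℕ) (T : T3) : ℕ := Id.run do
  let mut mx := 0
  for p in [0:T.size] do
    for q in [0:T[p]!.size] do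
      for r in [0:(T[p]!)[q]!.size] do
        let md := gmd w S C (p + q + r)
        let mut z := (T.get p q r + (((md - 1) / ((1 <<< w) - 1)) <<< β)) % md
        while z != 0 do
          let mut row := z % (1 <<< (w * S))
          z := z >>> (w * S)
          while row != 0 do
            let y := row % (1 <<< w)
            row := row >>> w
            if y - (1 <<< β) > mx then mx := y - (1 <<< β)
  return mx

partial def Tq.toE : Tq → Lean.Expr
  | .nil => Lean.mkConst ``Tq.nil
  | .pos m t => Lean.mkApp2 (Lean.mkConst ``Tq.pos) (Lean.mkRawNatLit m) t.toE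
  | .neg m t => Lean.mkApp2 (Lean.mkConst ``Tq.neg) (Lean.mkRawNatLit m) t.toE
  | .zer t => Lean.mkApp (Lean.mkConst ``Tq.zer) t.toE
  | .posB b t => Lean.mkApp2 (Lean.mkConst ``Tq.posB) b.toE t.toE
  | .negB b t => Lean.mkApp2 (Lean.mkConst ``Tq.negB) b.toE t.toE
  | .zerB t => Lean.mkApp (Lean.mkConst ``Tq.zerB) t.toE
  | .nd a b => Lean.mkApp2 (Lean.mkConst ``Tq.nd) a.toE b.toE

instance : Lean.ToExpr Tq := ⟨Tq.toE, Lean.mkConst ``Tq⟩

def tqOf {α : Type} (f : α → Tq) (l : Array α) : Tq :=
  l.foldr (fun x t => Tq.nd (f x) t) Tq.nil

/-- Drop trailing zeros. -/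
def trim (a : Array ℤ) : Array ℤ := Id.run do
  let mut a := a
  while a.size > 0 && a.back! == 0 do
    a := a.pop
  return a

/-- An end marker of value zero that makes the hash of a list depend on all its entries. -/
def salt (a : Array ℤ) : Tq :=
  Tq.nd (Tq.pos (a.foldl (fun s x => (s * 31 + x.natAbs) % 1000000007) 0) Tq.nil) Tq.nil

/-- Rows (lowest first, the top one positive) as a two-level list. -/
def tqRows (rows : Array ℤ) : Tq := Id.run do
  let nb := (rows.size + 4) / 5
  let mut res := if nb == 0 then Tq.nil else salt rows
  for j in [0:nb] do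
    let i := nb - 1 - j
    let blk := trim (rows.extract (5 * i) (5 * i + 5))
    if blk.size == 0 then res := Tq.zerB res
    else
      let sg := blk.back! > 0
      let l := blk.foldr (fun x t =>
        if x == 0 then Tq.zer t else if (x > 0) == sg then Tq.pos x.natAbs t
        else Tq.neg x.natAbs t) (salt blk)
      res := if sg then Tq.posB l res else Tq.negB l res
  return res

/-- A non-negative table entry of the common format. -/
def tqC (x : ℕ) : Tq := Id.run do
  let mut rows : Array ℤ := #[]
  let mut x := x
  while x != 0 do
    rows := rows.push (x % (1 <<< 2920) : ℕ)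
    x := x >>> 2920
  return tqRows rows

/-- A signed entry. -/
def tqS (w S C β s x : ℕ) : Tq := Id.run do
  let md := gmd w S C s
  let mut z := (x + (((md - 1) / ((1 <<< w) - 1)) <<< β)) % md
  let br : ℕ := (((1 <<< (w * S)) - 1) / ((1 <<< w) - 1)) <<< β
  let mut rows : Array ℤ := #[]
  for _ in [0:(C - s) / 3] do
    rows := rows.push (((z % (1 <<< (w * S)) : ℕ) : ℤ) - br)
    z := z >>> (w * S)
  rows := trim rows
  if rows.size == 0 then return Tq.nil
  if rows.back! > 0 then return Tq.zer (tqRows rows)
  return Tq.zerB (tqRows (rows.map fun y => -y))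

def tqC3 (t : T3) : Tq := tqOf (tqOf (tqOf tqC)) t

/-- Tables of the full `S` family together with their repacked forms. -/
def genS1 (n : ℕ) : Tq :=
  let tabs := genAll 48 90 99 6 39 23 (gpfull 93) n
  Tq.nd (tqOf (fun T : T3 => tqOf id (T.mapIdx fun p pl => tqOf id (pl.mapIdx fun q row =>
      tqOf id (row.mapIdx fun r x => tqS 48 90 99 39 (p + q + r) x)))) tabs)
    (tqOf tqC3 (tabs.mapIdx fun a T => grepackAll 48 90 99 39 (6 * a) (gpfull 93) T))

/-- The repacked thin tables of the `S` family. -/
def genS2 (n : ℕ) : Tq :=
  let tabs := genAll 53 150 159 6 39 8 gpthinS n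
  tqOf tqC3 (tabs.mapIdx fun a T =>
    if a ≤ 14 then #[] else grepackAll 53 150 159 39 (6 * a) gpthinS T)

/-- The first Pieri step. -/
def genH (w β b : ℕ) : Tq :=
  let tabs := genAll w (4 * b + 6) (4 * b + 15) b β (b + 2) (gpfour (4 * b + 8)) 4
  let t0 := (Array.range (b + 1)).map fun p =>
    grepack w (4 * b + 6) (4 * b + 15) β (4 * b) tabs[4]! p 0 0
  tqOf (tqOf tqC) (gpieri t0 (4 * b) b)

/-- Witness lists, indexed by `(r, p, q)`. -/
def genW (b : ℕ) (s : String) : Tr := Id.run do
  let a := s.toList.toArray.filterMap fun c => if c.toNat ≥ 48 then some (c.toNat - 48) else none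
  let N := 6 * b
  let mut pos := 0
  let mut res : Array (Array (Array (Array ℕ))) := #[]
  for r in [0:b+1] do
    let mut pl := #[]
    for p in [0:N / 4 + 1] do
      let mut row := #[]
      for q in [0:p+1] do
        let mut ws := #[]
        if r ≤ q && 4 * p + q + r ≤ N then
          let n := a.getD pos 0
          pos := pos + 1
          for _ in [0:n] do
            let mut x := 0
            for j in [0:6] do
              x := x + (a.getD (pos + j) 0 <<< (8 * j))
            pos := pos + 6
            ws := ws.push x
        row := row.push ws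
      pl := pl.push row
    res := res.push pl
  return tr4 res

end Crest.Agent.R187.K
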