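import Crest.Agent.R187.KSem

/-!
# Task K1: digits (`lane`) of sums, differences, shifts and bitwise operations

Hints: `testBit_lane` turns the bitwise statements into `Nat.eq_of_testBit_eq` computations; for `lane_add` induct on `i`
using `lane w x (i+1) = lane w (x / 2^w) i`.
-/

set_option autoImplicit false

namespace Crest.Agent.R187.K

theorem lane_lt (w x i : ℕ) : lane w x i < 2 ^ w := Nat.mod_lt _ (by positivity)

theorem lane_zero (w i : ℕ) : lane w 0 i = 0 := by simp [lane]

theorem lane_at_zero (w x : ℕ) : lane w x 0 = x % 2 ^ w := by simp [lane]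

theorem lane_succ (w x i : ℕ) : lane w x (i + 1) = lane w (x / 2 ^ w) i := by
  unfold lane
  rw [Nat.div_div_eq_div_mul, ← pow_add, mul_add, mul_one, add_comm]

theorem testBit_lane (w x i j : ℕ) :
    (lane w x i).testBit j = (decide (j < w) && x.testBit (w * i + j)) := by
  unfold lane
  rw [Nat.testBit_mod_two_pow, Nat.testBit_div_two_pow, add_comm]

theorem lane_eq_shift (w x i : ℕ) : lane w x i = (x >>> (w * i)) % 2 ^ w := by
  rw [Nat.shiftRight_eq_div_pow, lane]

theorem lane_land (w x y i : ℕ) : lane w (x &&& y) i = lane w x i &&& lane w y i := by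
  refine Nat.eq_of_testBit_eq fun j => ?_
  simp only [testBit_lane, Nat.testBit_and]
  cases decide (j < w) <;> simp

theorem lane_lor (w x y i : ℕ) : lane w (x ||| y) i = lane w x i ||| lane w y i := by
  refine Nat.eq_of_testBit_eq fun j => ?_
  simp only [testBit_lane, Nat.testBit_or]
  cases decide (j < w) <;> simp

theorem lane_shiftLeft (w x m i : ℕ) :
    lane w (x <<< (w * m)) i = if i < m then 0 else lane w x (i - m) := by
  refine Nat.eq_of_testBit_eq fun j => ?_
  by_cases hj : j < w
  · split_ifs with h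
    · have : w * (i + 1) ≤ w * m := Nat.mul_le_mul_left w h
      have h2 : ¬ w * i + j ≥ w * m := by rw [mul_add, mul_one] at this; omega
      simp [testBit_lane, Nat.testBit_shiftLeft, h2]
    · obtain ⟨k, rfl⟩ := Nat.exists_eq_add_of_le (not_lt.mp h)
      have h2 : w * (m + k) + j ≥ w * m := by rw [mul_add]; omega
      have h3 : w * (m + k) + j - w * m = w * k + j := by rw [mul_add]; omega
      simp [testBit_lane, Nat.testBit_shiftLeft, h2, h3]
  · split_ifs <;> simp [testBit_lane, hj]

theorem lane_shiftRight (w x m i : ℕ) : lane w (x >>> (w * m)) i = lane w x (i + m) := by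
  unfold lane
  rw [Nat.shiftRight_eq_div_pow, Nat.div_div_eq_div_mul, ← pow_add, mul_add, add_comm]

theorem lane_mod (w x n i : ℕ) : lane w (x % 2 ^ (w * n)) i = if i < n then lane w x i else 0 := by
  refine Nat.eq_of_testBit_eq fun j => ?_
  by_cases hj : j < w
  · split_ifs with h
    · have : w * (i + 1) ≤ w * n := Nat.mul_le_mul_left w h
      have h2 : w * i + j < w * n := by rw [mul_add, mul_one] at this; omega
      simp [testBit_lane, Nat.testBit_mod_two_pow, h2]
    · have : w * n ≤ w * i := Nat.mul_le_mul_left w (not_lt.mp h)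
      have h2 : ¬ w * i + j < w * n := by omega
      simp [testBit_lane, Nat.testBit_mod_two_pow, h2]
  · split_ifs <;> simp [testBit_lane, hj]

theorem lane_eq_zero_of_lt {w x n i : ℕ} (hx : x < 2 ^ (w * n)) (hi : n ≤ i) : lane w x i = 0 := by
  rw [← Nat.mod_eq_of_lt hx, lane_mod, if_neg (not_lt.mpr hi)]

/-- A single digit. -/
theorem lane_of_lt {w c : ℕ} (hc : c < 2 ^ w) (i : ℕ) : lane w c i = if i = 0 then c else 0 := by
  split_ifs with h
  · rw [h, lane_at_zero, Nat.mod_eq_of_lt hc]
  · exact lane_eq_zero_of_lt (n := 1) (by rwa [mul_one]) (Nat.one_le_iff_ne_zero.mpr h)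

theorem lane_add {w x y : ℕ} (h : ∀ j, lane w x j + lane w y j < 2 ^ w) (i : ℕ) :
    lane w (x + y) i = lane w x i + lane w y i := by
  induction i generalizing x y with
  | zero =>
    have := h 0
    simp only [lane_at_zero] at this ⊢
    rw [Nat.add_mod, Nat.mod_eq_of_lt this]
  | succ i ih =>
    have := h 0
    simp only [lane_at_zero] at this
    simp only [lane_succ]
    rw [Nat.add_div_eq_of_add_mod_lt this]
    exact ih fun j => by simpa only [lane_succ] using h (j + 1)

theorem le_of_lane_le {w x y : ℕ} (hw : 0 < w) (h : ∀ j, lane w y j ≤ lane w x j) : y ≤ x := by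
  induction y using Nat.strong_induction_on generalizing x with
  | _ y ih =>
    rcases Nat.eq_zero_or_pos y with rfl | hy
    · exact Nat.zero_le _
    have h1 := ih (y / 2 ^ w) (Nat.div_lt_self hy (Nat.one_lt_two_pow hw.ne')) (x := x / 2 ^ w)
      fun j => by simpa only [lane_succ] using h (j + 1)
    have h2 := h 0
    simp only [lane_at_zero] at h2
    rw [← Nat.div_add_mod x (2 ^ w), ← Nat.div_add_mod y (2 ^ w)]
    exact add_le_add (Nat.mul_le_mul_left _ h1) h2

theorem lane_sub {w x y : ℕ} (hw : 0 < w) (h : ∀ j, lane w y j ≤ lane w x j) (i : ℕ) :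
    lane w (x - y) i = lane w x i - lane w y i := by
  induction i generalizing x y with
  | zero =>
    have h1 := le_of_lane_le (x := x / 2 ^ w) (y := y / 2 ^ w) hw
      fun j => by simpa only [lane_succ] using h (j + 1)
    have h2 := h 0
    simp only [lane_at_zero] at h2 ⊢
    have h3 : x - y = 2 ^ w * (x / 2 ^ w - y / 2 ^ w) + (x % 2 ^ w - y % 2 ^ w) := by
      have h4 := Nat.div_add_mod x (2 ^ w)
      have h5 := Nat.div_add_mod y (2 ^ w)
      have h6 := Nat.mul_le_mul_left (2 ^ w) h1
      rw [Nat.mul_sub]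
      omega
    rw [h3, Nat.mul_add_mod, Nat.mod_eq_of_lt]
    exact lt_of_le_of_lt (Nat.sub_le _ _) (Nat.mod_lt _ (by positivity))
  | succ i ih =>
    have h0 : ∀ j, lane w (y / 2 ^ w) j ≤ lane w (x / 2 ^ w) j :=
      fun j => by simpa only [lane_succ] using h (j + 1)
    have h1 := le_of_lane_le hw h0
    have h2 := h 0
    simp only [lane_at_zero] at h2
    have h3 : x - y = 2 ^ w * (x / 2 ^ w - y / 2 ^ w) + (x % 2 ^ w - y % 2 ^ w) := by
      have h4 := Nat.div_add_mod x (2 ^ w)
      have h5 := Nat.div_add_mod y (2 ^ w)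
      have h6 := Nat.mul_le_mul_left (2 ^ w) h1
      rw [Nat.mul_sub]
      omega
    simp only [lane_succ]
    rw [h3, Nat.mul_add_div (by positivity), Nat.div_eq_of_lt
      (lt_of_le_of_lt (Nat.sub_le _ _) (Nat.mod_lt _ (by positivity))), add_zero]
    exact ih h0

theorem lane_digit {w c : ℕ} (hc : c < 2 ^ w) (y i : ℕ) :
    lane w (2 ^ w * y + c) i = if i = 0 then c else lane w y (i - 1) := by
  cases i with
  | zero => rw [lane_at_zero, Nat.mul_add_mod, Nat.mod_eq_of_lt hc, if_pos rfl]
  | succ i =>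
    rw [lane_succ, Nat.mul_add_div (by positivity), Nat.div_eq_of_lt hc, add_zero,
      if_neg (Nat.succ_ne_zero i), Nat.add_sub_cancel]

theorem sum_succ_digits {R : Type} [CommSemiring R] (w n : ℕ) (c : ℕ → R) :
    ∑ j ∈ Finset.range (n + 1), c j * 2 ^ (w * j) =
      2 ^ w * ∑ j ∈ Finset.range n, c (j + 1) * 2 ^ (w * j) + c 0 := by
  rw [Finset.sum_range_succ', Finset.mul_sum]
  simp only [mul_zero, pow_zero, mul_one, mul_add, pow_add]
  congr 1
  exact Finset.sum_congr rfl fun j _ => by ring

theorem lane_sum {w n : ℕ} {c : ℕ → ℕ} (hc : ∀ j, j < n → c j < 2 ^ w) (i : ℕ) :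
    lane w (∑ j ∈ Finset.range n, c j * 2 ^ (w * j)) i = if i < n then c i else 0 := by
  induction n generalizing c i with
  | zero => simp [lane_zero]
  | succ n ih =>
    rw [sum_succ_digits, lane_digit (hc 0 (Nat.succ_pos n))]
    cases i with
    | zero => simp
    | succ i =>
      rw [if_neg (Nat.succ_ne_zero i), Nat.add_sub_cancel,
        ih (c := fun j => c (j + 1)) fun j hj => hc _ (Nat.succ_lt_succ hj)]
      simp

theorem eq_sum_lane {w n x : ℕ} (hx : x < 2 ^ (w * n)) :
    x = ∑ j ∈ Finset.range n, lane w x j * 2 ^ (w * j) := by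
  induction n generalizing x with
  | zero => simpa using hx
  | succ n ih =>
    rw [sum_succ_digits, lane_at_zero]
    simp only [lane_succ]
    rw [← ih, Nat.div_add_mod]
    rw [Nat.div_lt_iff_lt_mul (by positivity), ← pow_add]
    exact hx

theorem ones_eq {w : ℕ} (hw : 0 < w) (n : ℕ) :
    (2 ^ (w * n) - 1) / (2 ^ w - 1) = ∑ j ∈ Finset.range n, 2 ^ (w * j) := by
  simp only [pow_mul]
  rw [Nat.geomSum_eq (Nat.one_lt_two_pow hw.ne')]

/-- The constant `c` repeated in the first `n` lanes. -/
theorem lane_ones_mul {w n c : ℕ} (hw : 0 < w) (hc : c < 2 ^ w) (i : ℕ) :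
    lane w ((2 ^ (w * n) - 1) / (2 ^ w - 1) * c) i = if i < n then c else 0 := by
  rw [ones_eq hw, Finset.sum_mul]
  simp only [mul_comm _ c]
  exact lane_sum (c := fun _ => c) (fun _ _ => hc) i

/-- All ones in the first `n` lanes. -/
theorem lane_pow_sub_one (w n i : ℕ) :
    lane w (2 ^ (w * n) - 1) i = if i < n then 2 ^ w - 1 else 0 := by
  refine Nat.eq_of_testBit_eq fun j => ?_
  by_cases hj : j < w
  · split_ifs with h
    · have : w * (i + 1) ≤ w * n := Nat.mul_le_mul_left w h
      have h2 : w * i + j < w * n := by rw [mul_add, mul_one] at this; omega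
      simp [testBit_lane, Nat.testBit_two_pow_sub_one, h2]
    · have : w * n ≤ w * i := Nat.mul_le_mul_left w (not_lt.mp h)
      have h2 : ¬ w * i + j < w * n := by omega
      simp [testBit_lane, Nat.testBit_two_pow_sub_one, h2]
  · split_ifs <;> simp [testBit_lane, Nat.testBit_two_pow_sub_one, hj]

theorem land_allOnes {w z : ℕ} (hz : z < 2 ^ w) : z &&& (2 ^ w - 1) = z := by
  rw [Nat.and_two_pow_sub_one_eq_mod, Nat.mod_eq_of_lt hz]

/-- The mask test. -/
theorem lt_of_land_hi {w β z : ℕ} (hz : z < 2 ^ w) (hβ : β ≤ w) (h : z &&& (2 ^ w - 2 ^ β) = 0) :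
    z < 2 ^ β := by
  refine Nat.lt_pow_two_of_testBit z fun j hj => ?_
  by_cases hw : j < w
  · obtain ⟨k, rfl⟩ := Nat.exists_eq_add_of_le hβ
    have h1 : 2 ^ (β + k) - 2 ^ β = (2 ^ k - 1) <<< β := by
      rw [Nat.shiftLeft_eq, Nat.sub_mul, one_mul, ← pow_add, add_comm]
    have h2 := congrArg (fun t => Nat.testBit t j) h
    have h3 : j - β < k := by omega
    simpa [h1, Nat.testBit_shiftLeft, Nat.testBit_two_pow_sub_one, hj, h3] using h2
  · exact Nat.testBit_lt_two_pow (hz.trans_le (Nat.pow_le_pow_right two_pos (not_lt.mp hw)))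

/-- The guard bit. -/
theorem land_guard {w z : ℕ} (hz : z < 2 ^ (w + 1)) :
    z &&& 2 ^ w = if 2 ^ w ≤ z then 2 ^ w else 0 := by
  rw [Nat.and_two_pow]
  split_ifs with h
  · rw [Nat.testBit_of_two_pow_le_and_two_pow_add_one_gt h hz]
    simp
  · rw [Nat.testBit_lt_two_pow (not_le.mp h)]
    simp

/-- Uniqueness of signed digits. -/
theorem eq_zero_of_sum_modEq {w n : ℕ} {u : ℕ → ℤ} (hu : ∀ i, i < n → |u i| < 2 ^ w)
    (h : (∑ i ∈ Finset.range n, u i * 2 ^ (w * i)) ≡ 0 [ZMOD 2 ^ (w * n)]) :
    ∀ i, i < n → u i = 0 := by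
  induction n generalizing u with
  | zero => intro i hi; omega
  | succ n ih =>
    rw [sum_succ_digits, Int.modEq_zero_iff_dvd, mul_add, mul_one, add_comm (w * n), pow_add] at h
    have h0 : u 0 = 0 := Int.eq_zero_of_abs_lt_dvd
      ((dvd_add_right (dvd_mul_right _ _)).mp ((dvd_mul_right _ _).trans h))
      (hu 0 (Nat.succ_pos n))
    rw [h0, add_zero, mul_dvd_mul_iff_left (by positivity), ← Int.modEq_zero_iff_dvd] at h
    intro i hi
    cases i with
    | zero => exact h0
    | succ i =>
      exact ih (u := fun j => u (j + 1)) (fun j hj => hu _ (Nat.succ_lt_succ hj)) h i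
        (Nat.lt_of_succ_lt_succ hi)

end Crest.Agent.R187.K
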