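import Crest.Agent.R187.KDefs
import Crest.Agent.R187.Defs

/-!
Meaning of the tables handled by the checkers of `KDefs`.
-/

set_option autoImplicit false

namespace Crest.Agent.R187.K

open MvPolynomial

theorem frc_eq {α : Type} (n : ℕ) (f : ℕ → α) : frc n f = f n := rfl

theorem nadd (a b : ℕ) : Nat.add a b = a + b := rfl
theorem nsub (a b : ℕ) : Nat.sub a b = a - b := rfl
theorem nmul (a b : ℕ) : Nat.mul a b = a * b := rfl
theorem ndiv (a b : ℕ) : Nat.div a b = a / b := rfl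
theorem nmod (a b : ℕ) : Nat.mod a b = a % b := rfl
theorem nshl (a b : ℕ) : Nat.shiftLeft a b = a <<< b := rfl
theorem nshr (a b : ℕ) : Nat.shiftRight a b = a >>> b := rfl
theorem nland (a b : ℕ) : Nat.land a b = a &&& b := rfl
theorem nlor (a b : ℕ) : Nat.lor a b = a ||| b := rfl

theorem cnd_eq {α : Type} (b : Bool) (x y : α) :
    @Bool.rec (fun _ => α) y x b = if b = true then x else y := by
  cases b <;> rfl

theorem allLt_iff (n : ℕ) (f : ℕ → Bool) : allLt n f = true ↔ ∀ i, i < n → f i = true := by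
  induction n with
  | zero => simp [allLt]
  | succ n ih =>
    have : allLt (n + 1) f = @Bool.rec (fun _ => Bool) false (allLt n f) (f n) := rfl
    rw [this, cnd_eq]
    constructor
    · intro h i hi
      by_cases hf : f n = true
      · rw [if_pos hf] at h
        rcases Nat.lt_succ_iff_lt_or_eq.1 hi with h1 | h1
        · exact ih.1 h i h1
        · rw [h1]; exact hf
      · rw [if_neg hf] at h; cases h
    · intro h
      rw [if_pos (h n (Nat.lt_succ_self n))]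
      exact ih.2 fun i hi => h i (Nat.lt_succ_of_lt hi)

theorem md_eq (w S C s : ℕ) : md w S C s = 2 ^ (w * S * ((C - s) / 3)) := by
  simp only [md, kb, nshl, nmul, ndiv, nsub, Nat.shiftLeft_eq, one_mul]

/-- The `i`-th digit of `x` in base `2^w`. -/
def lane (w x i : ℕ) : ℕ := x / 2 ^ (w * i) % 2 ^ w

/-- Evaluation `x₁ ↦ 1`, `x₂ ↦ 2^w`, `x₃ ↦ 2^(w S)`; the last three variables are kept. -/
noncomputable def Phi (w S : ℕ) : MvPolynomial (Fin 6) ℤ →ₐ[ℤ] MvPolynomial (Fin 3) ℤ :=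
  aeval ![1, C (2 ^ w), C (2 ^ (w * S)), X 0, X 1, X 2]

noncomputable def ex3 (p q r : ℕ) : Fin 3 →₀ ℕ := Finsupp.equivFunOnFinite.symm ![p, q, r]

/-- The number encoding the coefficients of `F` at exponents `(*, *, *, p, q, r)`. -/
noncomputable def ev (w S : ℕ) (F : MvPolynomial (Fin 6) ℤ) (p q r : ℕ) : ℤ :=
  coeff (ex3 p q r) (Phi w S F)

/-- `vand * h_a[h_d]`. -/
noncomputable def FF (d a : ℕ) : MvPolynomial (Fin 6) ℤ := vand 6 * pleth 6 a d

/-- The region `{r < q < p ≤ P q r}` is closed downwards. -/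
def AntiP (P : ℕ → ℕ → ℕ) : Prop := ∀ q r q' r', q' ≤ q → r' ≤ r → P q r ≤ P q' r'

/-- `x` is a correct table entry for `F` at the triple `(p, q, r)`. -/
structure Ent (w S C β : ℕ) (F : MvPolynomial (Fin 6) ℤ) (x p q r : ℕ) : Prop where
  le : x ≤ 2 ^ (w * S * ((C - (p + q + r)) / 3))
  cong : (x : ℤ) ≡ ev w S F p q r [ZMOD 2 ^ (w * S * ((C - (p + q + r)) / 3))]
  bd : ∀ γ : Fin 6 →₀ ℕ, γ 3 = p → γ 4 = q → γ 5 = r → γ 2 < (C - (p + q + r)) / 3 →
    -2 ^ β ≤ coeff γ F ∧ coeff γ F < 2 ^ β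

theorem Ent.mono {w S C β β' : ℕ} {F : MvPolynomial (Fin 6) ℤ} {x p q r : ℕ}
    (h : Ent w S C β F x p q r) (hβ : β ≤ β') : Ent w S C β' F x p q r := by
  refine ⟨h.le, h.cong, fun γ h3 h4 h5 h2 => ?_⟩
  have h1 := h.bd γ h3 h4 h5 h2
  have h2 : (2 : ℤ) ^ β ≤ 2 ^ β' := pow_le_pow_right₀ (by norm_num) hβ
  constructor <;> linarith [h1.1, h1.2]

/-- Level `a` of the table `T` is correct on the region given by `P`. -/
def Inv (w S C d β : ℕ) (P : ℕ → ℕ → ℕ) (T : ℕ → ℕ → ℕ → ℕ → ℕ) (a : ℕ) : Prop :=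
  ∀ p q r, r < q → q < p → p ≤ P q r → Ent w S C β (FF d a) (T a p q r) p q r

/-- The partition of `N` with `λ₄ = p`, `λ₅ = q`, `λ₆ = r`, `λ₂ - λ₃ = u`, `λ₃ - λ₄ = v`.
It is a partition of `N` when `r ≤ q ≤ p` and `4 p + q + r + 3 v + 2 u ≤ N`. -/
def lam (N p q r u v : ℕ) : Fin 6 → ℕ :=
  ![N - (3 * p + 2 * v + u + q + r), p + v + u, p + v, p, q, r]

theorem antitone_lam {N p q r u v : ℕ} (h1 : r ≤ q) (h2 : q ≤ p)
    (h : 4 * p + q + r + 3 * v + 2 * u ≤ N) : Antitone (lam N p q r u v) := by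
  rw [Fin.antitone_iff_succ_le]
  intro i
  fin_cases i <;> simp [lam] <;> omega

theorem sum_lam {N p q r u v : ℕ} (h : 4 * p + q + r + 3 * v + 2 * u ≤ N) :
    ∑ i, lam N p q r u v i = N := by
  simp [lam, Fin.sum_univ_six]; omega

theorem eq_lam {l : Fin 6 → ℕ} (hl : Antitone l) :
    l = lam (∑ i, l i) (l 3) (l 4) (l 5) (l 1 - l 2) (l 2 - l 3) ∧ l 5 ≤ l 4 ∧ l 4 ≤ l 3 ∧
      4 * l 3 + l 4 + l 5 + 3 * (l 2 - l 3) + 2 * (l 1 - l 2) ≤ ∑ i, l i := by
  have h01 : l 1 ≤ l 0 := hl (by decide)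
  have h12 : l 2 ≤ l 1 := hl (by decide)
  have h23 : l 3 ≤ l 2 := hl (by decide)
  have h34 : l 4 ≤ l 3 := hl (by decide)
  have h45 : l 5 ≤ l 4 := hl (by decide)
  refine ⟨?_, h45, h34, ?_⟩
  · funext i
    fin_cases i <;> simp [lam, Fin.sum_univ_six] <;> omega
  · simp [Fin.sum_univ_six]; omega

/-- `x` holds exactly the multiplicities of `f` for the tail `(p, q, r)` (common format: lane
`u + 73 v` of 40 bits), and zeros elsewhere. -/
def Exact (N : ℕ) (f : MvPolynomial (Fin 6) ℤ) (x p q r : ℕ) : Prop :=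
  ∀ u v, u < 73 → (lane 40 x (u + 73 * v) : ℤ) =
    if 4 * p + q + r + 3 * v + 2 * u ≤ N then mult f (lam N p q r u v) else 0

/-- `x` holds upper bounds of the multiplicities of `f` for the tail `(p, q, r)`. -/
def Up (N : ℕ) (f : MvPolynomial (Fin 6) ℤ) (x p q r : ℕ) : Prop :=
  ∀ u v, 4 * p + q + r + 3 * v + 2 * u ≤ N →
    mult f (lam N p q r u v) ≤ (lane 40 x (u + 73 * v) : ℤ)

theorem Exact.up {N : ℕ} {f : MvPolynomial (Fin 6) ℤ} {x p q r : ℕ} (h : Exact N f x p q r)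
    (hN : N < 146) : Up N f x p q r := by
  intro u v huv
  rw [h u v (by omega), if_pos huv]

/-- `lo` holds lower bounds for `mS`; non-zero lanes only occur at partitions. -/
def Lo (lo : ℕ → ℕ → ℕ → ℕ → ℕ) : Prop :=
  ∀ b p q r, (∀ i, lane 40 (lo b p q r) i < 2 ^ 39) ∧
    ∀ u v, u < 73 → lane 40 (lo b p q r) (u + 73 * v) ≠ 0 →
      r ≤ q ∧ q ≤ p ∧ 4 * p + q + r + 3 * v + 2 * u ≤ 6 * b ∧
        (lane 40 (lo b p q r) (u + 73 * v) : ℤ) ≤ mS b (lam (6 * b) p q r u v)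

theorem antiP_pfull (C : ℕ) : AntiP (pfull C) := by
  intro q r q' r' h1 h2
  show (C - (q + r)) / 4 ≤ (C - (q' + r')) / 4
  omega

theorem antiP_pfour (C : ℕ) : AntiP (pfour C) := by
  intro q r q' r' h1 h2
  simp only [pfour, cnd_eq, Nat.ble_eq, Nat.add_eq]
  split_ifs <;> omega

theorem antiP_pthinS : AntiP pthinS := by
  intro q r q' r' h1 h2
  simp only [pthinS, cnd_eq, Nat.ble_eq, Nat.add_eq, Nat.sub_eq]
  split_ifs <;> omega

theorem antiP_pthinA : AntiP pthinA := by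
  intro q r q' r' h1 h2
  simp only [pthinA, cnd_eq, Nat.ble_eq, Bool.and_eq_true]
  split_ifs <;> omega

end Crest.Agent.R187.K
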