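import Crest.Agent.R187.Shapo

/-!
# Task D1: the two models are good; stability; monotonicity; the upper bound module

Unitarizable: generic Fischer form on `MvPolynomial σ ℂ` with positive weights `c`.
`IsGl`: the commutator of derivations is a derivation, so check on variables.
`PolyWt`: monomials are weight vectors.
-/

set_option autoImplicit false

namespace Crest.Agent.R187

open MvPolynomial Crest.AlgebraR.FoulkesHowe

namespace Models

section Generic

variable {σ τ : Type*}

/-- The derivation `X v ↦ a v • X (φ v)`. -/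
noncomputable def dm (a : σ → ℕ) (φ : σ → σ) :
    Derivation ℂ (MvPolynomial σ ℂ) (MvPolynomial σ ℂ) :=
  mkDerivation ℂ (fun v => ((a v : ℂ) • X (φ v) : MvPolynomial σ ℂ))

theorem dm_X (a : σ → ℕ) (φ : σ → σ) (v : σ) : dm a φ (X v) = (a v : ℂ) • X (φ v) :=
  mkDerivation_X _ _ _

theorem dm_monomial (a : σ → ℕ) (φ : σ → σ) (m : σ →₀ ℕ) (r : ℂ) :
    dm a φ (monomial m r) = ∑ v ∈ m.support,
      monomial (m - Finsupp.single v 1 + Finsupp.single (φ v) 1) (r * (m v : ℂ) * (a v : ℂ)) := by
  rw [dm, mkDerivation_monomial, Finsupp.sum, Finset.smul_sum]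
  refine Finset.sum_congr rfl fun v _ => ?_
  rw [smul_eq_mul, mul_smul_comm, X, monomial_mul, smul_monomial, smul_monomial]
  congr 1
  simp only [smul_eq_mul]
  ring

theorem dm_stable (a : σ → ℕ) (φ : σ → σ) (s : Set (σ →₀ ℕ))
    (h : ∀ m ∈ s, ∀ v ∈ m.support, a v ≠ 0 →
      m - Finsupp.single v 1 + Finsupp.single (φ v) 1 ∈ s)
    {f : MvPolynomial σ ℂ} (hf : f ∈ restrictSupport ℂ s) : dm a φ f ∈ restrictSupport ℂ s := by
  rw [restrictSupport_eq_span] at hf
  induction hf using Submodule.span_induction with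
  | mem x hx =>
    obtain ⟨m, hm, rfl⟩ := hx
    rw [dm_monomial]
    refine Submodule.sum_mem _ fun v hv => ?_
    rw [monomial_mem_restrictSupport]
    by_cases ha : a v = 0
    · right; simp [ha]
    · left; exact h m hm v hv ha
  | zero => simp
  | add x y _ _ hx hy => rw [map_add]; exact Submodule.add_mem _ hx hy
  | smul c x _ hx => rw [Derivation.map_smul]; exact Submodule.smul_mem _ _ hx

theorem rename_deriv (ρ : σ → τ) (D : Derivation ℂ (MvPolynomial σ ℂ) (MvPolynomial σ ℂ))
    (D' : Derivation ℂ (MvPolynomial τ ℂ) (MvPolynomial τ ℂ))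
    (h : ∀ v, rename ρ (D (X v)) = D' (X (ρ v))) (f : MvPolynomial σ ℂ) :
    rename ρ (D f) = D' (rename ρ f) := by
  induction f using MvPolynomial.induction_on with
  | C c => simp [derivation_C]
  | add p q hp hq => simp [hp, hq]
  | mul_X p v hp =>
    rw [Derivation.leibniz, map_mul, rename_X, Derivation.leibniz, map_add, smul_eq_mul,
      smul_eq_mul, smul_eq_mul, smul_eq_mul, map_mul, map_mul, hp, h, rename_X]

theorem diag_monomial (D : Derivation ℂ (MvPolynomial σ ℂ) (MvPolynomial σ ℂ)) (a : σ → ℕ)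
    (h : ∀ v, D (X v) = (a v : ℂ) • X v) (m : σ →₀ ℕ) (r : ℂ) :
    D (monomial m r) = ((Finsupp.weight a m : ℕ) : ℂ) • monomial m r := by
  have hD : D = dm a id := derivation_ext fun v => by rw [h, dm_X]; rfl
  rw [hD, dm_monomial, Finsupp.weight_apply, Finsupp.sum, Nat.cast_sum, Finset.sum_smul]
  refine Finset.sum_congr rfl fun v hv => ?_
  have : m - Finsupp.single v 1 + Finsupp.single v 1 = m := by
    apply tsub_add_cancel_of_le
    rw [Finsupp.single_le_iff]
    exact Nat.one_le_iff_ne_zero.mpr (Finsupp.mem_support_iff.mp hv)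
  rw [id, this, smul_monomial]
  congr 1
  simp only [smul_eq_mul]
  push_cast
  ring

theorem polyWt_of_diag {n : ℕ} (E : Fin n → Fin n → Module.End ℂ (MvPolynomial σ ℂ))
    (D : Fin n → Derivation ℂ (MvPolynomial σ ℂ) (MvPolynomial σ ℂ)) (a : Fin n → σ → ℕ)
    (hE : ∀ i f, E i i f = D i f) (h : ∀ i v, D i (X v) = (a i v : ℂ) • X v) : PolyWt E := by
  rw [PolyWt, eq_top_iff]
  intro f _
  rw [f.as_sum]
  refine Submodule.sum_mem _ fun m _ => ?_
  refine Submodule.mem_iSup_of_mem (fun i => Finsupp.weight (a i) m) ?_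
  rw [mem_wt]
  intro i
  rw [hE, diag_monomial _ _ (h i)]

/-! ### The Fischer form -/

/-- Weight of a monomial. -/
noncomputable def fw (c : σ → ℕ) (m : σ →₀ ℕ) : ℕ :=
  m.prod fun v k => k.factorial * c v ^ k

theorem fw_pos (c : σ → ℕ) (hc : ∀ v, 0 < c v) (m : σ →₀ ℕ) : 0 < fw c m :=
  Finset.prod_pos fun v _ => Nat.mul_pos (Nat.factorial_pos _) (pow_pos (hc v) _)

theorem fw_add_single (c : σ → ℕ) (m : σ →₀ ℕ) (v : σ) :
    fw c (m + Finsupp.single v 1) = c v * (m v + 1) * fw c m := by
  classical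
  have h1 : ∀ m' : σ →₀ ℕ, fw c m' = ((m' v).factorial * c v ^ (m' v)) * fw c (m'.erase v) := by
    intro m'
    unfold fw
    rw [← Finsupp.mul_prod_erase' m' v _ (by simp)]
  rw [h1 (m + Finsupp.single v 1), h1 m]
  have : (m + Finsupp.single v 1).erase v = m.erase v := by
    rw [Finsupp.erase_add, Finsupp.erase_single, add_zero]
  rw [this]
  simp only [Finsupp.add_apply, Finsupp.single_eq_same, Nat.factorial_succ, pow_succ]
  ring

/-- The Fischer form as a function. -/
noncomputable def fb (c : σ → ℕ) (f g : MvPolynomial σ ℂ) : ℂ :=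
  ∑ m ∈ f.support, starRingEnd ℂ (coeff m f) * coeff m g * (fw c m : ℂ)

theorem fb_eq (c : σ → ℕ) (f g : MvPolynomial σ ℂ) (s : Finset (σ →₀ ℕ))
    (hs : ∀ m, coeff m f ≠ 0 → coeff m g ≠ 0 → m ∈ s) :
    fb c f g = ∑ m ∈ s, starRingEnd ℂ (coeff m f) * coeff m g * (fw c m : ℂ) := by
  classical
  unfold fb
  rw [← Finset.sum_subset (Finset.inter_subset_left (s₁ := f.support) (s₂ := s)),
    ← Finset.sum_subset (Finset.inter_subset_right (s₁ := f.support) (s₂ := s))]
  · intro m hm hm'
    have : coeff m f = 0 := by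
      by_contra h
      exact hm' (Finset.mem_inter.mpr ⟨mem_support_iff.mpr h, hm⟩)
    simp [this]
  · intro m hm hm'
    have : coeff m g = 0 := by
      by_contra h
      exact hm' (Finset.mem_inter.mpr ⟨hm, hs m (mem_support_iff.mp hm) h⟩)
    simp [this]

/-- The Fischer form. -/
noncomputable def fB (c : σ → ℕ) : MvPolynomial σ ℂ →ₗ⋆[ℂ] MvPolynomial σ ℂ →ₗ[ℂ] ℂ :=
  LinearMap.mk₂'ₛₗ (starRingEnd ℂ) (RingHom.id ℂ) (fb c)
    (fun f₁ f₂ g => by
      rw [fb_eq c (f₁ + f₂) g g.support (fun m _ h => mem_support_iff.mpr h),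
        fb_eq c f₁ g g.support (fun m _ h => mem_support_iff.mpr h),
        fb_eq c f₂ g g.support (fun m _ h => mem_support_iff.mpr h), ← Finset.sum_add_distrib]
      refine Finset.sum_congr rfl fun m _ => ?_
      rw [coeff_add, map_add]; ring)
    (fun r f g => by
      rw [fb_eq c (r • f) g g.support (fun m _ h => mem_support_iff.mpr h),
        fb_eq c f g g.support (fun m _ h => mem_support_iff.mpr h), Finset.smul_sum]
      refine Finset.sum_congr rfl fun m _ => ?_
      rw [coeff_smul, smul_eq_mul, map_mul, smul_eq_mul]; ring)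
    (fun f g₁ g₂ => by
      unfold fb
      rw [← Finset.sum_add_distrib]
      refine Finset.sum_congr rfl fun m _ => ?_
      rw [coeff_add]; ring)
    (fun r f g => by
      unfold fb
      rw [Finset.smul_sum]
      refine Finset.sum_congr rfl fun m _ => ?_
      rw [coeff_smul, smul_eq_mul, smul_eq_mul, RingHom.id_apply]; ring)

theorem fB_apply (c : σ → ℕ) (f g : MvPolynomial σ ℂ) : fB c f g = fb c f g := rfl

theorem fB_herm (c : σ → ℕ) (f g : MvPolynomial σ ℂ) : fB c f g = starRingEnd ℂ (fB c g f) := by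
  rw [fB_apply, fB_apply, fb_eq c g f f.support (fun m _ h => mem_support_iff.mpr h), fb, map_sum]
  refine Finset.sum_congr rfl fun m _ => ?_
  simp only [map_mul, Complex.conj_conj, map_natCast]
  ring

theorem fB_pos (c : σ → ℕ) (hc : ∀ v, 0 < c v) (f : MvPolynomial σ ℂ) (hf : f ≠ 0) :
    0 < (fB c f f).re := by
  rw [fB_apply, fb, Complex.re_sum]
  refine Finset.sum_pos (fun m hm => ?_) (support_nonempty.mpr hf)
  have h1 : starRingEnd ℂ (coeff m f) * coeff m f * (fw c m : ℂ) =
      ((Complex.normSq (coeff m f) * (fw c m : ℝ) : ℝ) : ℂ) := by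
    rw [← Complex.normSq_eq_conj_mul_self]; push_cast; ring
  rw [h1, Complex.ofReal_re]
  exact mul_pos (Complex.normSq_pos.mpr (mem_support_iff.mp hm))
    (Nat.cast_pos.mpr (fw_pos c hc m))

theorem fB_monomial (c : σ → ℕ) (m : σ →₀ ℕ) (r : ℂ) (g : MvPolynomial σ ℂ) :
    fB c (monomial m r) g = starRingEnd ℂ r * coeff m g * (fw c m : ℂ) := by
  classical
  rw [fB_apply, fb_eq c _ g {m}, Finset.sum_singleton, coeff_monomial, if_pos rfl]
  intro m' h _
  rw [coeff_monomial] at h
  by_contra h'
  rw [Finset.mem_singleton] at h'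
  exact h (if_neg (Ne.symm h'))

theorem fB_mul_X (c : σ → ℕ) (f g : MvPolynomial σ ℂ) (v : σ) :
    fB c (f * X v) g = (c v : ℂ) * fB c f (pderiv v g) := by
  induction f using MvPolynomial.induction_on' with
  | monomial m r =>
    rw [X, monomial_mul, fB_monomial, fB_monomial, coeff_pderiv, fw_add_single, mul_one]
    push_cast
    ring
  | add p q hp hq => rw [add_mul, map_add, map_add, LinearMap.add_apply, LinearMap.add_apply, hp, hq, mul_add]

theorem coeff_zero_dm (a : σ → ℕ) (φ : σ → σ) (g : MvPolynomial σ ℂ) :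
    coeff 0 (dm a φ g) = 0 := by
  classical
  induction g using MvPolynomial.induction_on' with
  | monomial m r =>
    rw [dm_monomial, coeff_sum]
    refine Finset.sum_eq_zero fun v _ => ?_
    rw [coeff_monomial, if_neg]
    intro h
    have := congrArg (fun m : σ →₀ ℕ => m (φ v)) h
    simp at this
  | add p q hp hq => rw [map_add, coeff_add, hp, hq, add_zero]

theorem fB_adj (c : σ → ℕ) (a a' : σ → ℕ) (φ φ' : σ → σ)
    (h1 : ∀ v w, a v ≠ 0 → φ v = w → v = φ' w ∧ c v * a' w = a v * c w)
    (h2 : ∀ v w, a' w ≠ 0 → v = φ' w → φ v = w ∧ c v * a' w = a v * c w)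
    (f g : MvPolynomial σ ℂ) : fB c (dm a φ f) g = fB c f (dm a' φ' g) := by
  classical
  have key : ∀ v, (c v : ℂ) • ⁅(pderiv v : Derivation ℂ (MvPolynomial σ ℂ) (MvPolynomial σ ℂ)),
      dm a' φ'⁆ = ((a v : ℂ) * (c (φ v) : ℂ)) •
        (pderiv (φ v) : Derivation ℂ (MvPolynomial σ ℂ) (MvPolynomial σ ℂ)) := by
    intro v
    refine derivation_ext fun w => ?_
    rw [Derivation.smul_apply, Derivation.smul_apply, Derivation.commutator_apply, dm_X,
      Derivation.map_smul, pderiv_X, pderiv_X, pderiv_X]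
    have h0 : dm a' φ' ((Pi.single v 1 : σ → MvPolynomial σ ℂ) w) = 0 := by
      by_cases hw : w = v
      · subst hw; simp
      · simp [hw]
    rw [h0, sub_zero, smul_smul]
    by_cases hv : φ v = w
    · by_cases ha : a v = 0
      · by_cases ha' : a' w = 0
        · simp [ha, ha']
        · by_cases hw : v = φ' w
          · have := (h2 v w ha' hw).2
            have h3 : ((c v * a' w : ℕ) : ℂ) = ((a v * c w : ℕ) : ℂ) := by rw [this]
            push_cast at h3
            rw [h3]
            simp [ha]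
          · simp [ha, Pi.single_apply, Ne.symm hw]
      · obtain ⟨h3, h4⟩ := h1 v w ha hv
        have h5 : ((c v * a' w : ℕ) : ℂ) = ((a v * c w : ℕ) : ℂ) := by rw [h4]
        push_cast at h5
        rw [h5, ← h3, hv]
        simp
    · have h6 : (Pi.single (φ v) 1 : σ → MvPolynomial σ ℂ) w = 0 := by
        simp [Ne.symm hv]
      rw [h6, smul_zero]
      by_cases ha' : a' w = 0
      · simp [ha']
      · have hw : v ≠ φ' w := fun hw => hv (h2 v w ha' hw).1
        simp [Ne.symm hw]
  induction f using MvPolynomial.induction_on generalizing g with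
  | C r =>
    rw [derivation_C, map_zero, LinearMap.zero_apply, ← monomial_zero', fB_monomial,
      coeff_zero_dm]
    simp
  | add p q hp hq => simp only [map_add, LinearMap.add_apply, hp, hq]
  | mul_X p v hp =>
    have hk := congrArg (fun D : Derivation ℂ (MvPolynomial σ ℂ) (MvPolynomial σ ℂ) => D g) (key v)
    simp only [Derivation.smul_apply, Derivation.commutator_apply] at hk
    have hk2 := congrArg (fB c p) hk
    rw [map_smul, map_smul, map_sub, smul_eq_mul, smul_eq_mul] at hk2
    rw [Derivation.leibniz, dm_X, smul_eq_mul, smul_eq_mul, mul_smul_comm, mul_comm (X v), map_add,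
      LinearMap.add_apply, LinearMap.map_smulₛₗ₂, fB_mul_X, fB_mul_X, fB_mul_X, hp, map_natCast,
      smul_eq_mul]
    linear_combination -hk2


theorem unitarizable_of_dm {n : ℕ} (E : Fin n → Fin n → Module.End ℂ (MvPolynomial σ ℂ))
    (c : σ → ℕ) (hc : ∀ v, 0 < c v) (a : Fin n → Fin n → σ → ℕ) (φ : Fin n → Fin n → σ → σ)
    (hE : ∀ i j f, E i j f = dm (a i j) (φ i j) f)
    (h : ∀ i j v, a i j v ≠ 0 → v = φ j i (φ i j v) ∧
      c v * a j i (φ i j v) = a i j v * c (φ i j v)) : Unitarizable E := by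
  refine ⟨fB c, fB_herm c, fB_pos c hc, fun i j f g => ?_⟩
  rw [hE, hE]
  refine fB_adj c _ _ _ _ ?_ ?_ f g
  · rintro v w hv rfl
    exact h i j v hv
  · rintro v w hw rfl
    obtain ⟨h1, h2⟩ := h j i w hw
    exact ⟨h1.symm, by rw [mul_comm, ← h2, mul_comm]⟩

theorem isGl_of_deriv {n : ℕ} (E : Fin n → Fin n → Module.End ℂ (MvPolynomial σ ℂ))
    (D : Fin n → Fin n → Derivation ℂ (MvPolynomial σ ℂ) (MvPolynomial σ ℂ))
    (hE : ∀ i j f, E i j f = D i j f)
    (h : ∀ i j k l v, D i j (D k l (X v)) - D k l (D i j (X v)) =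
      (if j = k then D i l (X v) else 0) - (if l = i then D k j (X v) else 0)) : IsGl E := by
  intro i j k l
  have key : ⁅D i j, D k l⁆ = (if j = k then D i l else 0) - (if l = i then D k j else 0) := by
    refine derivation_ext fun v => ?_
    rw [Derivation.commutator_apply, h, Derivation.sub_apply]
    congr 1 <;> split_ifs <;> rfl
  refine LinearMap.ext fun f => ?_
  have hf := congrArg (fun D : Derivation ℂ (MvPolynomial σ ℂ) (MvPolynomial σ ℂ) => D f) key
  simp only [Derivation.commutator_apply, Derivation.sub_apply] at hf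
  rw [LinearMap.sub_apply, LinearMap.sub_apply, Module.End.mul_apply, Module.End.mul_apply,
    hE, hE, hE, hE, hf]
  congr 1 <;> split_ifs <;> simp [hE]

theorem pderiv_comm' (i j : σ) (p : MvPolynomial σ ℂ) :
    pderiv i (pderiv j p) = pderiv j (pderiv i p) := by
  classical
  ext m
  rw [coeff_pderiv, coeff_pderiv, coeff_pderiv, coeff_pderiv, add_right_comm]
  by_cases h : i = j
  · subst h; rfl
  · simp only [Finsupp.add_apply, Finsupp.single_apply, if_neg h, if_neg (Ne.symm h), add_zero]
    ring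

end Generic

/-! ### The matrix model -/

theorem matE_eq (a n : ℕ) (i j : Fin n) (f : MvPolynomial (Var a n) ℂ) :
    matE a n i j f = dm (fun v : Var a n => if v.2 = j then 1 else 0) (fun v => (v.1, i)) f := by
  have : mkDerivation ℂ (fun v : Var a n =>
      if v.2 = j then (X (v.1, i) : MvPolynomial (Var a n) ℂ) else 0) =
      dm (fun v : Var a n => if v.2 = j then 1 else 0) (fun v => (v.1, i)) := by
    refine derivation_ext fun v => ?_
    rw [mkDerivation_X, dm_X]
    split_ifs <;> simp
  rw [← this]; rfl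

theorem matE_X (a n : ℕ) (i j : Fin n) (v : Var a n) :
    matE a n i j (X v) = if v.2 = j then X (v.1, i) else 0 :=
  mkDerivation_X ℂ _ v

/-! ### The polynomial model -/

theorem polE_eq (L : Type) (n : ℕ) (i j : Fin n) (f : Pol L n) :
    polE L n i j f = dm (fun v : L × (Fin n →₀ ℕ) => v.2 j)
      (fun v => (v.1, v.2 - Finsupp.single j 1 + Finsupp.single i 1)) f := rfl

theorem polE_X (L : Type) (n : ℕ) (i j : Fin n) (v : L × (Fin n →₀ ℕ)) :
    polE L n i j (X v) = (v.2 j : ℂ) • X (v.1, v.2 - Finsupp.single j 1 + Finsupp.single i 1) :=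
  mkDerivation_X ℂ _ v

theorem polE_mul (L : Type) (n : ℕ) (i j : Fin n) (f g : Pol L n) :
    polE L n i j (f * g) = f * polE L n i j g + g * polE L n i j f := by
  rw [polE_eq, polE_eq, polE_eq, Derivation.leibniz, smul_eq_mul, smul_eq_mul]

theorem sub_add_single {σ : Type*} (m : σ →₀ ℕ) (v : σ) (h : m v ≠ 0) :
    m - Finsupp.single v 1 + Finsupp.single v 1 = m := by
  apply tsub_add_cancel_of_le
  rw [Finsupp.single_le_iff]
  exact Nat.one_le_iff_ne_zero.mpr h

/-- The embedding of polynomials in `n` variables as linear forms. -/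
noncomputable def iota {L : Type} {n : ℕ} (l : L) : MvPolynomial (Fin n) ℂ →ₗ[ℂ] Pol L n :=
  (basisMonomials (Fin n) ℂ).constr ℂ (fun α => X (l, α))

theorem iota_monomial {L : Type} {n : ℕ} (l : L) (α : Fin n →₀ ℕ) (r : ℂ) :
    iota l (monomial α r) = r • (X (l, α) : Pol L n) := by
  have h1 : (monomial α r : MvPolynomial (Fin n) ℂ) = r • basisMonomials (Fin n) ℂ α := by
    rw [coe_basisMonomials, smul_monomial, smul_eq_mul, mul_one]
  rw [h1, map_smul, iota, Module.Basis.constr_basis]

theorem polE_iota {L : Type} {n : ℕ} (l : L) (i j : Fin n) (p : MvPolynomial (Fin n) ℂ) :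
    polE L n i j (iota l p) = iota l (X i * pderiv j p) := by
  induction p using MvPolynomial.induction_on' with
  | monomial α r =>
    rw [iota_monomial, map_smul, polE_X, pderiv_monomial, X, X, monomial_mul, iota_monomial,
      smul_smul, one_mul, add_comm (Finsupp.single i 1)]
    rfl
  | add p q hp hq => simp only [map_add, mul_add, hp, hq]

/-- `α!`. -/
def mfact {n : ℕ} (α : Fin n →₀ ℕ) : ℕ := ∏ i, (α i).factorial

theorem mfact_add_single {n : ℕ} (α : Fin n →₀ ℕ) (i : Fin n) :
    mfact (α + Finsupp.single i 1) = (α i + 1) * mfact α := by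
  unfold mfact
  rw [← Finset.mul_prod_erase _ _ (Finset.mem_univ i),
    ← Finset.mul_prod_erase _ _ (Finset.mem_univ i), ← mul_assoc]
  congr 1
  · simp [Nat.factorial_succ]
  · refine Finset.prod_congr rfl fun k hk => ?_
    have : i ≠ k := (Finset.ne_of_mem_erase hk).symm
    simp [this]

theorem mem_pieceSet {L : Type} [DecidableEq L] {n d : ℕ} {deg : L → ℕ}
    {m : (L × (Fin n →₀ ℕ)) →₀ ℕ} : m ∈ pieceSet n d deg ↔ (∀ v ∈ m.support, v.2.degree = d) ∧
      ∀ l, Finsupp.weight (fun v : L × (Fin n →₀ ℕ) => if v.1 = l then 1 else 0) m = deg l := by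
  unfold pieceSet
  simp only [Set.mem_ofPred_eq, Finsupp.weight_apply, smul_eq_mul, mul_ite, mul_one, mul_zero]

theorem add_mem_pieceSet {L : Type} [DecidableEq L] {n d : ℕ} {deg deg' : L → ℕ}
    {m m' : (L × (Fin n →₀ ℕ)) →₀ ℕ} (h : m ∈ pieceSet n d deg) (h' : m' ∈ pieceSet n d deg') :
    m + m' ∈ pieceSet n d (fun l => deg l + deg' l) := by
  classical
  rw [mem_pieceSet] at h h' ⊢
  refine ⟨fun v hv => ?_, fun l => by rw [map_add, h.2, h'.2]⟩
  rcases Finset.mem_union.mp (Finsupp.support_add hv) with hv | hv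
  · exact h.1 v hv
  · exact h'.1 v hv

theorem mul_mem_piece {L : Type} [DecidableEq L] {n d : ℕ} {deg deg' : L → ℕ}
    {f g : Pol L n} (h : f ∈ piece n d deg) (h' : g ∈ piece n d deg') :
    f * g ∈ piece n d (fun l => deg l + deg' l) := by
  have h1 := Submodule.mul_mem_mul h h'
  unfold piece at h1 ⊢
  rw [← restrictSupport_add] at h1
  refine restrictSupport_mono ℂ ?_ h1
  rintro _ ⟨m, hm, m', hm', rfl⟩
  exact add_mem_pieceSet hm hm'

theorem exists_split {σ L : Type*} (s : Finset L) (deg : L → ℕ) (m : σ →₀ ℕ)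
    (h : m.degree = ∑ l ∈ s, deg l) :
    ∃ g : L → (σ →₀ ℕ), (∀ l ∈ s, (g l).degree = deg l) ∧ ∑ l ∈ s, g l = m := by
  classical
  induction s using Finset.induction_on generalizing m with
  | empty =>
    refine ⟨fun _ => 0, by simp, ?_⟩
    rw [Finset.sum_empty] at h ⊢
    exact ((Finsupp.degree_eq_zero_iff m).mp h).symm
  | insert l s hl ih =>
    rw [Finset.sum_insert hl] at h
    obtain ⟨g0, hg0, hd⟩ := Finsupp.exists_le_degree_eq m (deg l) (by omega)
    obtain ⟨m', rfl⟩ := exists_add_of_le hg0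
    rw [map_add, hd] at h
    obtain ⟨g, hg, hs⟩ := ih m' (by omega)
    refine ⟨Function.update g l g0, fun l' hl' => ?_, ?_⟩
    · rcases Finset.mem_insert.mp hl' with rfl | hl2
      · rw [Function.update_self, hd]
      · rw [Function.update_of_ne (by rintro rfl; exact hl hl2), hg l' hl2]
    · rw [Finset.sum_insert hl, Function.update_self, ← hs]
      congr 1
      refine Finset.sum_congr rfl fun l' hl' => ?_
      rw [Function.update_of_ne (by rintro rfl; exact hl hl')]

end Models

open Models

theorem good_matE (a n : ℕ) : Good (matE a n) := by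
  refine ⟨?_, ?_, ?_⟩
  · refine isGl_of_deriv _ (fun i j => dm (fun v : Var a n => if v.2 = j then 1 else 0)
      (fun v => (v.1, i))) (matE_eq a n) ?_
    intro i j k l v
    simp only [← matE_eq, matE_X]
    by_cases h1 : v.2 = l <;> by_cases h2 : v.2 = j <;> by_cases h3 : j = k <;>
      by_cases h4 : l = i <;> simp_all [matE_X, eq_comm]
  · refine unitarizable_of_dm _ (fun _ => 1) (fun _ => one_pos) _ _ (matE_eq a n) ?_
    intro i j v hv
    have : v.2 = j := by by_contra h; simp [h] at hv
    subst this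
    simp
  · refine polyWt_of_diag _ _ (fun i v => if v.2 = i then 1 else 0)
      (fun i => matE_eq a n i i) ?_
    intro i v
    rw [dm_X]
    by_cases h : v.2 = i
    · subst h; rfl
    · simp [h]

theorem good_polE (L : Type) (n : ℕ) : Good (polE L n) := by
  refine ⟨?_, ?_, ?_⟩
  · refine isGl_of_deriv _ _ (polE_eq L n) ?_
    rintro i j k l ⟨l0, α⟩
    have hX : (X (l0, α) : Pol L n) = iota l0 (monomial α 1) := by rw [iota_monomial, one_smul]
    simp only [← polE_eq, hX, polE_iota]
    generalize (monomial α 1 : MvPolynomial (Fin n) ℂ) = p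
    have h0 : ∀ (c : Prop) [Decidable c] (q : MvPolynomial (Fin n) ℂ),
        (if c then iota l0 q else 0 : Pol L n) = iota l0 (if c then q else 0) := by
      intro c _ q; split_ifs <;> simp
    rw [h0, h0, ← map_sub, ← map_sub]
    congr 1
    rw [pderiv_mul, pderiv_mul, pderiv_comm' j l, pderiv_X, pderiv_X]
    simp only [Pi.single_apply, @eq_comm _ k j, @eq_comm _ i l]
    split_ifs <;> ring
  · refine unitarizable_of_dm _ (fun v => mfact v.2)
      (fun v => Finset.prod_pos fun i _ => Nat.factorial_pos _) _ _ (polE_eq L n) ?_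
    rintro i j ⟨l, α⟩ hv
    dsimp only at hv ⊢
    obtain ⟨γ, rfl⟩ : ∃ γ, α = γ + Finsupp.single j 1 := ⟨_, (sub_add_single α j hv).symm⟩
    rw [add_tsub_cancel_right, add_tsub_cancel_right, mfact_add_single, mfact_add_single]
    refine ⟨rfl, ?_⟩
    simp only [Finsupp.add_apply, Finsupp.single_eq_same]
    ring
  · refine polyWt_of_diag _ _ (fun i v => v.2 i) (fun i => polE_eq L n i i) ?_
    intro i v
    rw [dm_X]
    by_cases h : v.2 i = 0
    · simp [h]
    · rw [sub_add_single _ _ h]

theorem mem_blockSym {a n d : ℕ} {f : MvPolynomial (Var a n) ℂ} :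
    f ∈ blockSym a n d ↔ (∀ r : Fin a, IsWeightedHomogeneous (blockWeight r) f d) ∧
      ∀ σ : Equiv.Perm (Fin a), rename (blockPerm σ) f = f := by
  simp [blockSym, Submodule.mem_iInf, LinearMap.mem_eqLocus]

theorem stable_blockSym (a n d : ℕ) : Stable (matE a n) (blockSym a n d) := by
  intro i j f hf
  rw [mem_blockSym] at hf ⊢
  refine ⟨fun r => ?_, fun σ => ?_⟩
  · have h1 : f ∈ restrictSupport ℂ {m | Finsupp.weight (blockWeight r) m = d} :=
      fun m hm => hf.1 r (mem_support_iff.mp hm)
    have h2 := dm_stable (fun v : Var a n => if v.2 = j then 1 else 0) (fun v => (v.1, i)) _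
      (fun m hm v hv _ => ?_) h1
    · intro m hm
      rw [matE_eq] at hm
      exact h2 (mem_support_iff.mpr hm)
    · simp only [Set.mem_ofPred_eq] at hm ⊢
      rw [map_add, Finsupp.weight_single, one_smul, ← hm]
      exact Finsupp.weight_sub_single_add (w := blockWeight r) (Finsupp.mem_support_iff.mp hv)
  · rw [matE_eq, rename_deriv (blockPerm σ) _ (dm (fun v : Var a n => if v.2 = j then 1 else 0)
      (fun v => (v.1, i))), hf.2]
    intro v
    rw [dm_X, dm_X, map_smul, rename_X]
    rfl

instance finite_blockSym (a n d : ℕ) : FiniteDimensional ℂ (blockSym a n d) := by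
  have h : blockSym a n d ≤ restrictDegree (Var a n) ℂ d := by
    intro f hf
    rw [mem_blockSym] at hf
    rw [mem_restrictDegree]
    intro m hm v
    have h1 := hf.1 v.1 (mem_support_iff.mp hm)
    rw [← h1]
    exact Finsupp.le_weight _ (by simp [blockWeight]) m
  exact Submodule.finiteDimensional_of_le h

theorem stable_piece {L : Type} [DecidableEq L] (n d : ℕ) (deg : L → ℕ) :
    Stable (polE L n) (piece n d deg) := by
  classical
  intro i j f hf
  rw [polE_eq]
  refine dm_stable _ _ _ (fun m hm v hv ha => ?_) hf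
  rw [mem_pieceSet] at hm ⊢
  refine ⟨fun w hw => ?_, fun l => ?_⟩
  · rcases Finset.mem_union.mp (Finsupp.support_add hw) with hw | hw
    · exact hm.1 w (Finsupp.support_tsub hw)
    · rw [Finset.mem_singleton.mp (Finsupp.support_single_subset hw), ← hm.1 v hv]
      conv_rhs => rw [← sub_add_single v.2 j ha]
      simp only [map_add, Finsupp.degree_single]
  · rw [map_add, Finsupp.weight_single, one_smul, ← hm.2 l]
    exact Finsupp.weight_sub_single_add
      (w := fun v : L × (Fin n →₀ ℕ) => if v.1 = l then 1 else 0) (Finsupp.mem_support_iff.mp hv)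

instance finite_piece {L : Type} [Fintype L] [DecidableEq L] (n d : ℕ) (deg : L → ℕ) :
    FiniteDimensional ℂ (piece n d deg) := by
  classical
  have hS : {v : L × (Fin n →₀ ℕ) | v.2.degree = d}.Finite := by
    refine ((Set.finite_univ (α := L)).prod (Finsupp.finite_of_degree_eq d)).subset ?_
    intro v hv
    exact ⟨Set.mem_univ _, hv⟩
  have hfin : (pieceSet n d deg).Finite := by
    refine (Set.finite_Iic (Finsupp.indicator hS.toFinset (fun v _ => deg v.1))).subset ?_
    intro m hm
    rw [mem_pieceSet] at hm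
    intro v
    by_cases hv : v ∈ m.support
    · rw [Finsupp.indicator_of_mem (hS.mem_toFinset.mpr (hm.1 v hv)), ← hm.2 v.1]
      exact Finsupp.le_weight _ (by simp) m
    · rw [Finsupp.notMem_support_iff.mp hv]
      exact Nat.zero_le _
  have : Finite (pieceSet n d deg) := hfin
  exact Module.Finite.of_basis (basisRestrictSupport ℂ _)

/-- Multiplication by a non-zero highest weight vector (the polynomial ring is a domain, the `E i j` are derivations). -/
theorem hdim_symSym_mono (n d b c : ℕ) (lam mu : Fin n → ℕ)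
    (h : hdim (polE Unit n) (symSym n c d) mu ≠ 0) :
    hdim (polE Unit n) (symSym n b d) lam ≤
      hdim (polE Unit n) (symSym n (b + c) d) (lam + mu) := by
  have hne : symSym n c d ⊓ hw (polE Unit n) mu ≠ ⊥ := by
    intro h0
    apply h
    unfold hdim
    rw [h0, finrank_bot]
  obtain ⟨u, ⟨hu1, hu2⟩, hu0⟩ := Submodule.exists_mem_ne_zero_of_ne_bot hne
  have hmap : ∀ f ∈ symSym n b d ⊓ hw (polE Unit n) lam,
      LinearMap.mulRight ℂ u f ∈ symSym n (b + c) d ⊓ hw (polE Unit n) (lam + mu) := by
    rintro f ⟨hf1, hf2⟩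
    refine ⟨mul_mem_piece hf1 hu1, ?_⟩
    rw [SetLike.mem_coe, mem_hw] at hf2 hu2 ⊢
    rw [LinearMap.mulRight_apply]
    refine ⟨fun i => ?_, fun i j hij => ?_⟩
    · rw [polE_mul, hf2.1, hu2.1, Pi.add_apply, Nat.cast_add, add_smul, mul_smul_comm,
        mul_smul_comm, mul_comm u f, add_comm]
    · rw [polE_mul, hf2.2 i j hij, hu2.2 i j hij, mul_zero, mul_zero, add_zero]
  unfold hdim
  have : FiniteDimensional ℂ ↥(symSym n (b + c) d ⊓ hw (polE Unit n) (lam + mu)) :=
    Submodule.finiteDimensional_of_le inf_le_left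
  refine LinearMap.finrank_le_finrank_of_injective
    (f := (LinearMap.mulRight ℂ u).restrict hmap) ?_
  intro f g hfg
  have h1 := congrArg Subtype.val hfg
  simp only [LinearMap.coe_restrict_apply, LinearMap.mulRight_apply] at h1
  exact Subtype.ext (mul_right_cancel₀ hu0 h1)

/-- Forgetting the labels (`rename (fun v => ((), v.2))`) maps `piece n d deg` onto `symSym n (∑ deg) d` and commutes
with the operators; use `hdim_le_of_surj`. -/
theorem hdim_symSym_le_piece {L : Type} [Fintype L] [DecidableEq L] (n d : ℕ) (deg : L → ℕ)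
    (lam : Fin n → ℕ) :
    hdim (polE Unit n) (symSym n (∑ l, deg l) d) lam ≤ hdim (polE L n) (piece n d deg) lam := by
  classical
  refine hdim_le_of_surj (good_polE L n).uni (stable_piece n d deg)
    (rename (fun v : L × (Fin n →₀ ℕ) => (((), v.2) : Unit × (Fin n →₀ ℕ))) :
      Pol L n →ₐ[ℂ] Pol Unit n).toLinearMap ?_ ?_ lam
  · unfold symSym piece
    rw [restrictSupport_eq_span, Submodule.span_le]
    rintro _ ⟨m, hm, rfl⟩
    rw [mem_pieceSet] at hm
    have hdeg : m.degree = ∑ l, deg l := by
      rw [← hm.2 (), Finsupp.degree_eq_weight_one]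
      simp
    obtain ⟨g, hg, hs⟩ := exists_split Finset.univ deg m hdeg
    refine ⟨monomial (∑ l, (g l).mapDomain (fun v => (l, v.2))) 1, ?_, ?_⟩
    · rw [SetLike.mem_coe, monomial_mem_restrictSupport]
      left
      rw [mem_pieceSet]
      refine ⟨fun v hv => ?_, fun l => ?_⟩
      · obtain ⟨l, -, hl⟩ := Finset.mem_biUnion.mp (Finsupp.support_finsetSum hv)
        obtain ⟨w, hw, rfl⟩ := Finset.mem_image.mp (Finsupp.mapDomain_support hl)
        refine hm.1 w ?_
        rw [Finsupp.mem_support_iff] at hw ⊢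
        have h1 : g l w ≤ m w := by
          rw [← hs, Finsupp.finsetSum_apply]
          exact Finset.single_le_sum (f := fun l => g l w) (fun _ _ => Nat.zero_le _)
            (Finset.mem_univ l)
        omega
      · rw [map_sum, Finset.sum_eq_single l]
        · rw [← hg l (Finset.mem_univ l), Finsupp.weight_apply,
            Finsupp.sum_mapDomain_index (by simp) (by intros; rw [add_smul])]
          simp [Finsupp.degree_apply, Finsupp.sum]
        · intro l' _ hl'
          rw [Finsupp.weight_apply,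
            Finsupp.sum_mapDomain_index (by simp) (by intros; rw [add_smul])]
          simp [hl']
        · simp
    · rw [AlgHom.toLinearMap_apply, rename_monomial, ← hs]
      congr 2
      rw [← Finsupp.mapDomain.addMonoidHom_apply, map_sum]
      refine Finset.sum_congr rfl fun l _ => ?_
      rw [Finsupp.mapDomain.addMonoidHom_apply, ← Finsupp.mapDomain_comp]
      exact Finsupp.mapDomain_id
  · intro i j f _
    rw [AlgHom.toLinearMap_apply, AlgHom.toLinearMap_apply, polE_eq, polE_eq]
    refine rename_deriv _ _ _ (fun v => ?_) f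
    rw [dm_X, dm_X, map_smul, rename_X]

end Crest.Agent.R187
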