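import Crest.Agent.R187.ShapoBasic

/-!
# Task B: abstract highest weight theory for unitarizable `gl_n`-modules

Let `B` be the Hermitian form.  Basic facts: for a stable finite-dimensional `U` and a stable `K ≤ U`, the space
`U ⊓ K^⊥` is stable and complementary to `K` in `U` (positivity + dimension count; or build a local
`InnerProductSpace.Core`).  A stable `U` is the sum of the `U ⊓ wt γ` (simultaneous eigenspaces; `PolyWt`).
`E i j` maps `wt γ` to weight `γ + e_i - e_j` (and kills it if `γ j = 0`, `i ≠ j`, since weights are natural numbers and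
weight spaces of distinct weights are independent).  A non-zero stable finite-dimensional `U` contains a non-zero highest
weight vector (take a weight of `U` maximising `∑ (n - i) γ i`).  Hence `U` is spanned by the vectors `w · v`, `w` a word in the
`E i j`, `v ∈ U ⊓ hw γ` (the orthogonal complement of that span inside `U` is stable with no highest weight vector).

Shapovalov lemma: if `v ∈ hw lam`, `u ∈ hw mu` in `V`, `v' ∈ hw lam`, `u' ∈ hw mu` in `V'` and `B v u = B' v' u'`, then
`B v (w · u) = B' v' (w · u')` for every word `w`.  Induction on the length of `w`: swapping two adjacent letters changes the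
difference by differences for shorter words (commutation relations), so the difference is invariant under `List.Perm`;
move a raising letter (`i < j`) to the right end (kills `u`, `u'`), or a lowering letter to the left end (adjoint kills `v, v'`),
or else a diagonal letter to the right end (scalar `mu i`).  (Vectors of different weights are orthogonal.)

`exists_inj`: choose for each `lam` an isometric embedding `U ⊓ hw lam → U' ⊓ hw lam` (orthonormal bases; only antitone `lam` matter by
`antitone_of_hdim_ne_zero`), define the map on the free module on (word, highest weight basis vector); the two Gram forms agree by the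
Shapovalov lemma, so the kernels agree and the map descends to an injective map on `U`; extend it linearly to `V`.
-/

set_option autoImplicit false

namespace Crest.Agent.R187

variable {n : ℕ} {V V' : Type*} [AddCommGroup V] [Module ℂ V] [AddCommGroup V'] [Module ℂ V']

namespace Shapo

/-- The action of a word in the operators `E i j`. -/
def act (E : Fin n → Fin n → Module.End ℂ V) (w : List (Fin n × Fin n)) : Module.End ℂ V :=
  (w.map fun p => E p.1 p.2).prod

theorem act_nil (E : Fin n → Fin n → Module.End ℂ V) (v : V) : act E [] v = v := rfl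

theorem act_cons (E : Fin n → Fin n → Module.End ℂ V) (p : Fin n × Fin n)
    (w : List (Fin n × Fin n)) (v : V) : act E (p :: w) v = E p.1 p.2 (act E w v) := by
  simp [act]

theorem act_append (E : Fin n → Fin n → Module.End ℂ V) (w w' : List (Fin n × Fin n)) (v : V) :
    act E (w ++ w') v = act E w (act E w' v) := by
  simp [act]

theorem act_mem {E : Fin n → Fin n → Module.End ℂ V} {U : Submodule ℂ V} (hU : Stable E U)
    (w : List (Fin n × Fin n)) {v : V} (hv : v ∈ U) : act E w v ∈ U := by
  induction w with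
  | nil => exact hv
  | cons p w ih => rw [act_cons]; exact hU _ _ _ ih

theorem act_adj {E : Fin n → Fin n → Module.End ℂ V} {B : V →ₗ⋆[ℂ] V →ₗ[ℂ] ℂ} (hB : Form E B)
    (w : List (Fin n × Fin n)) (x y : V) :
    B (act E w x) y = B x (act E (w.map Prod.swap).reverse y) := by
  induction w generalizing y with
  | nil => rfl
  | cons p w ih =>
    rw [act_cons, hB.adj, ih, List.map_cons, List.reverse_cons, act_append, act_cons, act_nil]
    rfl

/-- The core of the Shapovalov lemma. -/
theorem shapo_core {G : Fin n → Fin n → Module.End ℂ V} (hG : IsGl G) (δ : V →ₗ[ℂ] ℂ)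
    (hδ : ∀ i j, j < i → ∀ x, δ (G i j x) = 0) {mu : Fin n → ℕ} {z : V} (hz : z ∈ hw G mu)
    (h0 : δ z = 0) (w : List (Fin n × Fin n)) : δ (act G w z) = 0 := by
  induction hm : w.length generalizing w with
  | zero =>
    obtain rfl := List.length_eq_zero_iff.1 hm
    exact h0
  | succ m ih =>
    have hmove : ∀ (a : Fin n × Fin n) (l₁ l₂ : List (Fin n × Fin n)),
        l₁.length + l₂.length = m → δ (act G (l₁ ++ a :: l₂) z) = δ (act G (a :: l₁ ++ l₂) z) := by
      intro a l₁
      induction l₁ using List.reverseRecOn with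
      | nil => intro l₂ _; rfl
      | append_singleton l₁ b ih₁ =>
        intro l₂ hl
        have hl' : l₁.length + (b :: l₂).length = m := by
          simp only [List.length_append, List.length_cons, List.length_nil] at hl ⊢
          omega
        have h1 := ih₁ (b :: l₂) hl'
        have h2 : ∀ p : Fin n × Fin n, δ (act G l₁ (G p.1 p.2 (act G l₂ z))) = 0 := by
          intro p
          rw [← act_cons, ← act_append]
          refine ih _ ?_
          simpa using hl'
        have h3 : δ (act G (l₁ ++ [b] ++ a :: l₂) z) = δ (act G (l₁ ++ a :: b :: l₂) z) := by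
          rw [List.append_assoc, act_append, act_append G l₁, List.singleton_append, act_cons,
            act_cons, act_cons, act_cons, comm_apply hG b.1 b.2 a.1 a.2]
          simp only [map_sub, map_add]
          have h4 : δ (act G l₁ (if b.2 = a.1 then G b.1 a.2 (act G l₂ z) else 0)) = 0 := by
            split_ifs
            · exact h2 (b.1, a.2)
            · simp
          have h5 : δ (act G l₁ (if a.2 = b.1 then G a.1 b.2 (act G l₂ z) else 0)) = 0 := by
            split_ifs
            · exact h2 (a.1, b.2)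
            · simp
          rw [h4, h5, add_zero, sub_zero]
        rw [h3, h1]
        simp
    induction w using List.reverseRecOn with
    | nil => simp at hm
    | append_singleton l a _ =>
      have hl : l.length = m := by simpa using hm
      obtain ⟨i, j⟩ := a
      rcases lt_trichotomy i j with hij | rfl | hij
      · rw [act_append, act_cons, act_nil, (mem_hw.1 hz).2 i j hij, map_zero, map_zero]
      · rw [act_append, act_cons, act_nil, (mem_hw.1 hz).1 i, map_smul, map_smul, ih l hl,
          smul_zero]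
      · rw [hmove (i, j) l [] (by simpa using hl), List.cons_append, act_cons]
        exact hδ i j hij _

/-- The Shapovalov lemma. -/
theorem shapo {E : Fin n → Fin n → Module.End ℂ V} {E' : Fin n → Fin n → Module.End ℂ V'}
    {B : V →ₗ⋆[ℂ] V →ₗ[ℂ] ℂ} {B' : V' →ₗ⋆[ℂ] V' →ₗ[ℂ] ℂ} (hE : IsGl E) (hE' : IsGl E')
    (hB : Form E B) (hB' : Form E' B') {lam mu : Fin n → ℕ} {v u : V} {v' u' : V'}
    (hv : v ∈ hw E lam) (hv' : v' ∈ hw E' lam) (hu : u ∈ hw E mu) (hu' : u' ∈ hw E' mu)
    (h : B v u = B' v' u') (w : List (Fin n × Fin n)) :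
    B v (act E w u) = B' v' (act E' w u') := by
  let G : Fin n → Fin n → Module.End ℂ (V × V') := fun i j => (E i j).prodMap (E' i j)
  have hG : IsGl G := by
    intro i j k l
    refine LinearMap.ext fun x => ?_
    have h1 := comm_apply hE i j k l x.1
    have h2 := comm_apply hE' i j k l x.2
    refine Prod.ext ?_ ?_
    · simp only [G, LinearMap.sub_apply, Module.End.mul_apply, Prod.fst_sub,
        LinearMap.prodMap_apply, h1]
      split_ifs <;> simp <;> abel
    · simp only [G, LinearMap.sub_apply, Module.End.mul_apply, Prod.snd_sub,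
        LinearMap.prodMap_apply, h2]
      split_ifs <;> simp <;> abel
  let δ : V × V' →ₗ[ℂ] ℂ := B v ∘ₗ LinearMap.fst ℂ V V' - B' v' ∘ₗ LinearMap.snd ℂ V V'
  have hδ : ∀ x : V × V', δ x = B v x.1 - B' v' x.2 := fun x => rfl
  have hact : ∀ w : List (Fin n × Fin n), act G w (u, u') = (act E w u, act E' w u') := by
    intro w
    induction w with
    | nil => rfl
    | cons p w ih => rw [act_cons, act_cons, act_cons, ih]; rfl
  have h1 := shapo_core hG δ (fun i j hij x => by
      rw [hδ]
      show B v (E i j x.1) - B' v' (E' i j x.2) = 0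
      rw [← hB.adj, ← hB'.adj, (mem_hw.1 hv).2 j i hij, (mem_hw.1 hv').2 j i hij]
      simp) (mu := mu) (z := (u, u'))
    (mem_hw.2 ⟨fun i => Prod.ext ((mem_hw.1 hu).1 i) ((mem_hw.1 hu').1 i),
      fun i j hij => Prod.ext ((mem_hw.1 hu).2 i j hij) ((mem_hw.1 hu').2 i j hij)⟩)
    (by rw [hδ]; exact sub_eq_zero.2 h) w
  rw [hact, hδ] at h1
  exact sub_eq_zero.1 h1

end Shapo

open Shapo

/-- Highest weights are dominant (`‖E (i+1) i v‖² = (lam i - lam (i+1)) ‖v‖²`, in fact for all `i < j`). -/
theorem antitone_of_hdim_ne_zero {E : Fin n → Fin n → Module.End ℂ V} (hE : Good E)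
    {U : Submodule ℂ V} {lam : Fin n → ℕ} (h : hdim E U lam ≠ 0) : Antitone lam := by
  obtain ⟨B, hB⟩ := exists_form hE.uni
  have hne : U ⊓ hw E lam ≠ ⊥ := by
    intro h0
    apply h
    rw [hdim, h0]
    simp
  obtain ⟨v, hv, hv0⟩ := Submodule.exists_mem_ne_zero_of_ne_bot hne
  intro i j hij
  rcases hij.eq_or_lt with rfl | hij
  · exact le_rfl
  obtain ⟨h1, h2⟩ := mem_hw.1 hv.2
  have h3 : B (E j i v) (E j i v) = ((lam i : ℂ) - lam j) * B v v := by
    rw [hB.adj, comm_apply hE.gl i j j i v, if_pos rfl, if_pos rfl, h2 i j hij, h1 i, h1 j]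
    simp only [map_zero, zero_add, map_sub, map_smul, smul_eq_mul]
    ring
  have h4 := hB.nonneg (E j i v)
  have h5 := hB.pos v hv0
  rw [h3, show ((lam i : ℂ) - lam j) = (((lam i : ℝ) - lam j : ℝ) : ℂ) by push_cast; rfl,
    Complex.re_ofReal_mul] at h4
  have h6 : (0 : ℝ) ≤ (lam i : ℝ) - lam j := nonneg_of_mul_nonneg_left h4 h5
  have h7 : (lam j : ℝ) ≤ lam i := by linarith
  exact_mod_cast h7

theorem hdim_le_of_inj {E : Fin n → Fin n → Module.End ℂ V} {E' : Fin n → Fin n → Module.End ℂ V'}
    {U : Submodule ℂ V} {U' : Submodule ℂ V'} [FiniteDimensional ℂ U'] (hU : Stable E U)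
    (f : V →ₗ[ℂ] V') (hmap : ∀ v ∈ U, f v ∈ U') (hinj : Set.InjOn f U)
    (hcomm : ∀ i j, ∀ v ∈ U, f (E i j v) = E' i j (f v)) (lam : Fin n → ℕ) :
    hdim E U lam ≤ hdim E' U' lam := by
  have _ := hU
  have h1 : ∀ v ∈ U ⊓ hw E lam, f v ∈ U' ⊓ hw E' lam := by
    intro v hv
    obtain ⟨h1, h2⟩ := mem_hw.1 hv.2
    refine ⟨hmap v hv.1, mem_hw.2 ⟨fun i => ?_, fun i j hij => ?_⟩⟩
    · rw [← hcomm i i v hv.1, h1 i, map_smul]
    · rw [← hcomm i j v hv.1, h2 i j hij, map_zero]
  have : FiniteDimensional ℂ ↥(U' ⊓ hw E' lam) := Submodule.finiteDimensional_inf_left _ _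
  refine LinearMap.finrank_le_finrank_of_injective (f := f.restrict h1) fun x y hxy => ?_
  exact Subtype.ext (hinj x.2.1 y.2.1 (congrArg Subtype.val hxy))

theorem hdim_le_of_surj {E : Fin n → Fin n → Module.End ℂ V} {E' : Fin n → Fin n → Module.End ℂ V'}
    (hE : Unitarizable E) {U : Submodule ℂ V} {U' : Submodule ℂ V'} [FiniteDimensional ℂ U]
    (hU : Stable E U) (f : V →ₗ[ℂ] V') (hsurj : U' ≤ U.map f)
    (hcomm : ∀ i j, ∀ v ∈ U, f (E i j v) = E' i j (f v)) (lam : Fin n → ℕ) :
    hdim E' U' lam ≤ hdim E U lam := by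
  obtain ⟨B, hB⟩ := exists_form hE
  have hK : Stable E (U ⊓ LinearMap.ker f) := by
    intro i j v hv
    refine ⟨hU i j v hv.1, ?_⟩
    show f (E i j v) = 0
    rw [hcomm i j v hv.1, show f v = 0 from hv.2, map_zero]
  have hC : Stable E (U ⊓ perp B (U ⊓ LinearMap.ker f)) := stable_inf hU (hB.stable_perp hK)
  have : FiniteDimensional ℂ ↥(U ⊓ LinearMap.ker f) := Submodule.finiteDimensional_inf_left _ _
  have : FiniteDimensional ℂ ↥(U ⊓ hw E lam) := Submodule.finiteDimensional_inf_left _ _
  have hinj : ∀ c ∈ U ⊓ perp B (U ⊓ LinearMap.ker f), f c = 0 → c = 0 := fun c hc h0 =>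
    hB.eq_zero_of_mem_perp (K := U ⊓ LinearMap.ker f) ⟨hc.1, h0⟩ hc.2
  have hle : U' ⊓ hw E' lam ≤ (U ⊓ hw E lam).map f := by
    rintro v' ⟨hv', hw'⟩
    obtain ⟨u, hu, rfl⟩ := hsurj hv'
    obtain ⟨k, hk, c, hc, rfl⟩ := hB.exists_decomp_le (K := U ⊓ LinearMap.ker f) inf_le_left hu
    have hfk : f (k + c) = f c := by rw [map_add, show f k = 0 from hk.2, zero_add]
    rw [hfk] at hw' ⊢
    obtain ⟨h1, h2⟩ := mem_hw.1 hw'
    refine ⟨c, ⟨hc.1, mem_hw.2 ⟨fun i => ?_, fun i j hij => ?_⟩⟩, rfl⟩
    · refine sub_eq_zero.1 (hinj _ (Submodule.sub_mem _ (hC i i c hc)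
        (Submodule.smul_mem _ _ hc)) ?_)
      rw [map_sub, map_smul, hcomm i i c hc.1, h1 i, sub_self]
    · refine hinj _ (hC i j c hc) ?_
      rw [hcomm i j c hc.1, h2 i j hij]
  exact (Submodule.finrank_mono hle).trans (Submodule.finrank_map_le f _)

theorem exists_inj {E : Fin n → Fin n → Module.End ℂ V} {E' : Fin n → Fin n → Module.End ℂ V'}
    (hE : Good E) (hE' : Good E') {U : Submodule ℂ V} {U' : Submodule ℂ V'}
    [FiniteDimensional ℂ U] [FiniteDimensional ℂ U'] (hU : Stable E U) (hU' : Stable E' U')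
    (h : ∀ lam : Fin n → ℕ, Antitone lam → hdim E U lam ≤ hdim E' U' lam) :
    ∃ φ : V →ₗ[ℂ] V', (∀ v ∈ U, φ v ∈ U') ∧ Set.InjOn φ U ∧
      ∀ i j, ∀ v ∈ U, φ (E i j v) = E' i j (φ v) := by
  classical
  obtain ⟨B, hB⟩ := exists_form hE.uni
  obtain ⟨B', hB'⟩ := exists_form hE'.uni
  have hall : ∀ lam, hdim E U lam ≤ hdim E' U' lam := by
    intro lam
    by_cases h0 : hdim E U lam = 0
    · rw [h0]; exact Nat.zero_le _
    · exact h lam (antitone_of_hdim_ne_zero hE h0)
  have hψ : ∀ lam, ∃ ψ : ↥(U ⊓ hw E lam) → ↥(U' ⊓ hw E' lam),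
      ∀ a b : ↥(U ⊓ hw E lam), B' (ψ a) (ψ b) = B a b := by
    intro lam
    have : FiniteDimensional ℂ ↥(U ⊓ hw E lam) := Submodule.finiteDimensional_inf_left _ _
    have : FiniteDimensional ℂ ↥(U' ⊓ hw E' lam) := Submodule.finiteDimensional_inf_left _ _
    exact exists_isom hB.toPosHerm hB'.toPosHerm _ _ (hall lam)
  choose ψ hψ using hψ
  let I := List (Fin n × Fin n) × Σ lam : Fin n → ℕ, ↥(U ⊓ hw E lam)
  let g : I → V := fun x => act E x.1 x.2.2
  let g' : I → V' := fun x => act E' x.1 (ψ x.2.1 x.2.2)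
  let p : (I →₀ ℂ) →ₗ[ℂ] V := Finsupp.linearCombination ℂ g
  let p' : (I →₀ ℂ) →ₗ[ℂ] V' := Finsupp.linearCombination ℂ g'
  have hp : ∀ x c, p (Finsupp.single x c) = c • g x := fun x c =>
    Finsupp.linearCombination_single ℂ c x
  have hp' : ∀ x c, p' (Finsupp.single x c) = c • g' x := fun x c =>
    Finsupp.linearCombination_single ℂ c x
  have hgram : ∀ x y : I, B (g x) (g y) = B' (g' x) (g' y) := by
    rintro ⟨w, lam, a⟩ ⟨w', mu, b⟩
    show B (act E w a) (act E w' b) = B' (act E' w (ψ lam a)) (act E' w' (ψ mu b))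
    rw [act_adj hB, act_adj hB', ← act_append, ← act_append]
    refine shapo hE.gl hE'.gl hB hB' a.2.2 (ψ lam a).2.2 b.2.2 (ψ mu b).2.2 ?_ _
    by_cases hlm : lam = mu
    · subst hlm
      exact (hψ lam a b).symm
    · rw [hB.orth_of_wt a.2.2.1 b.2.2.1 hlm,
        hB'.orth_of_wt (ψ lam a).2.2.1 (ψ mu b).2.2.1 hlm]
  have hgram' : ∀ x y : I →₀ ℂ, B (p x) (p y) = B' (p' x) (p' y) := by
    intro x y
    induction x using Finsupp.induction_linear with
    | zero => simp
    | add x₁ x₂ h₁ h₂ => simp only [map_add, LinearMap.add_apply, h₁, h₂]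
    | single x c =>
      induction y using Finsupp.induction_linear with
      | zero => simp
      | add y₁ y₂ h₁ h₂ => simp only [map_add, h₁, h₂]
      | single y d =>
        rw [hp, hp, hp', hp']
        simp only [map_smulₛₗ, LinearMap.smul_apply, hgram]
  have hker : ∀ x, p x = 0 ↔ p' x = 0 := by
    intro x
    constructor
    · intro h0
      refine hB'.eq_zero ?_
      rw [← hgram', h0, map_zero]
    · intro h0
      refine hB.eq_zero ?_
      rw [hgram', h0, map_zero]
  have hshift : ∀ i j (x : I →₀ ℂ), ∃ y : I →₀ ℂ, p y = E i j (p x) ∧ p' y = E' i j (p' x) := by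
    intro i j x
    induction x using Finsupp.induction_linear with
    | zero => exact ⟨0, by simp, by simp⟩
    | add x₁ x₂ h₁ h₂ =>
      obtain ⟨y₁, h₁, h₁'⟩ := h₁
      obtain ⟨y₂, h₂, h₂'⟩ := h₂
      exact ⟨y₁ + y₂, by simp only [map_add, h₁, h₂], by simp only [map_add, h₁', h₂']⟩
    | single x c =>
      refine ⟨Finsupp.single ((i, j) :: x.1, x.2) c, ?_, ?_⟩
      · rw [hp, hp, map_smul]
        exact congrArg (c • ·) (act_cons E (i, j) x.1 _)
      · rw [hp', hp', map_smul]
        exact congrArg (c • ·) (act_cons E' (i, j) x.1 _)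
  have hrangeU : LinearMap.range p ≤ U := by
    rw [Finsupp.range_linearCombination, Submodule.span_le]
    rintro _ ⟨x, rfl⟩
    exact act_mem hU _ x.2.2.2.1
  have hrangeU' : LinearMap.range p' ≤ U' := by
    rw [Finsupp.range_linearCombination, Submodule.span_le]
    rintro _ ⟨x, rfl⟩
    exact act_mem hU' _ (ψ x.2.1 x.2.2).2.1
  have hst : Stable E (LinearMap.range p) := by
    rintro i j _ ⟨x, rfl⟩
    obtain ⟨y, hy, -⟩ := hshift i j x
    exact ⟨y, hy⟩
  have hUrange : U ≤ LinearMap.range p := by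
    have : FiniteDimensional ℂ ↥(LinearMap.range p) := Submodule.finiteDimensional_of_le hrangeU
    have : FiniteDimensional ℂ ↥(U ⊓ perp B (LinearMap.range p)) :=
      Submodule.finiteDimensional_inf_left _ _
    have hbot : U ⊓ perp B (LinearMap.range p) = ⊥ := by
      by_contra hne
      obtain ⟨lam, v, hv, hv0⟩ := exists_hw hE (stable_inf hU (hB.stable_perp hst)) hne
      refine hv0 (hB.eq_zero_of_mem_perp ?_ hv.1.2)
      refine ⟨Finsupp.single ([], ⟨lam, ⟨v, hv.1.1, hv.2⟩⟩) 1, ?_⟩
      rw [hp, one_smul]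
      rfl
    rw [← hB.sup_perp hrangeU, hbot, sup_bot_eq]
  obtain ⟨s₀, hs₀⟩ := p.rangeRestrict.exists_rightInverse_of_surjective p.range_rangeRestrict
  obtain ⟨s, hs⟩ := LinearMap.exists_extend s₀
  have hφ : ∀ x, p' (s (p x)) = p' x := by
    intro x
    have h1 : s (p x) = s₀ ⟨p x, x, rfl⟩ := by rw [← hs]; rfl
    have h2 : p (s₀ ⟨p x, x, rfl⟩) = p x :=
      congrArg Subtype.val (LinearMap.congr_fun hs₀ ⟨p x, x, rfl⟩)
    rw [← sub_eq_zero, ← map_sub, ← hker, map_sub, h1, h2, sub_self]
  refine ⟨p' ∘ₗ s, fun v _ => hrangeU' ⟨s v, rfl⟩, ?_, ?_⟩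
  · intro v hv v' hv' hvv
    obtain ⟨x, rfl⟩ := hUrange hv
    obtain ⟨y, rfl⟩ := hUrange hv'
    simp only [LinearMap.comp_apply, hφ] at hvv
    rw [← sub_eq_zero, ← map_sub, hker, map_sub, hvv, sub_self]
  · intro i j v hv
    obtain ⟨x, rfl⟩ := hUrange hv
    obtain ⟨y, hy, hy'⟩ := hshift i j x
    simp only [LinearMap.comp_apply]
    rw [← hy, hφ, hφ, hy']

end Crest.Agent.R187
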