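import Crest.Agent.R187.Defs

/-!
# Task B, basic facts: orthogonal complements, weight decomposition, highest weight vectors
-/

set_option autoImplicit false

namespace Crest.Agent.R187.Shapo

variable {n : ℕ} {V V' : Type*} [AddCommGroup V] [Module ℂ V] [AddCommGroup V'] [Module ℂ V']

/-- A positive definite Hermitian form. -/
structure PosHerm (B : V →ₗ⋆[ℂ] V →ₗ[ℂ] ℂ) : Prop where
  symm : ∀ v w, B v w = starRingEnd ℂ (B w v)
  pos : ∀ v, v ≠ 0 → 0 < (B v v).re

/-- A positive definite Hermitian form for which `E j i` is adjoint to `E i j`. -/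
structure Form (E : Fin n → Fin n → Module.End ℂ V) (B : V →ₗ⋆[ℂ] V →ₗ[ℂ] ℂ) : Prop
    extends PosHerm B where
  adj : ∀ i j v w, B (E i j v) w = B v (E j i w)

theorem exists_form {E : Fin n → Fin n → Module.End ℂ V} (h : Unitarizable E) :
    ∃ B : V →ₗ⋆[ℂ] V →ₗ[ℂ] ℂ, Form E B := by
  obtain ⟨B, h1, h2, h3⟩ := h
  exact ⟨B, ⟨h1, h2⟩, h3⟩

variable {B : V →ₗ⋆[ℂ] V →ₗ[ℂ] ℂ} {B' : V' →ₗ⋆[ℂ] V' →ₗ[ℂ] ℂ}

theorem PosHerm.eq_zero (hB : PosHerm B) {v : V} (h : B v v = 0) : v = 0 := by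
  by_contra hv
  have h1 := hB.pos v hv
  rw [h] at h1
  simp at h1

theorem PosHerm.nonneg (hB : PosHerm B) (v : V) : 0 ≤ (B v v).re := by
  by_cases hv : v = 0
  · simp [hv]
  · exact (hB.pos v hv).le

theorem PosHerm.zero_symm (hB : PosHerm B) {v w : V} (h : B v w = 0) : B w v = 0 := by
  rw [hB.symm, h, map_zero]

/-- The inner product core attached to a positive definite Hermitian form. -/
@[reducible] noncomputable def PosHerm.core (hB : PosHerm B) : InnerProductSpace.Core ℂ V where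
  inner v w := B v w
  conj_inner_symm x y := (hB.symm x y).symm
  re_inner_nonneg x := hB.nonneg x
  add_left x y z := by simp
  smul_left x y r := by simp
  definite x hx := hB.eq_zero hx

/-- The orthogonal complement. -/
def perp (B : V →ₗ⋆[ℂ] V →ₗ[ℂ] ℂ) (K : Submodule ℂ V) : Submodule ℂ V where
  carrier := {v | ∀ k ∈ K, B k v = 0}
  add_mem' := fun {a b} ha hb k hk => by rw [map_add, ha k hk, hb k hk, add_zero]
  zero_mem' := fun k _ => map_zero _
  smul_mem' := fun c a ha k hk => by rw [map_smul, ha k hk, smul_zero]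

theorem mem_perp {K : Submodule ℂ V} {v : V} : v ∈ perp B K ↔ ∀ k ∈ K, B k v = 0 := Iff.rfl

theorem PosHerm.eq_zero_of_mem_perp (hB : PosHerm B) {K : Submodule ℂ V} {v : V} (h1 : v ∈ K)
    (h2 : v ∈ perp B K) : v = 0 := hB.eq_zero (h2 v h1)

theorem PosHerm.exists_decomp (hB : PosHerm B) (K : Submodule ℂ V) [FiniteDimensional ℂ K]
    (v : V) : ∃ k ∈ K, v - k ∈ perp B K := by
  let := hB.core
  let : NormedAddCommGroup V := InnerProductSpace.Core.toNormedAddCommGroup (𝕜 := ℂ)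
  let : InnerProductSpace ℂ V := InnerProductSpace.ofCore _
  obtain ⟨y, hy, z, hz, rfl⟩ := K.exists_add_mem_mem_orthogonal v
  refine ⟨y, hy, fun k hk => ?_⟩
  rw [add_sub_cancel_left]
  exact (Submodule.mem_orthogonal K z).1 hz k hk

/-- Restriction of a form to a subspace. -/
noncomputable def restr (B : V →ₗ⋆[ℂ] V →ₗ[ℂ] ℂ) (S : Submodule ℂ V) : S →ₗ⋆[ℂ] S →ₗ[ℂ] ℂ :=
  B.domRestrict₁₂ S S

theorem PosHerm.restr (hB : PosHerm B) (S : Submodule ℂ V) : PosHerm (restr B S) :=
  ⟨fun v w => hB.symm v w, fun v hv => hB.pos v fun h => hv (Subtype.ext h)⟩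

theorem exists_isom_aux (hB : PosHerm B) (hB' : PosHerm B') [FiniteDimensional ℂ V]
    [FiniteDimensional ℂ V'] (h : Module.finrank ℂ V ≤ Module.finrank ℂ V') :
    ∃ ψ : V → V', ∀ a b, B' (ψ a) (ψ b) = B a b := by
  let := hB.core
  let : NormedAddCommGroup V := InnerProductSpace.Core.toNormedAddCommGroup (𝕜 := ℂ)
  let : InnerProductSpace ℂ V := InnerProductSpace.ofCore _
  let := hB'.core
  let : NormedAddCommGroup V' := InnerProductSpace.Core.toNormedAddCommGroup (𝕜 := ℂ)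
  let : InnerProductSpace ℂ V' := InnerProductSpace.ofCore _
  let b := stdOrthonormalBasis ℂ V
  let b' := stdOrthonormalBasis ℂ V'
  let f : V →ₗ[ℂ] V' := b.toBasis.constr ℂ (fun i => b' (Fin.castLE h i))
  have hf : Orthonormal ℂ (f ∘ b.toBasis) := by
    have h1 : f ∘ b.toBasis = b' ∘ Fin.castLE h := by
      funext i
      exact b.toBasis.constr_basis ℂ _ i
    rw [h1]
    exact b'.orthonormal.comp _ (Fin.castLE_injective h)
  have hb : Orthonormal ℂ b.toBasis := by simp
  exact ⟨f, fun x y => (f.isometryOfOrthonormal hb hf).inner_map_map x y⟩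

/-- Isometric embedding of a subspace in a subspace of at least the same dimension. -/
theorem exists_isom (hB : PosHerm B) (hB' : PosHerm B') (S : Submodule ℂ V) (S' : Submodule ℂ V')
    [FiniteDimensional ℂ S] [FiniteDimensional ℂ S']
    (h : Module.finrank ℂ S ≤ Module.finrank ℂ S') :
    ∃ ψ : S → S', ∀ a b : S, B' (ψ a) (ψ b) = B a b :=
  exists_isom_aux (hB.restr S) (hB'.restr S') h

variable {E : Fin n → Fin n → Module.End ℂ V}

theorem stable_inf {U U' : Submodule ℂ V} (hU : Stable E U) (hU' : Stable E U') :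
    Stable E (U ⊓ U') := fun i j v hv => ⟨hU i j v hv.1, hU' i j v hv.2⟩

theorem Form.stable_perp (hB : Form E B) {K : Submodule ℂ V} (hK : Stable E K) :
    Stable E (perp B K) := by
  intro i j v hv k hk
  rw [← hB.adj]
  exact hv _ (hK j i k hk)

/-- Decomposition of `U` along a finite-dimensional subspace `K ≤ U`. -/
theorem PosHerm.exists_decomp_le (hB : PosHerm B) {K U : Submodule ℂ V} [FiniteDimensional ℂ K]
    (hKU : K ≤ U) {v : V} (hv : v ∈ U) : ∃ k ∈ K, ∃ c ∈ U ⊓ perp B K, v = k + c := by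
  obtain ⟨k, hk, hc⟩ := hB.exists_decomp K v
  exact ⟨k, hk, v - k, ⟨U.sub_mem hv (hKU hk), hc⟩, by abel⟩

theorem PosHerm.sup_perp (hB : PosHerm B) {K U : Submodule ℂ V} [FiniteDimensional ℂ K]
    (hKU : K ≤ U) : K ⊔ (U ⊓ perp B K) = U := by
  refine le_antisymm (sup_le hKU inf_le_left) fun v hv => ?_
  obtain ⟨k, hk, c, hc, rfl⟩ := hB.exists_decomp_le hKU hv
  exact Submodule.add_mem_sup hk hc

theorem PosHerm.disjoint_perp (hB : PosHerm B) (K U : Submodule ℂ V) :
    Disjoint K (U ⊓ perp B K) :=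
  Submodule.disjoint_def.2 fun _ h1 h2 => hB.eq_zero_of_mem_perp h1 h2.2

/-- Eigenvectors of `E i i` for different eigenvalues (one of them real) are orthogonal. -/
theorem Form.orth_of_eigen (hB : Form E B) {i : Fin n} {v w : V} {a : ℕ} {c : ℂ}
    (hv : E i i v = (a : ℂ) • v) (hw : E i i w = c • w) (hne : (a : ℂ) ≠ c) : B v w = 0 := by
  have h1 := hB.adj i i v w
  rw [hv, hw, map_smulₛₗ, map_smul, LinearMap.smul_apply, map_natCast, smul_eq_mul,
    smul_eq_mul] at h1
  have h2 : ((a : ℂ) - c) * B v w = 0 := by rw [sub_mul, h1, sub_self]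
  exact (mul_eq_zero.1 h2).resolve_left (sub_ne_zero.2 hne)

theorem Form.orth_of_wt (hB : Form E B) {γ γ' : Fin n → ℕ} {v w : V} (hv : v ∈ wt E γ)
    (hw : w ∈ wt E γ') (hne : γ ≠ γ') : B v w = 0 := by
  obtain ⟨i, hi⟩ := Function.ne_iff.1 hne
  exact hB.orth_of_eigen (mem_wt.1 hv i) (mem_wt.1 hw i) (by exact_mod_cast hi)

/-- Eigenvalues of `E i i` are natural numbers. -/
theorem Form.eq_zero_of_eigen (hB : Form E B) (hP : PolyWt E) {i : Fin n} {w : V} {c : ℂ}
    (hw : E i i w = c • w) (hc : ∀ a : ℕ, (a : ℂ) ≠ c) : w = 0 := by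
  have h1 : ∀ v ∈ (⨆ γ : Fin n → ℕ, wt E γ), B v w = 0 := by
    intro v hv
    induction hv using Submodule.iSup_induction' with
    | mem γ v hv => exact hB.orth_of_eigen (mem_wt.1 hv i) hw (hc _)
    | zero => simp
    | add x y _ _ hx hy => simp [hx, hy]
  exact hB.eq_zero (h1 w (by rw [hP]; trivial))

/-- A stable finite-dimensional subspace is the sum of its weight spaces. -/
theorem le_iSup_wt (hE : Unitarizable E) (hP : PolyWt E) {U : Submodule ℂ V}
    [FiniteDimensional ℂ U] (hU : Stable E U) : U ≤ ⨆ γ : Fin n → ℕ, U ⊓ wt E γ := by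
  obtain ⟨B, hB⟩ := exists_form hE
  have hle : (⨆ γ : Fin n → ℕ, U ⊓ wt E γ) ≤ U := iSup_le fun _ => inf_le_left
  have h1 : ∀ v ∈ (⨆ γ : Fin n → ℕ, wt E γ),
      ∃ k ∈ (⨆ γ : Fin n → ℕ, U ⊓ wt E γ), v - k ∈ perp B U := by
    intro v hv
    induction hv using Submodule.iSup_induction' with
    | mem γ v hv =>
      obtain ⟨k, hk, hc⟩ := hB.exists_decomp U v
      refine ⟨k, Submodule.mem_iSup_of_mem γ ⟨hk, mem_wt.2 fun i => ?_⟩, hc⟩
      have h2 : E i i k - (γ i : ℂ) • k ∈ U := U.sub_mem (hU i i k hk) (U.smul_mem _ hk)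
      have h3 : E i i k - (γ i : ℂ) • k = (γ i : ℂ) • (v - k) - E i i (v - k) := by
        rw [map_sub, smul_sub, mem_wt.1 hv i]
        abel
      have h4 : E i i k - (γ i : ℂ) • k ∈ perp B U := by
        rw [h3]
        exact Submodule.sub_mem _ (Submodule.smul_mem _ _ hc) (hB.stable_perp hU i i _ hc)
      exact sub_eq_zero.1 (hB.eq_zero_of_mem_perp h2 h4)
    | zero => exact ⟨0, Submodule.zero_mem _, by simp⟩
    | add x y _ _ hx hy =>
      obtain ⟨k, hk, hc⟩ := hx
      obtain ⟨k', hk', hc'⟩ := hy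
      refine ⟨k + k', Submodule.add_mem _ hk hk', ?_⟩
      rw [show x + y - (k + k') = (x - k) + (y - k') by abel]
      exact Submodule.add_mem _ hc hc'
  intro v hv
  obtain ⟨k, hk, hc⟩ := h1 v (by rw [hP]; trivial)
  have h2 : v - k = 0 := hB.eq_zero_of_mem_perp (U.sub_mem hv (hle hk)) hc
  rw [sub_eq_zero.1 h2]
  exact hk

theorem comm_apply (hE : IsGl E) (i j k l : Fin n) (v : V) :
    E i j (E k l v) = E k l (E i j v) + (if j = k then E i l v else 0) -
      (if l = i then E k j v else 0) := by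
  have h := congrArg (fun f : Module.End ℂ V => f v) (hE i j k l)
  simp only [LinearMap.sub_apply, Module.End.mul_apply] at h
  rw [sub_eq_iff_eq_add, apply_ite (fun f : Module.End ℂ V => f v),
    apply_ite (fun f : Module.End ℂ V => f v)] at h
  simp only [LinearMap.zero_apply] at h
  rw [h]
  abel

/-- The weight of `E i j v`. -/
theorem eigen_step (hE : IsGl E) {γ : Fin n → ℕ} {v : V} (hv : v ∈ wt E γ) (i j k : Fin n) :
    E k k (E i j v) =
      ((γ k : ℂ) + (if k = i then 1 else 0) - (if k = j then 1 else 0)) • E i j v := by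
  rw [comm_apply hE k k i j v, mem_wt.1 hv k, map_smul, sub_smul, add_smul]
  congr 1
  · congr 1
    split_ifs with h
    · rw [h, one_smul]
    · rw [zero_smul]
  · by_cases h : k = j
    · rw [if_pos h.symm, if_pos h, h, one_smul]
    · rw [if_neg fun h' => h h'.symm, if_neg h, zero_smul]

/-- `E i j` kills weight vectors with `γ j = 0` (`i ≠ j`). -/
theorem apply_eq_zero_of_wt (hE : Good E) {γ : Fin n → ℕ} {v : V} (hv : v ∈ wt E γ) {i j : Fin n}
    (hij : i ≠ j) (h0 : γ j = 0) : E i j v = 0 := by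
  obtain ⟨B, hB⟩ := exists_form hE.uni
  refine hB.eq_zero_of_eigen hE.poly (eigen_step hE.gl hv i j j) fun a ha => ?_
  rw [if_neg hij.symm, if_pos rfl, h0] at ha
  have h1 : ((a + 1 : ℕ) : ℂ) = 0 := by push_cast; rw [ha]; simp
  exact Nat.succ_ne_zero a (by exact_mod_cast h1)

/-- `E i j` maps weight `γ` to weight `γ + e_i - e_j`. -/
theorem apply_mem_wt (hE : Good E) {γ : Fin n → ℕ} {v : V} (hv : v ∈ wt E γ) (i j : Fin n) :
    E i j v ∈ wt E (fun k => γ k + (if k = i then 1 else 0) - (if k = j then 1 else 0)) := by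
  by_cases h : i ≠ j ∧ γ j = 0
  · rw [apply_eq_zero_of_wt hE hv h.1 h.2]
    exact Submodule.zero_mem _
  refine mem_wt.2 fun k => ?_
  rw [eigen_step hE.gl hv i j k]
  congr 1
  have h1 : (if k = j then 1 else 0) ≤ γ k + (if k = i then 1 else 0) := by
    by_cases hkj : k = j
    · subst hkj
      by_cases hik : k = i
      · simp [hik]
      · have : γ k ≠ 0 := fun h0 => h ⟨fun h' => hik h'.symm, h0⟩
        simp only [if_true, if_neg hik]
        omega
    · simp [hkj]
  rw [Nat.cast_sub h1]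
  push_cast
  rfl

/-- A non-zero stable finite-dimensional subspace contains a non-zero highest weight vector. -/
theorem exists_hw (hE : Good E) {U : Submodule ℂ V} [FiniteDimensional ℂ U] (hU : Stable E U)
    (hne : U ≠ ⊥) : ∃ lam : Fin n → ℕ, ∃ v ∈ U ⊓ hw E lam, v ≠ 0 := by
  classical
  let φ : (Fin n → ℕ) → ℕ := fun γ => ∑ k : Fin n, (n - k) * γ k
  let H : Module.End ℂ V := ∑ k : Fin n, ((n - k : ℕ) : ℂ) • E k k
  have hHU : ∀ v ∈ U, H v ∈ U := by
    intro v hv
    simp only [H, LinearMap.sum_apply, LinearMap.smul_apply]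
    exact U.sum_mem fun k _ => U.smul_mem _ (hU k k v hv)
  have hH : ∀ γ, ∀ v ∈ wt E γ, H v = (φ γ : ℂ) • v := by
    intro γ v hv
    simp only [H, φ, LinearMap.sum_apply, LinearMap.smul_apply, Nat.cast_sum, Finset.sum_smul]
    refine Finset.sum_congr rfl fun k _ => ?_
    rw [mem_wt.1 hv k, smul_smul, Nat.cast_mul]
  let S : Set ℕ := {m | ∃ γ, φ γ = m ∧ ∃ v ∈ U ⊓ wt E γ, v ≠ 0}
  have hfin : S.Finite := by
    have h1 := Module.End.finite_hasEigenvalue (H.restrict hHU)
    refine (h1.preimage (f := fun m : ℕ => (m : ℂ)) Nat.cast_injective.injOn).subset ?_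
    rintro _ ⟨γ, rfl, v, hv, hv0⟩
    refine Module.End.hasEigenvalue_of_hasEigenvector (x := ⟨v, hv.1⟩) ⟨?_, ?_⟩
    · rw [Module.End.mem_eigenspace_iff]
      exact Subtype.ext (hH γ v hv.2)
    · exact fun h => hv0 (congrArg Subtype.val h)
  have hSne : S.Nonempty := by
    by_contra hS
    refine hne (eq_bot_iff.2 ((le_iSup_wt hE.uni hE.poly hU).trans (iSup_le fun γ v hv => ?_)))
    by_contra hv0
    exact hS ⟨φ γ, γ, rfl, v, hv, hv0⟩
  obtain ⟨_, ⟨γ, rfl, v, hv, hv0⟩, hmax⟩ := hfin.exists_maximal hSne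
  refine ⟨γ, v, ⟨hv.1, mem_hw.2 ⟨mem_wt.1 hv.2, fun i j hij => ?_⟩⟩, hv0⟩
  by_contra hne0
  have hγj : γ j ≠ 0 := fun h0 => hne0 (apply_eq_zero_of_wt hE hv.2 hij.ne h0)
  have h1 := apply_mem_wt hE hv.2 i j
  set γ' : Fin n → ℕ := fun k => γ k + (if k = i then 1 else 0) - (if k = j then 1 else 0)
    with hγ'
  have h2 : φ γ' ∈ S := ⟨γ', rfl, _, ⟨hU i j v hv.1, h1⟩, hne0⟩
  have h3 : φ γ' + (n - j) = φ γ + (n - i) := by
    have h4 : ∀ l : Fin n, (n - l : ℕ) = ∑ k : Fin n, (n - k) * (if k = l then 1 else 0) := by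
      intro l
      simp
    rw [h4 i, h4 j]
    simp only [φ, ← Finset.sum_add_distrib, ← mul_add]
    refine Finset.sum_congr rfl fun k _ => ?_
    congr 1
    simp only [hγ']
    by_cases hkj : k = j
    · subst hkj
      simp only [if_true, if_neg hij.ne']
      omega
    · simp [hkj]
  have h5 : (i : ℕ) < j := hij
  have h6 := j.2
  have h7 : φ γ ≤ φ γ' := by omega
  have h8 := hmax h2 h7
  omega

end Crest.Agent.R187.Shapo
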