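import Crest.Agent.R187.SurjCore

/-!
# The abstract form of the surjectivity theorem

`ℓ i : V →ₗ R` are the linear forms of block `i`; `ρ σ` permutes the blocks.
-/

set_option autoImplicit false
set_option linter.unusedSectionVars false

namespace Crest.Agent.R187.Surj

open Polynomial

variable {R : Type*} [CommRing R] [Algebra ℂ R] {V : Type*} [AddCommGroup V] [Module ℂ V]
  {ι : Type*} [DecidableEq ι] (ℓ : ι → V →ₗ[ℂ] R)

/-- The span of the `k`-th powers of the products `∏_{j ∈ J} ℓ j v`. -/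
def PP (J : Finset ι) (k : ℕ) : Submodule ℂ R :=
  Submodule.span ℂ (Set.range fun v => ∏ j ∈ J, ℓ j v ^ k)

theorem dm_PP (i : ι) (J : Finset ι) (hi : i ∉ J) (k : ℕ) :
    LinearMap.range (ℓ i) ^ (k + J.card * k) * PP ℓ J k
      ≤ LinearMap.range (ℓ i) ^ (J.card * k) * PP ℓ (insert i J) k := by
  have h := dm (ℓ i) (fun v => ∏ j ∈ J, ℓ j v ^ k) (J.card * k) k (fun u w => by
    refine ⟨∏ j ∈ J, (C (ℓ j u) + C (ℓ j w) * X) ^ k, fun s => ?_, ?_⟩
    · rw [eval_prod]
      refine Finset.prod_congr rfl fun j _ => ?_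
      simp only [eval_mul, eval_pow, eval_add, eval_C, eval_X, map_add, map_smul]
      rw [Algebra.smul_def, mul_comm (ℓ j w)]
    · have hd : ∀ j, (C (ℓ j u) + C (ℓ j w) * X).natDegree ≤ 1 := fun j => by
        rw [add_comm]; exact natDegree_linear_le
      rw [coeff_prod_of_natDegree_le _ _ k fun j _ => by
        simpa using natDegree_pow_le_of_le k (hd j)]
      refine Finset.prod_congr rfl fun j _ => ?_
      have := coeff_pow_of_natDegree_le (m := k) (hd j)
      rw [mul_one] at this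
      rw [this]
      simp [coeff_C])
  simpa only [PP, Finset.prod_insert hi] using h

theorem C1 (J : Finset ι) (b k : ℕ) (hb : J.card * k ≤ b) :
    ∏ j ∈ J, LinearMap.range (ℓ j) ^ b
      ≤ PP ℓ J k * ∏ j ∈ J, LinearMap.range (ℓ j) ^ (b - k) := by
  induction J using Finset.induction_on with
  | empty =>
    simp only [Finset.prod_empty, mul_one, Submodule.one_le]
    exact Submodule.subset_span ⟨0, by simp⟩
  | insert i J hi ih =>
    rw [Finset.card_insert_of_notMem hi] at hb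
    have hb' : J.card * k ≤ b := le_trans (Nat.mul_le_mul_right k (Nat.le_succ _)) hb
    rw [Finset.prod_insert hi, Finset.prod_insert hi]
    obtain ⟨e, rfl⟩ := Nat.exists_eq_add_of_le hb
    set Q := ∏ j ∈ J, LinearMap.range (ℓ j) ^ ((J.card + 1) * k + e - k) with hQ
    have e1 : (J.card + 1) * k + e - k = e + J.card * k := by
      rw [add_mul, one_mul]; omega
    have e2 : (J.card + 1) * k + e = e + (k + J.card * k) := by ring
    calc LinearMap.range (ℓ i) ^ ((J.card + 1) * k + e)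
          * ∏ j ∈ J, LinearMap.range (ℓ j) ^ ((J.card + 1) * k + e)
        ≤ LinearMap.range (ℓ i) ^ ((J.card + 1) * k + e) * (PP ℓ J k * Q) :=
          mul_le_mul_right (ih hb') _
      _ = LinearMap.range (ℓ i) ^ e
          * (LinearMap.range (ℓ i) ^ (k + J.card * k) * PP ℓ J k) * Q := by
          rw [e2, pow_add]; ring
      _ ≤ LinearMap.range (ℓ i) ^ e
          * (LinearMap.range (ℓ i) ^ (J.card * k) * PP ℓ (insert i J) k) * Q :=
          mul_le_mul_left (mul_le_mul_right (dm_PP ℓ i J hi k) _) _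
      _ = PP ℓ (insert i J) k * (LinearMap.range (ℓ i) ^ ((J.card + 1) * k + e - k) * Q) := by
          rw [e1, pow_add]; ring

theorem C2 (i : ι) (J : Finset ι) (hi : i ∉ J) (m : ℕ) :
    LinearMap.range (ℓ i) ^ (J.card + m) * PP ℓ J 1 ^ m
      ≤ LinearMap.range (ℓ i) ^ J.card * PP ℓ (insert i J) 1 ^ m := by
  induction m with
  | zero => simp
  | succ m ih =>
    have h := dm_PP ℓ i J hi 1
    rw [mul_one] at h
    calc LinearMap.range (ℓ i) ^ (J.card + (m + 1)) * PP ℓ J 1 ^ (m + 1)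
        = LinearMap.range (ℓ i) ^ m * PP ℓ J 1 ^ m
          * (LinearMap.range (ℓ i) ^ (1 + J.card) * PP ℓ J 1) := by ring
      _ ≤ LinearMap.range (ℓ i) ^ m * PP ℓ J 1 ^ m
          * (LinearMap.range (ℓ i) ^ J.card * PP ℓ (insert i J) 1) := mul_le_mul_right h _
      _ = (LinearMap.range (ℓ i) ^ (J.card + m) * PP ℓ J 1 ^ m) * PP ℓ (insert i J) 1 := by ring
      _ ≤ (LinearMap.range (ℓ i) ^ J.card * PP ℓ (insert i J) 1 ^ m) * PP ℓ (insert i J) 1 :=
          mul_le_mul_left ih _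
      _ = LinearMap.range (ℓ i) ^ J.card * PP ℓ (insert i J) 1 ^ (m + 1) := by ring

/-- The tangent lemma. -/
theorem tangent (J : Finset ι) (k : ℕ) (u v : V) :
    ∑ j ∈ J, ℓ j u ^ k * ∏ l ∈ J.erase j, ℓ l v ^ k ∈ PP ℓ J 1 ^ k := by
  rcases Nat.eq_zero_or_pos k with rfl | hk
  · simp only [pow_zero, Finset.prod_const_one, mul_one]
    exact Submodule.sum_mem _ fun _ _ => Submodule.one_le.1 le_rfl
  rw [← coeff_one_prod J (fun l => ℓ l v ^ k) (fun j => ℓ j u ^ k)]
  refine coeff_mem_of_eval_mem _ _ (fun z => ?_) 1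
  obtain ⟨s, hs⟩ := IsAlgClosed.exists_pow_nat_eq (-z) hk
  have h1 : (∏ j ∈ J, (C (ℓ j v ^ k) + C (ℓ j u ^ k) * X)).eval (algebraMap ℂ R z)
      = ∏ ζ ∈ nthRootsFinset k (1 : ℂ), ∏ j ∈ J, ℓ j (v - ζ • s • u) ^ 1 := by
    rw [eval_prod, Finset.prod_comm]
    refine Finset.prod_congr rfl fun j _ => ?_
    simp only [eval_mul, eval_add, eval_C, eval_X, map_sub, map_smul, pow_one]
    rw [← pow_sub_pow_eq k hk, _root_.smul_pow, hs, neg_smul, sub_neg_eq_add, Algebra.smul_def, mul_comm]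
  rw [h1, ← (Complex.isPrimitiveRoot_exp k hk.ne').card_nthRootsFinset, ← Finset.prod_const,
    (Complex.isPrimitiveRoot_exp k hk.ne').card_nthRootsFinset]
  exact prod_mem_prod _ _ _ fun ζ _ => Submodule.subset_span ⟨_, rfl⟩

section Main

variable (ρ : Equiv.Perm ι → R →ₐ[ℂ] R)

theorem map_range (hρ : ∀ σ i v, ρ σ (ℓ i v) = ℓ (σ i) v) (σ : Equiv.Perm ι) (i : ι) :
    (LinearMap.range (ℓ i)).map (ρ σ).toLinearMap = LinearMap.range (ℓ (σ i)) := by
  rw [← LinearMap.range_comp]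
  congr 1
  ext v
  simp [hρ]

theorem map_prod_range (hρ : ∀ σ i v, ρ σ (ℓ i v) = ℓ (σ i) v) (J : Finset ι) (m : ℕ)
    (σ : Equiv.Perm ι) (hσ : ∀ x ∉ J, σ x = x) {w : R}
    (hw : w ∈ ∏ j ∈ J, LinearMap.range (ℓ j) ^ m) :
    ρ σ w ∈ ∏ j ∈ J, LinearMap.range (ℓ j) ^ m := by
  have h1 : Submodule.mapHom (ρ σ) (∏ j ∈ J, LinearMap.range (ℓ j) ^ m)
      = ∏ j ∈ J, LinearMap.range (ℓ j) ^ m := by
    rw [map_prod]
    simp only [map_pow, Submodule.mapHom_apply, map_range ℓ ρ hρ]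
    refine σ.prod_comp J (fun j => LinearMap.range (ℓ j) ^ m) fun x hx => ?_
    by_contra hxJ
    exact hx (hσ x hxJ)
  rw [← h1]
  exact Submodule.mem_map_of_mem (f := (ρ σ).toLinearMap) hw

theorem PP_le_fix (hρ : ∀ σ i v, ρ σ (ℓ i v) = ℓ (σ i) v) (J : Finset ι) (k : ℕ)
    (σ : Equiv.Perm ι) (hσ : ∀ x ∉ J, σ x = x) :
    PP ℓ J k ≤ (AlgHom.equalizer (ρ σ) (AlgHom.id ℂ R)).toSubmodule := by
  rw [PP, Submodule.span_le]
  rintro _ ⟨v, rfl⟩
  simp only [Subalgebra.coe_toSubmodule, SetLike.mem_coe, AlgHom.mem_equalizer, map_prod, map_pow,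
    hρ, AlgHom.coe_id, id_eq]
  refine σ.prod_comp J (fun j => ℓ j v ^ k) fun x hx => ?_
  by_contra hxJ
  exact hx (hσ x hxJ)

theorem range_le_fix (hρ : ∀ σ i v, ρ σ (ℓ i v) = ℓ (σ i) v) (i : ι)
    (σ : Equiv.Perm ι) (hσ : σ i = i) :
    LinearMap.range (ℓ i) ≤ (AlgHom.equalizer (ρ σ) (AlgHom.id ℂ R)).toSubmodule := by
  rintro _ ⟨v, rfl⟩
  simp [AlgHom.mem_equalizer, hρ, hσ]

/-- Invariants under the permutations supported in `J`. -/
def Inv (J : Finset ι) : Submodule ℂ R where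
  carrier := {f | ∀ σ : Equiv.Perm ι, (∀ x ∉ J, σ x = x) → ρ σ f = f}
  add_mem' := fun ha hb σ hσ => by rw [map_add, ha σ hσ, hb σ hσ]
  zero_mem' := fun σ _ => map_zero _
  smul_mem' := fun c x hx σ hσ => by rw [map_smul, hx σ hσ]

theorem sum_mem_Inv [Fintype ι] (hmul : ∀ σ τ f, ρ (σ * τ) f = ρ σ (ρ τ f)) (J : Finset ι)
    (w : R) :
    ∑ σ ∈ Finset.univ.filter (fun σ : Equiv.Perm ι => ∀ x ∉ J, σ x = x), ρ σ w ∈ Inv ρ J := by
  intro τ hτ
  rw [map_sum]
  simp only [← hmul]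
  refine Finset.sum_nbij' (fun σ => τ * σ) (fun σ => τ⁻¹ * σ) ?_ ?_ ?_ ?_ ?_
  · intro σ hσ
    simp only [Finset.mem_filter, Finset.mem_univ, true_and] at hσ ⊢
    intro x hx
    rw [Equiv.Perm.mul_apply, hσ x hx, hτ x hx]
  · intro σ hσ
    simp only [Finset.mem_filter, Finset.mem_univ, true_and] at hσ ⊢
    intro x hx
    rw [Equiv.Perm.mul_apply, hσ x hx, Equiv.Perm.inv_eq_iff_eq, hτ x hx]
  · intro σ _; simp
  · intro σ _; simp
  · intro σ _; rfl

theorem sum_swap_mem (hρ : ∀ σ i v, ρ σ (ℓ i v) = ℓ (σ i) v) (i : ι) (J : Finset ι) (hi : i ∉ J)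
    (k : ℕ) {w : R} (hw : w ∈ LinearMap.range (ℓ i) ^ k * PP ℓ J k) :
    ∑ j ∈ insert i J, ρ (Equiv.swap i j) w ∈ PP ℓ (insert i J) 1 ^ k := by
  have hw' := mul_le_mul_left (pow_le_span_pow (LinearMap.range (ℓ i)) k) (PP ℓ J k) hw
  rw [PP, Submodule.span_mul_span] at hw'
  clear hw
  induction hw' using Submodule.span_induction with
  | mem z hz =>
    obtain ⟨_, ⟨_, ⟨u, rfl⟩, rfl⟩, _, ⟨v, rfl⟩, rfl⟩ := hz
    convert tangent ℓ (insert i J) k u v using 2 with j hj
    simp only [map_mul, map_pow, map_prod, hρ, Equiv.swap_apply_left]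
    congr 1
    refine Finset.prod_nbij' (Equiv.swap i j) (Equiv.swap i j) ?_ ?_ ?_ ?_ ?_
    · intro x hx
      have hxi : x ≠ i := fun h => hi (h ▸ hx)
      rw [Finset.mem_erase]
      refine ⟨fun h => hxi ?_, ?_⟩
      · simpa using (Equiv.swap_apply_eq_iff.1 h)
      · by_cases hxj : x = j
        · subst hxj; simp
        · rw [Equiv.swap_apply_of_ne_of_ne hxi hxj]; exact Finset.mem_insert_of_mem hx
    · intro x hx
      rw [Finset.mem_erase, Finset.mem_insert] at hx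
      by_cases hxi : x = i
      · subst hxi
        rw [Equiv.swap_apply_left]
        rcases Finset.mem_insert.1 hj with h | h
        · exact absurd h.symm hx.1
        · exact h
      · rw [Equiv.swap_apply_of_ne_of_ne hxi hx.1]
        exact hx.2.resolve_left hxi
    · intro x _; simp
    · intro x _; simp
    · intro x _; rfl
  | zero => simp
  | add x y _ _ hx hy =>
    simp only [map_add, Finset.sum_add_distrib]
    exact Submodule.add_mem _ hx hy
  | smul s x _ hx =>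
    simp only [map_smul, ← Finset.smul_sum]
    exact Submodule.smul_mem _ _ hx

theorem main [Fintype ι] (hρ : ∀ σ i v, ρ σ (ℓ i v) = ℓ (σ i) v)
    (hmul : ∀ σ τ f, ρ (σ * τ) f = ρ σ (ρ τ f)) (J : Finset ι) (b : ℕ)
    (hb : (J.card - 1) ^ 2 ≤ b) :
    (∏ j ∈ J, LinearMap.range (ℓ j) ^ b) ⊓ Inv ρ J ≤ PP ℓ J 1 ^ b := by
  induction J using Finset.induction_on generalizing b with
  | empty =>
    refine le_trans inf_le_left ?_
    rw [Finset.prod_empty]
    refine one_le_pow_of_one_le' ?_ b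
    rw [Submodule.one_le]
    exact Submodule.subset_span ⟨0, by simp⟩
  | insert i J hi ih =>
    rw [Finset.card_insert_of_notMem hi, Nat.add_sub_cancel] at hb
    rintro f ⟨hf1, hf2⟩
    have hkb : J.card ≤ b := le_trans (Nat.le_self_pow two_ne_zero _) hb
    have hb2 : (J.card - 1) ^ 2 ≤ b - J.card := by
      rcases Nat.eq_zero_or_pos J.card with h | h
      · simp [h]
      · obtain ⟨t, ht⟩ : ∃ t, J.card = t + 1 := ⟨J.card - 1, by omega⟩
        rw [ht] at hb ⊢
        rw [Nat.add_sub_cancel]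
        have : (t + 1) ^ 2 = t ^ 2 + (t + 1) + t := by ring
        omega
    -- step 1
    have s1 : f ∈ (∏ j ∈ J, LinearMap.range (ℓ j) ^ (b - J.card))
        * (LinearMap.range (ℓ i) ^ b * PP ℓ J J.card) := by
      rw [SetLike.mem_coe, Finset.prod_insert hi] at hf1
      have := mul_le_mul_right (C1 ℓ J b J.card (by rwa [← sq])) (LinearMap.range (ℓ i) ^ b) hf1
      convert this using 1
      ring
    have s2 := average (Finset.univ.filter (fun σ : Equiv.Perm ι => ∀ x ∉ J, σ x = x))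
      ⟨1, by simp⟩ ρ _ ((∏ j ∈ J, LinearMap.range (ℓ j) ^ (b - J.card)) ⊓ Inv ρ J) _
      (fun σ hσ u hu => by
        simp only [Finset.mem_filter, Finset.mem_univ, true_and] at hσ
        exact mul_le_sub _ (pow_le_sub _ (range_le_fix ℓ ρ hρ i σ (hσ i hi)) _)
          (PP_le_fix ℓ ρ hρ J _ σ hσ) hu)
      (fun w hw => ⟨Submodule.sum_mem _ fun σ hσ => map_prod_range ℓ ρ hρ J _ σ
          (by simpa using hσ) hw, sum_mem_Inv ρ hmul J w⟩) s1
      (fun σ hσ => hf2 σ fun x hx => by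
        simp only [Finset.mem_filter, Finset.mem_univ, true_and] at hσ
        exact hσ x fun h => hx (Finset.mem_insert_of_mem h))
    have s3 := mul_le_mul_left (ih (b - J.card) hb2) _ s2
    -- step 2
    have s4 : f ∈ (LinearMap.range (ℓ i) ^ J.card * PP ℓ J J.card)
        * PP ℓ (insert i J) 1 ^ (b - J.card) := by
      have h := C2 ℓ i J hi (b - J.card)
      rw [Nat.add_sub_cancel' hkb] at h
      have h2 : PP ℓ J 1 ^ (b - J.card) * (LinearMap.range (ℓ i) ^ b * PP ℓ J J.card)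
          = (LinearMap.range (ℓ i) ^ b * PP ℓ J 1 ^ (b - J.card)) * PP ℓ J J.card := by ring
      rw [h2] at s3
      convert mul_le_mul_left h _ s3 using 1
      ring
    -- step 3
    have hsw : ∀ j ∈ insert i J, ∀ x ∉ insert i J, Equiv.swap i j x = x := fun j hj x hx =>
      Equiv.swap_apply_of_ne_of_ne (fun h => hx (h ▸ Finset.mem_insert_self _ _))
        (fun h => hx (h ▸ hj))
    have s5 := average (insert i J) ⟨i, Finset.mem_insert_self _ _⟩ (fun j => ρ (Equiv.swap i j))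
      _ (PP ℓ (insert i J) 1 ^ J.card) _
      (fun j hj u hu => pow_le_sub _ (PP_le_fix ℓ ρ hρ (insert i J) 1 _ (hsw j hj)) _ hu)
      (fun w hw => sum_swap_mem ℓ ρ hρ i J hi _ hw) s4
      (fun j hj => hf2 _ (hsw j hj))
    rwa [← pow_add, Nat.add_sub_cancel' hkb] at s5

end Main

end Crest.Agent.R187.Surj
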