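import Crest.Agent.R187.Defs
import Crest.Agent.R187.SurjMain

/-!
# Task A: surjectivity of the Foulkes–Howe map for `b ≥ (a-1)^2`

Notation: `c_i` = span of the variables of block `i`; `f_i(t) = ∑_k t_k x (i,k)`;
for `v : Fin n → ℂ`, `ℓ_v(x_i) = ∑_k v k • x (i,k)`; for a set `J` of blocks
`π_J(v) = ∏_{i ∈ J} ℓ_v(x_i)`; `B_J = span {π_J(v)}` (for `J = univ` this is `blockSym a n 1`),
`R_b` = polynomials of degree `b` in each block of `J` = `∏_{i ∈ J} c_i ^ b`, `A_b` = the `Perm J`-invariants.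
It is convenient to prove everything for a finite set `J` of blocks (induction on `J`).

(DM) Dedekind–Mertens for linear forms.  Let `g(t)` be a form of degree `D` in `t` with coefficients in the
polynomial ring, `c(g)` = ℂ-span of its coefficients (= span of its values `g(v)`), `f = f_i`.  Then
`c(f)^(D+k) * c(g) ≤ c(f)^D * c(f^k g)`.   Proof: `c(f)^(D+k)` is spanned by the powers `f(u)^(D+k)`.
Fix `u, w`, put `h = f^k g`, `p = f(u)`, `q = f(w)`, `G(s) = g(w + s u)` (degree `≤ D` in `s`, coefficients `G_j`),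
`H(s) = h(w + s u) = (q + s p)^k G(s)`, whose coefficients `H_j` lie in `c(h)`.  Case `k = 1`:
`H_j = q G_j + p G_{j-1}`; descending induction on `j` gives `p^(D+1-j) G_j ∈ c(f)^(D-j) * c(h)`;
`j = 0` is the claim (`G_0 = g(w)`).  General `k`: either iterate with the refined statement, or use reversed
power series `G = H · (q + s p)^(-k)`: `p^(k+m) G_{D-m} = ∑_{r ≤ m} binom(-k, r) q^r p^(m-r) H_{D+k-m+r}`.
(One proves by induction on `m` that `p^(k+m) G_{D-m} ∈ c(f)^m c(h)`, using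
`H_{D+k-m} = ∑_r binom(k,r) q^r p^(k-r) G_{D-m+r}`... multiply by `p^m`.)

(C1) Iterating (DM) over the blocks of `J` (`|J| = a'`): `∏_{i∈J} c_i^b ≤ span{π_J(v)^k} * ∏ c_i^(b-k)` when `b ≥ k a'`.
Averaging over `Perm J`:  `A_b ≤ span{π_J(v)^k} * A_(b-k)`.

(C2) For `J = insert i J'`, `|J'| = a-1`: `c_i^(a-1+m) * B_{J'}^m ≤ c_i^(a-1) * B_J^m` ((DM) with `k = 1`, `D = a-1`, `m` times).

(T) Tangent lemma: for `q ∈ c^k` (degree `k` form) and `v`:
`∑_{i ∈ J} q(x_i) ∏_{j ∈ J \ i} ℓ_v(x_j)^k ∈ B_J^k`.  Proof: enough for `q = ℓ_u^r ℓ_v^(k-r)`... in fact enough for `q = ℓ_u^k`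
(powers span): `∏_{ζ^k = 1} π_J(v + ζ s u) = ∏_{i∈J} (ℓ_v(x_i)^k - (-s)^k ℓ_u(x_i)^k) ∈ B_J^k` for every `s : ℂ`; this is a
polynomial in `z = (-s)^k` (which takes all complex values), and its `z`-linear coefficient is minus the wanted element
(a subspace containing all values of a polynomial map contains its coefficients).

Induction on `a = |J|`: let `b ≥ (a-1)^2`, `k = a-1`, `f ∈ A_b(J)`.  Fix `i ∈ J`, `J' = J \ i`.
`f` is `Perm J'`-invariant so `f ∈ c_i^b * A_b(J')` (average).  By (C1) (`b ≥ k (a-1)`) and the induction hypothesis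
(`b - k ≥ (a-2)^2`), `A_b(J') ≤ span{π_{J'}(v)^k} * B_{J'}^(b-k)`.  By (C2) `f ∈ c_i^k * span{π_{J'}(v)^k} * B_J^(b-k)`.
Now `f = (1/a!) ∑_σ σ f`; elements of `B_J` are invariant, and the symmetrisation of `q(x_i) π_{J'}(v)^k` is a multiple
of the element in (T), so lies in `B_J^k`.  Hence `f ∈ B_J^b`.
-/

set_option autoImplicit false

namespace Crest.Agent.R187

open MvPolynomial Crest.AlgebraR.FoulkesHowe

namespace Surj

/-- The linear forms of block `i`. -/
noncomputable def ell (a n : ℕ) (i : Fin a) : (Fin n → ℂ) →ₗ[ℂ] MvPolynomial (Var a n) ℂ :=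
  Fintype.linearCombination ℂ (fun k : Fin n => (X (i, k) : MvPolynomial (Var a n) ℂ))

theorem ell_apply (a n : ℕ) (i : Fin a) (v : Fin n → ℂ) :
    ell a n i v = ∑ k, v k • (X (i, k) : MvPolynomial (Var a n) ℂ) := by
  simp [ell, Fintype.linearCombination_apply]

theorem X_mem_range (a n : ℕ) (i : Fin a) (k : Fin n) :
    (X (i, k) : MvPolynomial (Var a n) ℂ) ∈ LinearMap.range (ell a n i) :=
  ⟨Pi.single k 1, by simp [ell]⟩

theorem rename_ell (a n : ℕ) (σ : Equiv.Perm (Fin a)) (i : Fin a) (v : Fin n → ℂ) :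
    rename (blockPerm σ) (ell a n i v) = ell a n (σ i) v := by
  simp [ell_apply, blockPerm]

theorem mem_blockSym {a n b : ℕ} {f : MvPolynomial (Var a n) ℂ} :
    f ∈ blockSym a n b ↔ (∀ i, IsWeightedHomogeneous (blockWeight i) f b) ∧
      ∀ σ : Equiv.Perm (Fin a), rename (blockPerm σ) f = f := by
  simp [blockSym, Submodule.mem_iInf, LinearMap.mem_eqLocus]

theorem prod_pow_mem {R : Type*} [CommRing R] [Algebra ℂ R] {κ : Type*} (s : Finset κ)
    (c : Submodule ℂ R) (x : κ → R) (d : κ → ℕ) (h : ∀ k ∈ s, x k ∈ c) :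
    ∏ k ∈ s, x k ^ d k ∈ c ^ (∑ k ∈ s, d k) := by
  rw [← Finset.prod_pow_eq_pow_sum]
  exact prod_mem_prod _ _ _ fun k hk => Submodule.pow_mem_pow _ (h k hk) _

theorem mem_prod_range {a n b : ℕ} {f : MvPolynomial (Var a n) ℂ}
    (hf : ∀ i, IsWeightedHomogeneous (blockWeight i) f b) :
    f ∈ ∏ i, LinearMap.range (ell a n i) ^ b := by
  rw [f.as_sum]
  refine Submodule.sum_mem _ fun d hd => ?_
  have h1 : (monomial d (coeff d f) : MvPolynomial (Var a n) ℂ)
      = coeff d f • ∏ i, ∏ k, (X (i, k) : MvPolynomial (Var a n) ℂ) ^ d (i, k) := by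
    rw [monomial_eq, Finsupp.prod_fintype _ _ (fun _ => pow_zero _), Fintype.prod_prod_type,
      smul_eq_C_mul]
  rw [h1]
  refine Submodule.smul_mem _ _ (prod_mem_prod _ _ _ fun i _ => ?_)
  have h2 : ∑ k, d (i, k) = b := by
    rw [← hf i (mem_support_iff.1 hd), Finsupp.weight_apply,
      Finsupp.sum_fintype _ _ (fun _ => by simp), Fintype.sum_prod_type,
      Finset.sum_eq_single i]
    · simp [blockWeight]
    · intro j _ hj
      simp [blockWeight, hj]
    · simp
  rw [← h2]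
  exact prod_pow_mem _ _ _ _ fun k _ => X_mem_range a n i k

theorem PP_le_blockSym (a n : ℕ) : PP (ell a n) Finset.univ 1 ≤ blockSym a n 1 := by
  rw [PP, Submodule.span_le]
  rintro _ ⟨v, rfl⟩
  simp only [SetLike.mem_coe, pow_one]
  rw [mem_blockSym]
  refine ⟨fun i => ?_, fun σ => ?_⟩
  · have h := IsWeightedHomogeneous.prod (w := blockWeight (n := n) i) Finset.univ
      (fun j => ell a n j v) (fun j => if j = i then 1 else 0) (fun j _ => by
        rw [ell_apply, ← mem_weightedHomogeneousSubmodule]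
        refine Submodule.sum_mem _ fun k _ => Submodule.smul_mem _ _ ?_
        exact isWeightedHomogeneous_X ℂ (blockWeight i) (j, k))
    simpa using h
  · rw [map_prod]
    simp only [rename_ell]
    exact Equiv.prod_comp σ (fun j => ell a n j v)

end Surj

theorem blockSym_le_pow (a b n : ℕ) (ha : 1 ≤ a) (hb : (a - 1) ^ 2 ≤ b) :
    blockSym a n b ≤ (blockSym a n 1) ^ b := by
  have _ := ha
  intro f hf
  rw [Surj.mem_blockSym] at hf
  have h := Surj.main (Surj.ell a n) (fun σ => rename (blockPerm σ)) (Surj.rename_ell a n)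
    (fun σ τ g => by rw [rename_rename]; rfl) Finset.univ b (by simpa using hb)
    ⟨Surj.mem_prod_range hf.1, fun σ _ => hf.2 σ⟩
  exact pow_le_pow_left' (Surj.PP_le_blockSym a n) b h

end Crest.Agent.R187
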