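import Mathlib

/-!
# Generic lemmas for `Surj.lean` (commutative `ℂ`-algebras)

* `coeff_mem_of_eval_mem`: a subspace containing all values of a polynomial contains its coefficients;
* `pow_le_span_pow`: `c ^ m` is spanned by the `m`-th powers of elements of `c`;
* `dm_core`, `dm`: a Dedekind–Mertens type lemma for linear forms;
* `average`: averaging over a finite family of algebra endomorphisms.
-/

set_option autoImplicit false

namespace Crest.Agent.R187.Surj

open Polynomial

variable {R : Type*} [CommRing R] [Algebra ℂ R]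

theorem coeff_mem_of_eval_mem (U : Submodule ℂ R) (p : R[X])
    (h : ∀ s : ℂ, p.eval (algebraMap ℂ R s) ∈ U) (j : ℕ) : p.coeff j ∈ U := by
  by_contra hj
  obtain ⟨φ, hφ, hU⟩ := Submodule.exists_dual_map_eq_bot_of_notMem hj inferInstance
  have hU' : ∀ x ∈ U, φ x = 0 := fun x hx => by
    have : φ x ∈ U.map φ := Submodule.mem_map_of_mem hx
    rwa [hU, Submodule.mem_bot] at this
  set q : ℂ[X] := ∑ i ∈ Finset.range (p.natDegree + 1), monomial i (φ (p.coeff i)) with hq
  have hq0 : q = 0 := by
    apply Polynomial.funext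
    intro s
    have h1 := hU' _ (h s)
    rw [eval_eq_sum_range, map_sum] at h1
    rw [hq, eval_finsetSum, eval_zero, ← h1]
    refine Finset.sum_congr rfl fun i _ => ?_
    rw [eval_monomial, ← map_pow, mul_comm (p.coeff i), ← Algebra.smul_def, map_smul, smul_eq_mul,
      mul_comm]
  have h2 : q.coeff j = φ (p.coeff j) := by
    rw [hq, finsetSum_coeff]
    simp only [coeff_monomial]
    rw [Finset.sum_ite_eq' (Finset.range (p.natDegree + 1)) j (fun i => φ (p.coeff i))]
    split_ifs with hjr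
    · rfl
    · rw [coeff_eq_zero_of_natDegree_lt (by simpa using hjr), map_zero]
  rw [hq0, coeff_zero] at h2
  exact hφ h2.symm

omit [Algebra ℂ R] in
/-- The coefficient of `X` in a product of linear polynomials. -/
theorem coeff_one_prod {ι : Type*} [DecidableEq ι] (J : Finset ι) (x y : ι → R) :
    (∏ j ∈ J, (C (x j) + C (y j) * X)).coeff 1 = ∑ j ∈ J, y j * ∏ l ∈ J.erase j, x l := by
  have h1 : ∀ p : R[X], p.coeff 1 = (derivative p).eval 0 := fun p => by
    rw [← coeff_zero_eq_eval_zero, coeff_derivative]; simp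
  rw [h1, derivative_prod_finset, eval_finsetSum]
  refine Finset.sum_congr rfl fun j _ => ?_
  rw [mul_comm (y j)]
  simp [eval_prod]

theorem pow_le_span_pow (c : Submodule ℂ R) (m : ℕ) :
    c ^ m ≤ Submodule.span ℂ {z | ∃ x ∈ c, x ^ m = z} := by
  induction m with
  | zero =>
    rw [pow_zero, Submodule.one_le]
    exact Submodule.subset_span ⟨0, c.zero_mem, pow_zero _⟩
  | succ m ih =>
    rw [pow_succ]
    refine le_trans (mul_le_mul_left ih c) ?_
    rw [Submodule.mul_le]
    intro z hz y hy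
    induction hz using Submodule.span_induction with
    | mem z hz =>
      obtain ⟨x, hx, rfl⟩ := hz
      have h1 := coeff_mem_of_eval_mem
        (Submodule.span ℂ {z | ∃ x ∈ c, x ^ (m + 1) = z})
        (∏ _j ∈ Finset.range (m + 1), (C x + C y * X)) (fun s => by
          refine Submodule.subset_span ⟨x + s • y, c.add_mem hx (c.smul_mem s hy), ?_⟩
          rw [Algebra.smul_def, mul_comm]
          simp) 1
      rw [coeff_one_prod (Finset.range (m + 1)) (fun _ => x) (fun _ => y)] at h1
      have h2 : ∑ j ∈ Finset.range (m + 1), y * ∏ _l ∈ (Finset.range (m + 1)).erase j, x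
          = ((m + 1 : ℕ) : ℂ) • (x ^ m * y) := by
        rw [Finset.sum_congr rfl (g := fun _ => x ^ m * y), Finset.sum_const, Finset.card_range,
          Nat.cast_smul_eq_nsmul]
        intro j hj
        rw [Finset.prod_const, Finset.card_erase_of_mem hj, Finset.card_range, mul_comm]
        rfl
      rw [h2] at h1
      exact (Submodule.smul_mem_iff _ (by exact_mod_cast Nat.succ_ne_zero m)).1 h1
    | zero => simp
    | add z w _ _ hz hw => rw [add_mul]; exact Submodule.add_mem _ hz hw
    | smul s z _ hz => rw [smul_mul_assoc]; exact Submodule.smul_mem _ _ hz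

theorem dm_step (c U : Submodule ℂ R) {q : R} (hq : q ∈ c) (W : R[X])
    (h : ∀ m, ((1 + C q * X) * W).coeff m ∈ c ^ m * U) (m : ℕ) : W.coeff m ∈ c ^ m * U := by
  induction m with
  | zero => simpa using h 0
  | succ m ih =>
    have h1 := h (m + 1)
    rw [add_mul, one_mul, coeff_add, mul_assoc, coeff_C_mul, coeff_X_mul] at h1
    have h2 : q * W.coeff m ∈ c ^ (m + 1) * U := by
      rw [pow_succ', mul_assoc]
      exact Submodule.mul_mem_mul hq ih
    simpa using Submodule.sub_mem _ h1 h2

theorem dm_iter (c U : Submodule ℂ R) {q : R} (hq : q ∈ c) (k : ℕ) (W : R[X])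
    (h : ∀ m, ((1 + C q * X) ^ k * W).coeff m ∈ c ^ m * U) (m : ℕ) : W.coeff m ∈ c ^ m * U := by
  induction k generalizing m with
  | zero => simpa using h m
  | succ k ih =>
    refine ih (fun m => dm_step c U hq _ (fun m => ?_) m) m
    rw [← mul_assoc, ← pow_succ']
    exact h m

theorem dm_core (c U : Submodule ℂ R) {p q : R} (hp : p ∈ c) (hq : q ∈ c) (k : ℕ) (G : R[X])
    (h : ∀ m, ((C p + C q * X) ^ k * G).coeff m ∈ U) (m : ℕ) :
    p ^ (k + m) * G.coeff m ∈ c ^ m * U := by
  have h1 : ((C p + C q * X) ^ k * G).comp (C p * X)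
      = (1 + C q * X) ^ k * (C (p ^ k) * G.comp (C p * X)) := by
    rw [mul_comp, pow_comp, add_comp, mul_comp, C_comp, C_comp, X_comp,
      ← mul_assoc ((1 + C q * X) ^ k), C_pow, ← mul_pow]
    congr 2
    ring
  have h2 := dm_iter c U hq k (C (p ^ k) * G.comp (C p * X)) (fun m => by
    rw [← h1, comp_C_mul_X_coeff, mul_comm _ (p ^ m)]
    exact Submodule.mul_mem_mul (Submodule.pow_mem_pow c hp m) (h m)) m
  rw [coeff_C_mul, comp_C_mul_X_coeff] at h2
  convert h2 using 1
  ring

/-- Dedekind–Mertens for a linear form `f` and a "form of degree `D`" `g`. -/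
theorem dm {V : Type*} [AddCommGroup V] [Module ℂ V] (f : V →ₗ[ℂ] R) (g : V → R) (D k : ℕ)
    (hg : ∀ u w : V, ∃ G : R[X],
      (∀ s : ℂ, G.eval (algebraMap ℂ R s) = g (u + s • w)) ∧ G.coeff D = g w) :
    LinearMap.range f ^ (k + D) * Submodule.span ℂ (Set.range g)
      ≤ LinearMap.range f ^ D * Submodule.span ℂ (Set.range fun v => f v ^ k * g v) := by
  refine le_trans (mul_le_mul_left (pow_le_span_pow _ _) _) ?_
  rw [Submodule.span_mul_span, Submodule.span_le]
  rintro _ ⟨_, ⟨_, ⟨u, rfl⟩, rfl⟩, _, ⟨w, rfl⟩, rfl⟩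
  obtain ⟨G, hG, hGD⟩ := hg u w
  have := dm_core (LinearMap.range f) (Submodule.span ℂ (Set.range fun v => f v ^ k * g v))
    (LinearMap.mem_range_self f u) (LinearMap.mem_range_self f w) k G
    (coeff_mem_of_eval_mem _ _ fun s => by
      refine Submodule.subset_span ⟨u + s • w, ?_⟩
      simp only [eval_mul, eval_pow, eval_add, eval_C, eval_X, hG, map_add, map_smul]
      rw [Algebra.smul_def, mul_comm (f w)]) D
  rwa [hGD] at this

theorem mul_le_sub (S : Subalgebra ℂ R) {M N : Submodule ℂ R} (hM : M ≤ S.toSubmodule)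
    (hN : N ≤ S.toSubmodule) : M * N ≤ S.toSubmodule :=
  Submodule.mul_le.2 fun _ hm _ hn => S.mul_mem (hM hm) (hN hn)

theorem pow_le_sub (S : Subalgebra ℂ R) {M : Submodule ℂ R} (hM : M ≤ S.toSubmodule) (m : ℕ) :
    M ^ m ≤ S.toSubmodule := by
  induction m with
  | zero => rw [pow_zero, Submodule.one_le]; exact S.one_mem
  | succ m ih => rw [pow_succ]; exact mul_le_sub S ih hM

/-- Averaging over a finite family of endomorphisms. -/
theorem average {τ : Type*} (T : Finset τ) (hT : T.Nonempty) (φ : τ → R →ₐ[ℂ] R)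
    (W W' U : Submodule ℂ R) (hU : ∀ t ∈ T, ∀ u ∈ U, φ t u = u)
    (hW : ∀ w ∈ W, ∑ t ∈ T, φ t w ∈ W') {f : R} (hf : f ∈ W * U) (hinv : ∀ t ∈ T, φ t f = f) :
    f ∈ W' * U := by
  have h1 : ∀ g ∈ W * U, ∑ t ∈ T, φ t g ∈ W' * U := by
    intro g hg
    refine Submodule.mul_induction_on hg (fun w hw u hu => ?_) (fun x y hx hy => ?_)
    · have : ∑ t ∈ T, φ t (w * u) = (∑ t ∈ T, φ t w) * u := by
        rw [Finset.sum_mul]
        exact Finset.sum_congr rfl fun t ht => by rw [map_mul, hU t ht u hu]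
      rw [this]
      exact Submodule.mul_mem_mul (hW w hw) hu
    · simp only [map_add, Finset.sum_add_distrib]
      exact Submodule.add_mem _ hx hy
  have h2 := h1 f hf
  rw [Finset.sum_congr rfl hinv, Finset.sum_const, ← Nat.cast_smul_eq_nsmul ℂ] at h2
  exact (Submodule.smul_mem_iff _ (by exact_mod_cast hT.card_pos.ne')).1 h2

theorem prod_mem_prod {ι : Type*} (J : Finset ι) (M : ι → Submodule ℂ R) (x : ι → R)
    (h : ∀ j ∈ J, x j ∈ M j) : ∏ j ∈ J, x j ∈ ∏ j ∈ J, M j := by
  classical
  induction J using Finset.induction_on with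
  | empty => simp [Submodule.one_eq_span, Submodule.mem_span_singleton_self]
  | insert i J hi ih =>
    rw [Finset.prod_insert hi, Finset.prod_insert hi]
    exact Submodule.mul_mem_mul (h i (Finset.mem_insert_self _ _))
      (ih fun j hj => h j (Finset.mem_insert_of_mem hj))

theorem pow_sub_pow_eq (k : ℕ) (hk : 0 < k) (x y : R) :
    x ^ k - y ^ k = ∏ ζ ∈ nthRootsFinset k (1 : ℂ), (x - ζ • y) := by
  have h := Complex.isPrimitiveRoot_exp k hk.ne'
  have h1 : (MvPolynomial.X 0 ^ k - MvPolynomial.X 1 ^ k : MvPolynomial (Fin 2) ℂ)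
      = ∏ ζ ∈ nthRootsFinset k (1 : ℂ), (MvPolynomial.X 0 - ζ • MvPolynomial.X 1) := by
    apply MvPolynomial.funext
    intro v
    simp [h.pow_sub_pow_eq_prod_sub_mul _ _ hk]
  simpa using congrArg (MvPolynomial.aeval ![x, y]) h1

end Crest.Agent.R187.Surj
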