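import Crest.Agent.R187.Defs

/-!
Basic facts for the Weyl multiplicity formula: partial traces, weight shifts, the Casimir operator,
raising to a highest weight vector, dominance.
-/

set_option autoImplicit false

namespace Crest.Agent.R187.Weyl

open Finset

variable {n : ℕ} {V : Type*} [AddCommGroup V] [Module ℂ V]

/-! ### Partial traces -/

/-- The trace of the compression of an operator to a subspace. -/
noncomputable def tr (S : Submodule ℂ V) : Module.End ℂ V →ₗ[ℂ] ℂ where
  toFun A := LinearMap.trace ℂ S (S.subtype.leftInverse ∘ₗ A ∘ₗ S.subtype)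
  map_add' A B := by
    rw [LinearMap.add_comp, LinearMap.comp_add, map_add]
  map_smul' c A := by
    rw [LinearMap.smul_comp, LinearMap.comp_smul, map_smul]; rfl

theorem tr_apply (S : Submodule ℂ V) (A : Module.End ℂ V) :
    tr S A = LinearMap.trace ℂ S (S.subtype.leftInverse ∘ₗ A ∘ₗ S.subtype) := rfl

theorem coe_leftInverse {S : Submodule ℂ V} {v : V} (hv : v ∈ S) :
    ((S.subtype.leftInverse v : S) : V) = v := by
  have := LinearMap.leftInverse_apply_of_inj (f := S.subtype) S.ker_subtype ⟨v, hv⟩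
  simpa using congrArg (fun x : S => (x : V)) this

theorem tr_congr {S : Submodule ℂ V} {A A' : Module.End ℂ V} (h : ∀ v ∈ S, A v = A' v) :
    tr S A = tr S A' := by
  rw [tr_apply, tr_apply]
  congr 1
  ext v
  simp [h v v.2]

theorem tr_eq_zero {S : Submodule ℂ V} {A : Module.End ℂ V} (h : ∀ v ∈ S, A v = 0) :
    tr S A = 0 := by
  rw [tr_congr (A' := 0) (fun v hv => by simp [h v hv]), map_zero]

theorem tr_one (S : Submodule ℂ V) [FiniteDimensional ℂ S] :
    tr S 1 = Module.finrank ℂ S := by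
  rw [tr_apply]
  have : S.subtype.leftInverse ∘ₗ (1 : Module.End ℂ V) ∘ₗ S.subtype = LinearMap.id := by
    ext v
    simp [coe_leftInverse v.2]
  rw [this, LinearMap.trace_id]

theorem tr_comm {S S' : Submodule ℂ V} [FiniteDimensional ℂ S] [FiniteDimensional ℂ S']
    {A B : Module.End ℂ V} (hA : ∀ v ∈ S, A v ∈ S') (hB : ∀ v ∈ S', B v ∈ S) :
    tr S (B * A) = tr S' (A * B) := by
  rw [tr_apply, tr_apply]
  have h1 : S.subtype.leftInverse ∘ₗ (B * A) ∘ₗ S.subtype =
      (S.subtype.leftInverse ∘ₗ B ∘ₗ S'.subtype) ∘ₗ (S'.subtype.leftInverse ∘ₗ A ∘ₗ S.subtype) := by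
    ext v
    simp [coe_leftInverse (hA v v.2)]
  have h2 : S'.subtype.leftInverse ∘ₗ (A * B) ∘ₗ S'.subtype =
      (S'.subtype.leftInverse ∘ₗ A ∘ₗ S.subtype) ∘ₗ (S.subtype.leftInverse ∘ₗ B ∘ₗ S'.subtype) := by
    ext v
    simp [coe_leftInverse (hB v v.2)]
  rw [h1, h2, LinearMap.trace_comp_comm']

/-! ### Weight shifts -/

variable {E : Fin n → Fin n → Module.End ℂ V}

theorem comm_apply (hE : IsGl E) (i j k l : Fin n) (v : V) :
    E i j (E k l v) = E k l (E i j v) + (if j = k then E i l v else 0) -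
      (if l = i then E k j v else 0) := by
  have h := congrArg (fun A : Module.End ℂ V => A v) (hE i j k l)
  simp only [LinearMap.sub_apply, Module.End.mul_apply] at h
  have h1 : (if j = k then E i l else 0) v = if j = k then E i l v else 0 := by
    split_ifs <;> simp
  have h2 : (if l = i then E k j else 0) v = if l = i then E k j v else 0 := by
    split_ifs <;> simp
  rw [h1, h2] at h
  rw [add_sub_assoc, ← h]; abel

theorem diag_apply (hE : IsGl E) {γ : Fin n → ℕ} {v : V} (hv : v ∈ wt E γ) (i j k : Fin n) :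
    E k k (E i j v) =
      ((γ k : ℂ) + (if k = i then 1 else 0) - (if k = j then 1 else 0)) • E i j v := by
  rw [comm_apply hE, mem_wt.1 hv k, map_smul, sub_smul, add_smul]
  congr 1
  · congr 1
    split_ifs with h
    · subst h; simp
    · simp
  · by_cases h : k = j
    · subst h; simp
    · have h' : ¬ j = k := fun h' => h h'.symm
      simp [h, h']

theorem map_mem_wt (hE : IsGl E) {γ γ' : Fin n → ℕ} {v : V} (hv : v ∈ wt E γ) {i j : Fin n}
    (h : ∀ k, γ k + (if k = i then 1 else 0) = γ' k + (if k = j then 1 else 0)) :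
    E i j v ∈ wt E γ' := by
  rw [mem_wt]
  intro k
  rw [diag_apply hE hv]
  congr 1
  have := congrArg (fun x : ℕ => (x : ℂ)) (h k)
  push_cast at this
  rw [this]; ring

theorem eq_zero_of_neg (hE : Good E) {j : Fin n} {w : V} (hw : E j j w = -w) : w = 0 := by
  obtain ⟨B, hB, hpos, hadj⟩ := hE.uni
  have key : ∀ u, B w u = 0 := by
    intro u
    have hu : u ∈ ⨆ γ : Fin n → ℕ, wt E γ := by rw [hE.poly]; trivial
    refine Submodule.iSup_induction (motive := fun u => B w u = 0) _ hu ?_ ?_ ?_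
    · intro γ u hu
      have h1 := hadj j j w u
      rw [hw, mem_wt.1 hu j] at h1
      simp only [map_neg, LinearMap.neg_apply, map_smul, smul_eq_mul] at h1
      have h2 : ((γ j : ℂ) + 1) * B w u = 0 := by linear_combination -h1
      have h3 : ((γ j : ℂ) + 1) ≠ 0 := by exact_mod_cast Nat.succ_ne_zero (γ j)
      exact (mul_eq_zero.1 h2).resolve_left h3
    · simp
    · intro x y hx hy
      rw [map_add, hx, hy, add_zero]
  by_contra h
  have := hpos w h
  rw [key w] at this
  simp at this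

theorem map_eq_zero_of_wt (hE : Good E) {γ : Fin n → ℕ} {v : V} (hv : v ∈ wt E γ) {i j : Fin n}
    (hij : i ≠ j) (h : γ j = 0) : E i j v = 0 := by
  apply eq_zero_of_neg hE (j := j)
  rw [diag_apply hE.gl hv]
  simp [h, hij.symm]

theorem antitone_of_hw (hE : Good E) {mu : Fin n → ℕ} {v : V} (hv : v ∈ hw E mu) (h0 : v ≠ 0) :
    Antitone mu := by
  obtain ⟨B, hB, hpos, hadj⟩ := hE.uni
  intro i j hij
  rcases hij.eq_or_lt with rfl | hij
  · exact le_rfl
  obtain ⟨hv1, hv2⟩ := mem_hw.1 hv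
  have h1 : B (E j i v) (E j i v) = ((mu i : ℂ) - mu j) * B v v := by
    rw [hadj, comm_apply hE.gl, hv2 i j hij]
    simp [hv1, sub_mul]
  have h2 : 0 ≤ (B (E j i v) (E j i v)).re := by
    by_cases h : E j i v = 0
    · simp [h]
    · exact (hpos _ h).le
  have h3 := hpos v h0
  rw [h1] at h2
  have h4 : (((mu i : ℂ) - mu j) * B v v).re = ((mu i : ℝ) - mu j) * (B v v).re := by
    simp [Complex.mul_re]
  rw [h4] at h2
  have h5 : 0 ≤ (mu i : ℝ) - mu j := nonneg_of_mul_nonneg_left h2 h3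
  exact_mod_cast sub_nonneg.1 h5

/-! ### Dominance -/

/-- Weak dominance, in dual form. -/
def Dom (lam nu : Fin n → ℕ) : Prop :=
  ∀ a : Fin n → ℤ, Antitone a → ∑ i, a i * lam i ≤ ∑ i, a i * nu i

/-- The height function. -/
def ht (nu : Fin n → ℕ) : ℕ := ∑ i : Fin n, (i : ℕ) * nu i

theorem Dom.trans {a b c : Fin n → ℕ} (h : Dom a b) (h' : Dom b c) : Dom a c :=
  fun x hx => (h x hx).trans (h' x hx)

theorem Dom.refl (a : Fin n → ℕ) : Dom a a := fun _ _ => le_rfl

theorem sum_shift {γ γ' : Fin n → ℕ} {i j : Fin n}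
    (h : ∀ k, γ k + (if k = i then 1 else 0) = γ' k + (if k = j then 1 else 0))
    (a : Fin n → ℤ) : ∑ k, a k * γ k + a i = ∑ k, a k * γ' k + a j := by
  have h1 : ∑ k, a k * ((γ k + (if k = i then 1 else 0) : ℕ) : ℤ) =
      ∑ k, a k * ((γ' k + (if k = j then 1 else 0) : ℕ) : ℤ) := by
    simp only [h]
  simpa [mul_add, sum_add_distrib] using h1

theorem exists_shift (γ : Fin n → ℕ) (i : Fin n) {j : Fin n} (hj : γ j ≠ 0) :
    ∃ γ' : Fin n → ℕ,
      ∀ k, γ k + (if k = i then 1 else 0) = γ' k + (if k = j then 1 else 0) := by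
  refine ⟨fun k => γ k + (if k = i then 1 else 0) - (if k = j then 1 else 0), fun k => ?_⟩
  by_cases h : k = j
  · subst h
    simp only [if_true]
    omega
  · simp [h]

theorem dom_of_shift {γ γ' : Fin n → ℕ} {i j : Fin n} (hij : i < j)
    (h : ∀ k, γ k + (if k = i then 1 else 0) = γ' k + (if k = j then 1 else 0)) :
    Dom γ γ' ∧ ht γ' < ht γ := by
  constructor
  · intro a ha
    have h1 := sum_shift h a
    have h2 := ha hij.le
    linarith
  · have h1 := sum_shift h (fun k => ((k : ℕ) : ℤ))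
    have h2 : ((i : ℕ) : ℤ) < (j : ℕ) := by exact_mod_cast hij
    have h3 : ((ht γ' : ℕ) : ℤ) < ht γ := by
      simp only [ht]; push_cast; linarith
    exact_mod_cast h3

/-- Raising to a highest weight vector. -/
theorem exists_hw (hE : Good E) {K : Submodule ℂ V} (hK : Stable E K) :
    ∀ (m : ℕ) (nu : Fin n → ℕ), ht nu = m → ∀ v ∈ K, v ∈ wt E nu → v ≠ 0 →
      ∃ mu, Dom nu mu ∧ ht mu ≤ ht nu ∧ ∃ u ∈ K, u ∈ hw E mu ∧ u ≠ 0 := by
  intro m
  induction m using Nat.strong_induction_on with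
  | _ m ih =>
    intro nu hm v hvK hv h0
    by_cases h : ∀ i j, i < j → E i j v = 0
    · exact ⟨nu, Dom.refl _, le_rfl, v, hvK, mem_hw.2 ⟨mem_wt.1 hv, h⟩, h0⟩
    · push Not at h
      obtain ⟨i, j, hij, hne⟩ := h
      have hj : nu j ≠ 0 := fun h => hne (map_eq_zero_of_wt hE hv hij.ne h)
      obtain ⟨nu', hnu'⟩ := exists_shift nu i hj
      obtain ⟨hd, hlt⟩ := dom_of_shift hij hnu'
      obtain ⟨mu, h1, h2, h3⟩ := ih (ht nu') (hm ▸ hlt) nu' rfl (E i j v) (hK i j v hvK)
        (map_mem_wt hE.gl hv hnu') hne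
      exact ⟨mu, hd.trans h1, h2.trans hlt.le, h3⟩

/-! ### Sums over pairs -/

/-- The pairs `i < j`. -/
abbrev pairs (n : ℕ) : Finset (Fin n × Fin n) :=
  (Finset.univ : Finset (Fin n × Fin n)).filter (fun p => p.1 < p.2)

theorem sum_pairs_fst {M : Type*} [AddCommMonoid M] (f : Fin n → M) :
    ∑ p ∈ pairs n, f p.1 = ∑ i : Fin n, (n - 1 - (i : ℕ)) • f i := by
  rw [sum_filter, ← univ_product_univ, sum_product]
  refine sum_congr rfl fun i _ => ?_
  dsimp only
  rw [← sum_filter, sum_const, ← Fin.card_Ioi]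
  congr 2
  ext j; simp

theorem sum_pairs_snd {M : Type*} [AddCommMonoid M] (f : Fin n → M) :
    ∑ p ∈ pairs n, f p.2 = ∑ i : Fin n, (i : ℕ) • f i := by
  rw [sum_filter, ← univ_product_univ, sum_product_right]
  refine sum_congr rfl fun j _ => ?_
  dsimp only
  rw [← sum_filter, sum_const, ← Fin.card_Iio]
  congr 2
  ext i; simp

theorem sum_sum_eq {M : Type*} [AddCommMonoid M] (f : Fin n → Fin n → M) :
    ∑ i, ∑ j, f i j = ∑ i, f i i + ∑ p ∈ pairs n, (f p.1 p.2 + f p.2 p.1) := by
  have h1 : ∀ i j : Fin n, f i j = (if i = j then f i j else 0) +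
      ((if i < j then f i j else 0) + (if j < i then f i j else 0)) := by
    intro i j
    rcases lt_trichotomy i j with h | h | h
    · simp [h, h.ne, h.not_gt]
    · simp [h]
    · simp [h, h.ne', h.not_gt]
  have h2 : ∑ p ∈ pairs n, f p.1 p.2 = ∑ i, ∑ j, if i < j then f i j else 0 := by
    rw [sum_filter, ← univ_product_univ, sum_product]
  have h3 : ∑ p ∈ pairs n, f p.2 p.1 = ∑ i, ∑ j, if j < i then f i j else 0 := by
    rw [sum_filter, ← univ_product_univ, sum_product_right]
  rw [sum_add_distrib, h2, h3, ← sum_add_distrib, ← sum_add_distrib]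
  refine sum_congr rfl fun i _ => ?_
  rw [sum_congr rfl fun j _ => h1 i j, sum_add_distrib, sum_add_distrib]
  simp

/-! ### The Casimir operator -/

/-- The Casimir operator. -/
def casimir (E : Fin n → Fin n → Module.End ℂ V) : Module.End ℂ V := ∑ i, ∑ j, E i j * E j i

/-- The Casimir eigenvalue. -/
def cas (mu : Fin n → ℕ) : ℤ := ∑ i, ((mu i : ℤ) + ((n : ℤ) - 1 - 2 * (i : ℕ))) * mu i

theorem casimir_comm (hE : IsGl E) (k l : Fin n) : Commute (casimir E) (E k l) := by
  have h1 : ∀ i j, E i j * E j i * E k l - E k l * (E i j * E j i) =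
      ((if i = k then E i j * E j l else 0) - (if l = j then E i j * E k i else 0)) +
      ((if j = k then E i l * E j i else 0) - (if l = i then E k j * E j i else 0)) := by
    intro i j
    have e1 : E i j * E j i * E k l - E k l * (E i j * E j i) =
        E i j * (E j i * E k l - E k l * E j i) + (E i j * E k l - E k l * E i j) * E j i := by
      noncomm_ring
    rw [e1, hE, hE, mul_sub, sub_mul]
    simp only [mul_ite, ite_mul, mul_zero, zero_mul]
  rw [Commute, SemiconjBy, ← sub_eq_zero, casimir, sum_mul, mul_sum, ← sum_sub_distrib]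
  simp only [sum_mul, mul_sum, ← sum_sub_distrib, h1]
  simp only [sum_add_distrib, sum_sub_distrib, sum_ite_eq, sum_ite_eq', mem_univ, if_true]
  have e2 : ∑ i, ∑ j, (if i = k then E i j * E j l else 0) = ∑ j, E k j * E j l := by
    rw [sum_comm]; simp
  have e3 : ∑ i, ∑ j, (if l = i then E k j * E j i else 0) = ∑ j, E k j * E j l := by
    rw [sum_comm]; simp
  rw [e2, e3]; abel

theorem casimir_mem {U : Submodule ℂ V} (hU : Stable E U) {v : V} (hv : v ∈ U) :
    casimir E v ∈ U := by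
  simp only [casimir, LinearMap.sum_apply, Module.End.mul_apply]
  exact U.sum_mem fun i _ => U.sum_mem fun j _ => hU _ _ _ (hU _ _ _ hv)

theorem casimir_hw (hE : IsGl E) {mu : Fin n → ℕ} {v : V} (hv : v ∈ hw E mu) :
    casimir E v = (cas mu : ℂ) • v := by
  obtain ⟨hv1, hv2⟩ := mem_hw.1 hv
  simp only [casimir, LinearMap.sum_apply, Module.End.mul_apply]
  rw [sum_sum_eq (fun i j => E i j (E j i v))]
  have h1 : ∀ p ∈ pairs n, E p.1 p.2 (E p.2 p.1 v) + E p.2 p.1 (E p.1 p.2 v) =
      (mu p.1 : ℂ) • v + (-(mu p.2 : ℂ)) • v := by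
    intro p hp
    have hp' : p.1 < p.2 := by simpa using hp
    rw [comm_apply hE, hv2 _ _ hp']
    simp [hv1, sub_eq_add_neg]
  rw [sum_congr rfl h1, sum_add_distrib, sum_pairs_fst (fun i => (mu i : ℂ) • v),
    sum_pairs_snd (fun i => (-(mu i : ℂ)) • v), ← sum_add_distrib, ← sum_add_distrib, cas]
  push_cast
  rw [sum_smul]
  refine sum_congr rfl fun i _ => ?_
  rw [hv1, map_smul, hv1, smul_smul, ← Nat.cast_smul_eq_nsmul ℂ, ← Nat.cast_smul_eq_nsmul ℂ,
    smul_smul, smul_smul, ← add_smul, ← add_smul]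
  congr 1
  have : ((n - 1 - (i : ℕ) : ℕ) : ℂ) = n - 1 - (i : ℕ) := by
    have := i.2
    rw [Nat.sub_sub, Nat.cast_sub (by omega)]; push_cast; ring
  rw [this]; ring

theorem cas_lt {lam mu : Fin n → ℕ} (hlam : Antitone lam) (hmu : Antitone mu) (hd : Dom lam mu)
    (hlt : ht mu < ht lam) : cas lam < cas mu := by
  have h1 := hd (fun i => (mu i : ℤ) + lam i + ((n : ℤ) - 1)) (by
    intro i j hij
    have := hlam hij
    have := hmu hij
    simp only
    omega)
  have h2 : ((ht mu : ℕ) : ℤ) < ht lam := by exact_mod_cast hlt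
  simp only [ht] at h2
  push_cast at h2
  have h3 : cas mu - cas lam =
      (∑ i, ((mu i : ℤ) + lam i + ((n : ℤ) - 1)) * mu i -
        ∑ i, ((mu i : ℤ) + lam i + ((n : ℤ) - 1)) * lam i) +
      2 * (∑ i : Fin n, ((i : ℕ) : ℤ) * lam i - ∑ i : Fin n, ((i : ℕ) : ℤ) * mu i) := by
    simp only [cas, ← sum_sub_distrib, mul_sum, ← sum_add_distrib]
    refine sum_congr rfl fun i _ => ?_
    ring
  linarith

end Crest.Agent.R187.Weyl
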