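import Crest.Agent.R187.WeylBasic

/-!
The polynomial identity behind the Weyl multiplicity formula.
-/

set_option autoImplicit false

namespace Crest.Agent.R187.Weyl

open Finset MvPolynomial

variable {n : ℕ}

/-- Euler operators. -/
noncomputable def th (i : Fin n) (f : MvPolynomial (Fin n) ℂ) : MvPolynomial (Fin n) ℂ :=
  X i * pderiv i f

theorem th_add (i : Fin n) (f g : MvPolynomial (Fin n) ℂ) : th i (f + g) = th i f + th i g := by
  simp [th, mul_add]

theorem th_sub (i : Fin n) (f g : MvPolynomial (Fin n) ℂ) : th i (f - g) = th i f - th i g := by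
  simp [th, mul_sub]

theorem th_mul (i : Fin n) (f g : MvPolynomial (Fin n) ℂ) :
    th i (f * g) = th i f * g + f * th i g := by
  simp only [th, Derivation.leibniz, smul_eq_mul]; ring

theorem th_sum {ι : Type*} (i : Fin n) (s : Finset ι) (f : ι → MvPolynomial (Fin n) ℂ) :
    th i (∑ a ∈ s, f a) = ∑ a ∈ s, th i (f a) := by
  simp [th, mul_sum]

theorem th_monomial (i : Fin n) (m : Fin n →₀ ℕ) (r : ℂ) :
    th i (monomial m r) = monomial m (m i * r) := by
  rw [th, X_mul_pderiv_monomial, smul_monomial]; simp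

theorem th_X (i a : Fin n) : th i (X a : MvPolynomial (Fin n) ℂ) = if i = a then X a else 0 := by
  by_cases h : i = a
  · subst h; simp [th]
  · simp [th, h, pderiv_X_of_ne (Ne.symm h)]

theorem coeff_th (i : Fin n) (f : MvPolynomial (Fin n) ℂ) (γ : Fin n →₀ ℕ) :
    coeff γ (th i f) = γ i * coeff γ f := by
  induction f using MvPolynomial.induction_on' with
  | monomial m r =>
    rw [th_monomial, coeff_monomial, coeff_monomial]
    split_ifs with h
    · rw [h]
    · simp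
  | add p q hp hq => rw [th_add, coeff_add, coeff_add, hp, hq, mul_add]

/-- Partial Vandermonde products. -/
noncomputable def Dp (s : Finset (Fin n × Fin n)) : MvPolynomial (Fin n) ℂ :=
  ∏ p ∈ s, (X p.1 - X p.2)

theorem key_identity (χ : MvPolynomial (Fin n) ℂ) (S : Fin n × Fin n → MvPolynomial (Fin n) ℂ)
    (s : Finset (Fin n × Fin n))
    (hS : ∀ p ∈ s, (X p.1 - X p.2) * S p = (X p.1 + X p.2) * (th p.1 χ - th p.2 χ)) :
    Dp s * ∑ p ∈ s, S p =
      2 * ∑ i, th i (Dp s) * th i χ - Dp s * ∑ p ∈ s, (th p.1 χ + th p.2 χ) := by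
  induction s using Finset.induction_on with
  | empty => simp [Dp, th]
  | insert p s hp ih =>
    have ih' := ih fun q hq => hS q (mem_insert_of_mem hq)
    have h1 := hS p (mem_insert_self _ _)
    have h2 : Dp (insert p s) = (X p.1 - X p.2) * Dp s := by rw [Dp, prod_insert hp]; rfl
    have h3 : ∑ i, th i ((X p.1 - X p.2) * Dp s) * th i χ =
        Dp s * (X p.1 * th p.1 χ - X p.2 * th p.2 χ) +
          (X p.1 - X p.2) * ∑ i, th i (Dp s) * th i χ := by
      simp only [th_mul, th_sub, th_X, add_mul, sum_add_distrib, sub_mul, ite_mul, zero_mul,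
        sum_sub_distrib, sum_ite_eq', mem_univ, if_true, mul_sum, mul_assoc]
      ring
    rw [h2, h3, sum_insert hp, sum_insert hp]
    linear_combination (X p.1 - X p.2) * ih' + Dp s * h1

/-- The exponent `σ ρ`. -/
noncomputable def rhoPerm (σ : Equiv.Perm (Fin n)) : Fin n →₀ ℕ :=
  Finsupp.equivFunOnFinite.symm (fun i => n - 1 - (σ i : ℕ))

@[simp] theorem rhoPerm_apply (σ : Equiv.Perm (Fin n)) (i : Fin n) :
    rhoPerm σ i = n - 1 - (σ i : ℕ) := rfl

@[simp] theorem plusRho_apply (lam : Fin n → ℕ) (i : Fin n) :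
    plusRho lam i = lam i + (n - 1 - (i : ℕ)) := rfl

theorem Dp_pairs : Dp (pairs n) =
    ∑ σ : Equiv.Perm (Fin n), monomial (rhoPerm σ) ((Equiv.Perm.sign σ : ℤ) : ℂ) := by
  have h := Matrix.det_projVandermonde (fun _ : Fin n => (1 : MvPolynomial (Fin n) ℂ))
    (fun i => X i)
  have h1 : Dp (pairs n) = ∏ i : Fin n, ∏ j ∈ Ioi i, ((1 : MvPolynomial (Fin n) ℂ) * X i - 1 * X j) := by
    rw [Dp, prod_filter, ← univ_product_univ, prod_product]
    refine prod_congr rfl fun i _ => ?_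
    dsimp only
    rw [← prod_filter]
    refine prod_congr ?_ fun j _ => by simp
    ext j; simp
  rw [h1, ← h, ← Matrix.det_transpose, Matrix.det_apply']
  refine sum_congr rfl fun σ _ => ?_
  rw [monomial_eq, Finsupp.prod_fintype _ _ (by simp)]
  congr 1
  refine prod_congr rfl fun i _ => ?_
  simp only [Matrix.transpose_apply, Matrix.projVandermonde_apply, one_pow, one_mul, rhoPerm_apply,
    Fin.val_rev]
  congr 1
  omega

theorem sum_th_Dp : ∑ i, th i (Dp (pairs n)) =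
    C (∑ i : Fin n, ((n - 1 - (i : ℕ) : ℕ) : ℂ)) * Dp (pairs n) := by
  rw [Dp_pairs]
  simp only [th_sum, th_monomial, mul_sum, C_mul_monomial]
  rw [sum_comm]
  refine sum_congr rfl fun σ _ => ?_
  rw [← map_sum, ← sum_mul]
  congr 2
  exact Equiv.sum_comp σ (fun i : Fin n => ((n - 1 - (i : ℕ) : ℕ) : ℂ))

theorem sum_th_th_Dp : ∑ i, th i (th i (Dp (pairs n))) =
    C (∑ i : Fin n, ((n - 1 - (i : ℕ) : ℕ) : ℂ) ^ 2) * Dp (pairs n) := by
  rw [Dp_pairs]
  simp only [th_sum, th_monomial, mul_sum, C_mul_monomial]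
  rw [sum_comm]
  refine sum_congr rfl fun σ _ => ?_
  rw [← map_sum]
  congr 1
  rw [← Equiv.sum_comp σ (fun i : Fin n => ((n - 1 - (i : ℕ) : ℕ) : ℂ) ^ 2), sum_mul]
  refine sum_congr rfl fun i _ => ?_
  simp only [rhoPerm_apply]; ring

theorem sum_pairs_add (f : Fin n → MvPolynomial (Fin n) ℂ) :
    ∑ p ∈ pairs n, (f p.1 + f p.2) = C ((n : ℂ) - 1) * ∑ i, f i := by
  rw [sum_add_distrib, sum_pairs_fst f, sum_pairs_snd f, ← sum_add_distrib, mul_sum]
  refine sum_congr rfl fun i _ => ?_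
  rw [← add_smul, nsmul_eq_mul]
  congr 1
  have := i.2
  have h : n - 1 - (i : ℕ) + i = n - 1 := by omega
  rw [h, Nat.cast_sub (by omega)]
  simp

theorem coeff_identity (f g : MvPolynomial (Fin n) ℂ)
    (S : Fin n × Fin n → MvPolynomial (Fin n) ℂ)
    (hS : ∀ p ∈ pairs n, (X p.1 - X p.2) * S p = (X p.1 + X p.2) * (th p.1 f - th p.2 f))
    (hg : g = ∑ i, th i (th i f) + ∑ p ∈ pairs n, S p) (lam : Fin n → ℕ) :
    coeff (plusRho lam) (Dp (pairs n) * g) =
      (cas lam : ℂ) * coeff (plusRho lam) (Dp (pairs n) * f) := by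
  set D := Dp (pairs n) with hD
  have h1 := key_identity f S _ hS
  rw [← hD, sum_pairs_add (fun i => th i f)] at h1
  have h2 : ∑ i, th i (th i (D * f)) =
      (∑ i, th i (th i D)) * f + 2 * ∑ i, th i D * th i f + D * ∑ i, th i (th i f) := by
    simp only [th_mul, th_add, sum_mul, mul_sum, ← sum_add_distrib]
    refine sum_congr rfl fun i _ => by ring
  have h3 : ∑ i, th i (D * f) = (∑ i, th i D) * f + D * ∑ i, th i f := by
    simp only [th_mul, sum_mul, mul_sum, ← sum_add_distrib]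
  rw [hD, sum_th_th_Dp, ← hD] at h2
  rw [hD, sum_th_Dp, ← hD] at h3
  have h4 : D * g = ∑ i, th i (th i (D * f)) -
      C (∑ i : Fin n, ((n - 1 - (i : ℕ) : ℕ) : ℂ) ^ 2) * (D * f) -
      C ((n : ℂ) - 1) * (∑ i, th i (D * f) -
        C (∑ i : Fin n, ((n - 1 - (i : ℕ) : ℕ) : ℂ)) * (D * f)) := by
    rw [hg, mul_add, h1, h2, h3]; ring
  rw [h4]
  simp only [coeff_sub, coeff_sum, coeff_C_mul, coeff_th, plusRho_apply]
  simp only [cas, ← sum_mul, ← mul_assoc, ← sub_mul]
  congr 1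
  push_cast
  simp only [mul_sum, ← sum_sub_distrib]
  refine sum_congr rfl fun i _ => ?_
  have : ((n - 1 - (i : ℕ) : ℕ) : ℂ) = n - 1 - (i : ℕ) := by
    have := i.2
    rw [Nat.sub_sub, Nat.cast_sub (by omega)]; push_cast; ring
  rw [this]; ring

theorem rhoPerm_dom {lam : Fin n → ℕ} {σ : Equiv.Perm (Fin n)} (hσ : σ ≠ 1)
    (hle : rhoPerm σ ≤ plusRho lam) :
    Dom lam (plusRho lam - rhoPerm σ : Fin n →₀ ℕ) ∧
      ht (plusRho lam - rhoPerm σ : Fin n →₀ ℕ) < ht lam := by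
  have hv : ∀ i, (((plusRho lam - rhoPerm σ : Fin n →₀ ℕ) i : ℕ) : ℤ) =
      lam i + ((σ i : ℕ) - (i : ℕ)) := by
    intro i
    have h1 := hle i
    have h2 := i.2
    have h3 := (σ i).2
    simp only [rhoPerm_apply, plusRho_apply] at h1
    simp only [Finsupp.coe_tsub, Pi.sub_apply, rhoPerm_apply, plusRho_apply]
    omega
  constructor
  · intro a ha
    simp only [hv, mul_add, mul_sub, sum_add_distrib, sum_sub_distrib]
    have hanti : Antivary a (fun i : Fin n => ((i : ℕ) : ℤ)) := by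
      intro i j hij
      apply ha
      have h' : ((i : ℕ) : ℤ) < (j : ℕ) := hij
      have : (i : ℕ) < j := by exact_mod_cast h'
      exact le_of_lt this
    have := hanti.sum_mul_le_sum_mul_comp_perm (σ := σ)
    linarith
  · have h1 : 0 < ∑ i : Fin n, (((σ i : ℕ) : ℤ) - (i : ℕ)) ^ 2 := by
      obtain ⟨i, hi⟩ : ∃ i, σ i ≠ i := by
        by_contra h
        push Not at h
        exact hσ (Equiv.ext h)
      refine sum_pos' (fun i _ => sq_nonneg _) ⟨i, mem_univ _, ?_⟩
      have : ((σ i : ℕ) : ℤ) - (i : ℕ) ≠ 0 := by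
        intro h
        apply hi
        ext
        omega
      positivity
    have h2 : ∑ i : Fin n, ((σ i : ℕ) : ℤ) ^ 2 = ∑ i : Fin n, ((i : ℕ) : ℤ) ^ 2 :=
      Equiv.sum_comp σ (fun i : Fin n => ((i : ℕ) : ℤ) ^ 2)
    have h3 : ∑ i : Fin n, (((σ i : ℕ) : ℤ) - (i : ℕ)) ^ 2 =
        ∑ i : Fin n, ((σ i : ℕ) : ℤ) ^ 2 - ∑ i : Fin n, ((i : ℕ) : ℤ) ^ 2 -
          2 * ∑ i : Fin n, ((i : ℕ) : ℤ) * (((σ i : ℕ) : ℤ) - (i : ℕ)) := by
      simp only [mul_sum, ← sum_sub_distrib]
      refine sum_congr rfl fun i _ => by ring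
    have h4 : ((ht (plusRho lam - rhoPerm σ : Fin n →₀ ℕ) : ℕ) : ℤ) < ht lam := by
      simp only [ht, Nat.cast_sum, Nat.cast_mul, hv, mul_add, sum_add_distrib]
      linarith
    exact_mod_cast h4

theorem plusRho_sub_rhoPerm_one (lam : Fin n → ℕ) :
    ((plusRho lam - rhoPerm 1 : Fin n →₀ ℕ) : Fin n → ℕ) = lam := by
  ext i
  simp

theorem rhoPerm_one_le (lam : Fin n → ℕ) : rhoPerm 1 ≤ plusRho lam := by
  intro i
  simp

theorem map_vand : MvPolynomial.map (Int.castRingHom ℂ) (vand n) = Dp (pairs n) := by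
  simp [vand, Dp]

end Crest.Agent.R187.Weyl
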